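import Vale.Agent.P242.H852.Pers2
import Vale.Agent.P242.H71.HFDef

/-!
# P242, package A-E6P: (A-bound) and (E6') in the words of Part A

One centre `x`, levels `t_j = (rr r₀ Λ j) ^ 2` with `r₀ ≤ ρ` arbitrary. `G t = Gm .. t x`,
`g s = gm .. s x`, `D t = Dt .. t x`; `NtF g Q A₀ ρ e t` is `Nt .. e t x` (by `rfl`).
-/

open MeasureTheory Set
open scoped InnerProductSpace

set_option linter.unusedSectionVars false

noncomputable section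

namespace Vale.Agent.P242.H852

open Vale.Agent.P242.H71

/-- the form `Nt`, for an arbitrary family of forms -/
def NtF {n : ℕ} (g : ℝ → E n → E n → ℝ) (Q A₀ ρ e t : ℝ) (c c' : E n) : ℝ :=
  (∫ s in t..Q * ρ ^ 2, (t / s) ^ e * g s c c') + A₀ * (t / ρ ^ 2) ^ e * ⟪c, c'⟫_ℝ

theorem NtF_eq {M : Type*} [MetricSpace M] [MeasurableSpace M] (m : Measure M) {n : ℕ} (K : ℝ)
    (p : ℝ → M → M → ℝ) (u : Fin n → M →ₘ[m] ℝ) (Q A₀ ρ e t : ℝ) (x : M) :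
    NtF (fun s => gm m K p u s x) Q A₀ ρ e t = Nt m K p u Q A₀ ρ e t x := rfl

/-- the level times -/
def tl (r₀ Λ : ℝ) (j : ℕ) : ℝ := rr r₀ Λ j ^ 2

theorem tl_eq (r₀ Λ : ℝ) (j : ℕ) : tl r₀ Λ j = r₀ ^ 2 / (Λ ^ 2) ^ j := by
  unfold tl rr
  rw [div_pow, ← pow_mul, ← pow_mul, mul_comm]

theorem tl_pos {r₀ Λ : ℝ} (hr : 0 < r₀) (hΛ : 0 < Λ) (j : ℕ) : 0 < tl r₀ Λ j := by
  rw [tl_eq]; positivity

theorem tl_succ {r₀ Λ : ℝ} (_hΛ : 0 < Λ) (j : ℕ) : tl r₀ Λ (j + 1) = tl r₀ Λ j / Λ ^ 2 := by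
  rw [tl_eq, tl_eq, pow_succ (Λ ^ 2) j, div_div]

/-- `n'_j(v) = √(Na_j(v) + D_j |v|_j²)` -/
def nn' {n : ℕ} (G g : ℝ → E n → E n → ℝ) (D : ℝ → ℝ) (Q A₀ ρ t : ℝ) (v : E n) : ℝ :=
  √(NtF g Q A₀ ρ (3 / 8) t v v + D t * G t v v)

/-- The hypotheses on the forms, at one centre. -/
structure E6F {n : ℕ} (G g : ℝ → E n → E n → ℝ) (D : ℝ → ℝ) (Q A₀ ρ Λ r₀ ε CL : ℝ) :
    Prop where
  hΛ : 256 ≤ Λ
  hr₀ : 0 < r₀
  hρ : 0 < ρ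
  r₀ρ : r₀ ≤ ρ
  hQ : 1 ≤ Q
  hA₀ : 0 < A₀
  hε : 0 < ε
  hCL : 1 ≤ CL
  bG : ∀ t, 0 < t → t ≤ ρ ^ 2 → SymBil (G t)
  pG : ∀ t, 0 < t → t ≤ ρ ^ 2 → ∀ c, 0 ≤ G t c c
  bg : ∀ s, 0 < s → s ≤ Q * ρ ^ 2 → SymBil (g s)
  pg : ∀ s, 0 < s → s ≤ Q * ρ ^ 2 → ∀ c, 0 ≤ g s c c
  ig : ∀ c c' a, 0 < a → a ≤ Q * ρ ^ 2 →
    IntervalIntegrable (fun s => g s c c') volume a (Q * ρ ^ 2)
  f7 : ∀ j c, G (tl r₀ Λ (j + 1)) c c ≤ 2 * G (tl r₀ Λ j) c c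
  p1 : ∀ j c, G (tl r₀ Λ j) c c ≤ 2 * G (tl r₀ Λ (j + 1)) c c
  low : ∀ j (c : E n), (tl r₀ Λ j / ρ ^ 2) ^ (1 / 8 : ℝ) * ‖c‖ ^ 2 ≤ 2 * G (tl r₀ Λ j) c c
  f2 : ∀ j c d, |G (tl r₀ Λ j) c d - G (tl r₀ Λ (j + 1)) c d| ≤
    CL * (√(NtF g Q A₀ ρ (3 / 8) (tl r₀ Λ j) c c) * √(NtF g Q A₀ ρ (3 / 8) (tl r₀ Λ j) d d))
  f4a : ∀ j c, NtF g Q A₀ ρ (3 / 8) (tl r₀ Λ j) c c ≤ ε * G (tl r₀ Λ j) c c
  Dle : ∀ j, D (tl r₀ Λ j) ≤ ε
  Dstep : ∀ j, D (tl r₀ Λ j) ≤ Λ ^ (1 / 4 : ℝ) * D (tl r₀ Λ (j + 1))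
  Dfl : ∀ j, A₀ * (tl r₀ Λ j / ρ ^ 2) ^ (1 / 8 : ℝ) ≤ D (tl r₀ Λ j)
  start : ∀ c : E n, ∫ s in tl r₀ Λ 0..Q * ρ ^ 2, g s c c ≤
    A₀ * (tl r₀ Λ 0 / ρ ^ 2) ^ (1 / 4 : ℝ) * ‖c‖ ^ 2

/-- The hypotheses, at one centre. -/
structure E6In {n : ℕ} (G g : ℝ → E n → E n → ℝ) (D : ℝ → ℝ) (Q A₀ ρ Λ r₀ ε CL : ℝ)
    (P : ℕ → E n → ℝ) (V : ℕ → ℝ) (A : ℕ → E n →ₗ[ℝ] E n) : Prop
    extends E6F G g D Q A₀ ρ Λ r₀ ε CL where
  A0 : ∀ j v, √(G (tl r₀ Λ j) (A j v) (A j v)) ≤ CL * √(G (tl r₀ Λ j) v v)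
  A1 : ∀ j v, √(G (tl r₀ Λ (j + 1)) (A (j + 1) v - A j v) (A (j + 1) v - A j v)) ≤
    CL * (√(D (tl r₀ Λ j)) * nn' G g D Q A₀ ρ (tl r₀ Λ j) v +
      √(D (tl r₀ Λ (j + 1))) * nn' G g D Q A₀ ρ (tl r₀ Λ (j + 1)) v)
  anti : ∀ j v w, |G (tl r₀ Λ j) (A j v) w - G (tl r₀ Λ j) v (A j w)| ≤
    CL * √(D (tl r₀ Λ j)) * (nn' G g D Q A₀ ρ (tl r₀ Λ j) v * √(G (tl r₀ Λ j) w w) +
      nn' G g D Q A₀ ρ (tl r₀ Λ j) w * √(G (tl r₀ Λ j) v v)) +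
    CL * √ε * (√(G (tl r₀ Λ j) (A j v) (A j v)) * nn' G g D Q A₀ ρ (tl r₀ Λ j) w +
      √(G (tl r₀ Λ j) (A j w) (A j w)) * nn' G g D Q A₀ ρ (tl r₀ Λ j) v)
  M : ∀ j v, |P j v - V j * G (tl r₀ Λ j) (A j v) v| ≤
    CL * (√(D (tl r₀ Λ j)) * nn' G g D Q A₀ ρ (tl r₀ Λ j) v * √(G (tl r₀ Λ j) v v) +
      √ε * √(G (tl r₀ Λ j) (A j v) (A j v)) * nn' G g D Q A₀ ρ (tl r₀ Λ j) v)
  Pnn : ∀ j v, 0 ≤ P j v
  Ple : ∀ j v, P j v ≤ CL * nn' G g D Q A₀ ρ (tl r₀ Λ j) v ^ 2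
  Vle : ∀ j, V j ≤ CL
  Vge : ∀ j, 1 ≤ CL * V j
  Vstep : ∀ j, |V j - V (j + 1)| ≤ CL * √(D (tl r₀ Λ j))
  K : ∀ j v s, tl r₀ Λ (j + 1) ≤ s → s ≤ tl r₀ Λ j → tl r₀ Λ (j + 1) * g s v v ≤
    CL * (ws (Λ ^ (-(1 / 2) : ℝ) / 2) (fun i => P i v) (j + 1) +
      A₀ * (tl r₀ Λ 0 / ρ ^ 2) ^ (1 / 8 : ℝ) * (Λ ^ (-(1 / 2) : ℝ) / 2) ^ (j + 1) *
        G (tl r₀ Λ (j + 1)) v v)

variable {n : ℕ} {G g : ℝ → E n → E n → ℝ} {D : ℝ → ℝ} {Q A₀ ρ Λ r₀ ε CL : ℝ}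
  {P : ℕ → E n → ℝ} {V : ℕ → ℝ} {A : ℕ → E n →ₗ[ℝ] E n}

/-- the block integrals -/
def SF (g : ℝ → E n → E n → ℝ) (r₀ Λ : ℝ) : ℕ → E n → ℝ
  | 0, _ => 0
  | j + 1, c => ∫ s in tl r₀ Λ (j + 1)..tl r₀ Λ j, g s c c

/-- the discrete data -/
def toPers (G g : ℝ → E n → E n → ℝ) (D : ℝ → ℝ) (Q A₀ ρ Λ r₀ : ℝ)
    (P : ℕ → E n → ℝ) (V : ℕ → ℝ) (A : ℕ → E n →ₗ[ℝ] E n) : V2.Pers (E n) where
  G j := toForm (G (tl r₀ Λ j))
  q j := toForm (fun c d => NtF g Q A₀ ρ (3 / 8) (tl r₀ Λ j) c d + D (tl r₀ Λ j) * G (tl r₀ Λ j) c d)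
  S := SF g r₀ Λ
  P := P
  V := V
  D j := D (tl r₀ Λ j)
  A := A

def toPar (A₀ ρ Λ r₀ ε CL : ℝ) : V2.Par where
  α := Λ ^ (-(1 / 2) : ℝ)
  β := Λ ^ (-(3 / 4) : ℝ)
  γ := Λ ^ (-(1 / 4) : ℝ)
  η := A₀ * (tl r₀ Λ 0 / ρ ^ 2) ^ (1 / 8 : ℝ)
  ε := ε
  CL := 5 * Λ ^ 2 * CL

namespace E6F

variable (h : E6F G g D Q A₀ ρ Λ r₀ ε CL)
include h

theorem Λpos : 0 < Λ := by linarith [h.hΛ]

theorem tpos (j : ℕ) : 0 < tl r₀ Λ j := tl_pos h.hr₀ h.Λpos j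

theorem t0le : tl r₀ Λ 0 ≤ ρ ^ 2 := by
  rw [tl_eq]; simp only [pow_zero, div_one]
  exact pow_le_pow_left₀ h.hr₀.le h.r₀ρ 2

theorem tanti (j : ℕ) : tl r₀ Λ (j + 1) ≤ tl r₀ Λ j := by
  rw [tl_succ h.Λpos]
  exact div_le_self (h.tpos j).le (one_le_pow₀ (by linarith [h.hΛ]))

theorem tle0 (j : ℕ) : tl r₀ Λ j ≤ tl r₀ Λ 0 := by
  induction j with
  | zero => exact le_rfl
  | succ j ih => exact (h.tanti j).trans ih

theorem tle (j : ℕ) : tl r₀ Λ j ≤ ρ ^ 2 := (h.tle0 j).trans h.t0le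

theorem ρle : ρ ^ 2 ≤ Q * ρ ^ 2 := by
  have := h.hQ
  have := sq_nonneg ρ
  nlinarith

theorem tleQ (j : ℕ) : tl r₀ Λ j ≤ Q * ρ ^ 2 := (h.tle j).trans h.ρle

/-- integrability of `g` on subintervals -/
theorem ig' (c c' : E n) {a b : ℝ} (ha : 0 < a) (hab : a ≤ b) (hb : b ≤ Q * ρ ^ 2) :
    IntervalIntegrable (fun s => g s c c') volume a b :=
  (h.ig c c' a ha (hab.trans hb)).mono_set (by
    rw [uIcc_of_le hab, uIcc_of_le (hab.trans hb)]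
    exact Icc_subset_Icc le_rfl hb)

/-- integrability with the weight -/
theorem igw (c c' : E n) {a b t e : ℝ} (ht : 0 < t) (ha : 0 < a) (hab : a ≤ b)
    (hb : b ≤ Q * ρ ^ 2) :
    IntervalIntegrable (fun s => (t / s) ^ e * g s c c') volume a b := by
  refine (h.ig' c c' ha hab hb).continuousOn_mul ?_
  intro s hs
  rw [uIcc_of_le hab] at hs
  have hs0 : 0 < s := ha.trans_le hs.1
  refine ContinuousAt.continuousWithinAt ?_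
  refine ContinuousAt.rpow_const ?_ (Or.inl (by positivity))
  exact continuousAt_const.div continuousAt_id hs0.ne'

theorem bN {e t : ℝ} (ht : 0 < t) (htQ : t ≤ Q * ρ ^ 2) : SymBil (NtF g Q A₀ ρ e t) := by
  have hpt : ∀ s ∈ uIcc t (Q * ρ ^ 2), SymBil (g s) := by
    intro s hs
    rw [uIcc_of_le htQ] at hs
    exact h.bg s (ht.trans_le hs.1) hs.2
  refine ⟨fun c d => ?_, fun a b d => ?_, fun r a d => ?_⟩
  · unfold NtF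
    rw [real_inner_comm]
    congr 1
    apply intervalIntegral.integral_congr
    intro s hs
    simp only
    rw [(hpt s hs).symm]
  · unfold NtF
    rw [inner_add_left]
    have : ∫ s in t..Q * ρ ^ 2, (t / s) ^ e * g s (a + b) d =
        (∫ s in t..Q * ρ ^ 2, (t / s) ^ e * g s a d) +
        ∫ s in t..Q * ρ ^ 2, (t / s) ^ e * g s b d := by
      rw [← intervalIntegral.integral_add (h.igw a d ht ht htQ le_rfl) (h.igw b d ht ht htQ le_rfl)]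
      apply intervalIntegral.integral_congr
      intro s hs
      simp only
      rw [(hpt s hs).add]
      ring
    rw [this]
    ring
  · unfold NtF
    rw [real_inner_smul_left]
    have : ∫ s in t..Q * ρ ^ 2, (t / s) ^ e * g s (r • a) d =
        r * ∫ s in t..Q * ρ ^ 2, (t / s) ^ e * g s a d := by
      rw [← intervalIntegral.integral_const_mul]
      apply intervalIntegral.integral_congr
      intro s hs
      simp only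
      rw [(hpt s hs).smul]
      ring
    rw [this]
    ring

theorem wnn {t s e : ℝ} (ht : 0 < t) (hs : 0 < s) : 0 ≤ (t / s) ^ e :=
  Real.rpow_nonneg (by positivity) _

theorem Nnn {e t : ℝ} (ht : 0 < t) (htQ : t ≤ Q * ρ ^ 2) (c : E n) :
    0 ≤ NtF g Q A₀ ρ e t c c := by
  unfold NtF
  have h1 : 0 ≤ ∫ s in t..Q * ρ ^ 2, (t / s) ^ e * g s c c := by
    apply intervalIntegral.integral_nonneg htQ
    intro s hs
    exact mul_nonneg (h.wnn ht (ht.trans_le hs.1)) (h.pg s (ht.trans_le hs.1) hs.2 c)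
  have h2 : 0 ≤ A₀ * (t / ρ ^ 2) ^ e * ⟪c, c⟫_ℝ := by
    have := h.hA₀
    have := h.hρ
    have : (0:ℝ) ≤ ⟪c, c⟫_ℝ := real_inner_self_nonneg
    positivity
  linarith

theorem Dnn (j : ℕ) : 0 ≤ D (tl r₀ Λ j) := by
  refine le_trans ?_ (h.Dfl j)
  have := h.hA₀
  have := h.tpos j
  have := h.hρ
  positivity

theorem Sint (c : E n) (j : ℕ) : 0 ≤ ∫ s in tl r₀ Λ (j + 1)..tl r₀ Λ j, g s c c := by
  apply intervalIntegral.integral_nonneg (h.tanti j)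
  intro s hs
  exact h.pg s ((h.tpos _).trans_le hs.1) (hs.2.trans (h.tleQ j)) c

theorem Snn (j : ℕ) (c : E n) : 0 ≤ SF g r₀ Λ j c := by
  cases j with
  | zero => exact le_rfl
  | succ j => exact h.Sint c j

/-- ratio of successive weights -/
theorem wstep (e : ℝ) (j : ℕ) {s : ℝ} (hs : 0 < s) :
    (tl r₀ Λ (j + 1) / s) ^ e = Λ ^ (-(2 * e)) * (tl r₀ Λ j / s) ^ e := by
  have hΛ := h.Λpos
  rw [tl_succ hΛ]
  have e1 : tl r₀ Λ j / Λ ^ 2 / s = (Λ ^ 2)⁻¹ * (tl r₀ Λ j / s) := by field_simp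
  rw [e1, Real.mul_rpow (by positivity) (by have := h.tpos j; positivity)]
  congr 1
  rw [← Real.rpow_natCast Λ 2, ← Real.rpow_neg hΛ.le, ← Real.rpow_mul hΛ.le]
  congr 1
  push_cast
  ring

/-- the integral from level `j` to level `0` is bounded by the weighted sum of the blocks -/
theorem Iblock {e : ℝ} (he : 0 ≤ e) (c : E n) (j : ℕ) :
    ∫ s in tl r₀ Λ j..tl r₀ Λ 0, (tl r₀ Λ j / s) ^ e * g s c c ≤
      ws (Λ ^ (-(2 * e))) (fun i => SF g r₀ Λ i c) j := by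
  induction j with
  | zero => simp [ws_zero, SF]
  | succ j ih =>
    rw [ws_succ]
    have hp := h.tpos (j + 1)
    have hs1 : ∫ s in tl r₀ Λ (j + 1)..tl r₀ Λ 0, (tl r₀ Λ (j + 1) / s) ^ e * g s c c =
        (∫ s in tl r₀ Λ (j + 1)..tl r₀ Λ j, (tl r₀ Λ (j + 1) / s) ^ e * g s c c) +
        ∫ s in tl r₀ Λ j..tl r₀ Λ 0, (tl r₀ Λ (j + 1) / s) ^ e * g s c c := by
      rw [intervalIntegral.integral_add_adjacent_intervals]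
      · exact h.igw c c hp hp (h.tanti j) (h.tleQ j)
      · exact h.igw c c hp (h.tpos j) (h.tle0 j) (h.tleQ 0)
    rw [hs1]
    have hs2 : ∫ s in tl r₀ Λ j..tl r₀ Λ 0, (tl r₀ Λ (j + 1) / s) ^ e * g s c c =
        Λ ^ (-(2 * e)) * ∫ s in tl r₀ Λ j..tl r₀ Λ 0, (tl r₀ Λ j / s) ^ e * g s c c := by
      rw [← intervalIntegral.integral_const_mul]
      apply intervalIntegral.integral_congr
      intro s hs
      rw [uIcc_of_le (h.tle0 j)] at hs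
      simp only
      rw [h.wstep e j ((h.tpos j).trans_le hs.1)]
      ring
    rw [hs2]
    have hs3 : ∫ s in tl r₀ Λ (j + 1)..tl r₀ Λ j, (tl r₀ Λ (j + 1) / s) ^ e * g s c c ≤
        SF g r₀ Λ (j + 1) c := by
      unfold SF
      apply intervalIntegral.integral_mono_on (h.tanti j)
        (h.igw c c hp hp (h.tanti j) (h.tleQ j)) (h.ig' c c hp (h.tanti j) (h.tleQ j))
      intro s hs
      have hs0 : 0 < s := hp.trans_le hs.1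
      have h1 : (tl r₀ Λ (j + 1) / s) ^ e ≤ 1 :=
        Real.rpow_le_one (by positivity) ((div_le_one hs0).2 hs.1) he
      have h2 := h.pg s hs0 (hs.2.trans (h.tleQ j)) c
      nlinarith
    have hs4 : 0 ≤ Λ ^ (-(2 * e)) := Real.rpow_nonneg h.Λpos.le _
    have := mul_le_mul_of_nonneg_left ih hs4
    linarith

/-- the powers of the ratios -/
theorem wpow (e : ℝ) (j : ℕ) {s : ℝ} (hs : 0 < s) :
    (tl r₀ Λ j / s) ^ e = (tl r₀ Λ j / tl r₀ Λ 0) ^ e * (tl r₀ Λ 0 / s) ^ e := by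
  have h0 := h.tpos 0
  have hj := h.tpos j
  rw [← Real.mul_rpow (by positivity) (by positivity)]
  congr 1
  field_simp

/-- the full integral -/
theorem Iall {e : ℝ} (he : 1 / 4 ≤ e) (c : E n) (j : ℕ) :
    ∫ s in tl r₀ Λ j..Q * ρ ^ 2, (tl r₀ Λ j / s) ^ e * g s c c ≤
      ws (Λ ^ (-(2 * e))) (fun i => SF g r₀ Λ i c) j +
        2 * (D (tl r₀ Λ j) * G (tl r₀ Λ j) c c) := by
  have he0 : 0 ≤ e := by linarith
  have hj := h.tpos j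
  have h0 := h.tpos 0
  have hρ := h.hρ
  have hs1 : ∫ s in tl r₀ Λ j..Q * ρ ^ 2, (tl r₀ Λ j / s) ^ e * g s c c =
      (∫ s in tl r₀ Λ j..tl r₀ Λ 0, (tl r₀ Λ j / s) ^ e * g s c c) +
      ∫ s in tl r₀ Λ 0..Q * ρ ^ 2, (tl r₀ Λ j / s) ^ e * g s c c := by
    rw [intervalIntegral.integral_add_adjacent_intervals]
    · exact h.igw c c hj hj (h.tle0 j) (h.tleQ 0)
    · exact h.igw c c hj h0 (h.tleQ 0) le_rfl
  have hs2 : ∫ s in tl r₀ Λ 0..Q * ρ ^ 2, (tl r₀ Λ j / s) ^ e * g s c c ≤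
      (tl r₀ Λ j / tl r₀ Λ 0) ^ e * ∫ s in tl r₀ Λ 0..Q * ρ ^ 2, g s c c := by
    rw [← intervalIntegral.integral_const_mul]
    apply intervalIntegral.integral_mono_on (h.tleQ 0)
      (h.igw c c hj h0 (h.tleQ 0) le_rfl)
      ((h.ig' c c h0 (h.tleQ 0) le_rfl).const_mul _)
    intro s hs
    have hs0 : 0 < s := h0.trans_le hs.1
    have h2 := h.pg s hs0 hs.2 c
    rw [h.wpow e j hs0]
    have h3 : (tl r₀ Λ 0 / s) ^ e ≤ 1 :=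
      Real.rpow_le_one (by positivity) ((div_le_one hs0).2 hs.1) he0
    have h4 : 0 ≤ (tl r₀ Λ j / tl r₀ Λ 0) ^ e := by positivity
    calc (tl r₀ Λ j / tl r₀ Λ 0) ^ e * (tl r₀ Λ 0 / s) ^ e * g s c c
        ≤ (tl r₀ Λ j / tl r₀ Λ 0) ^ e * 1 * g s c c := by gcongr
      _ = _ := by ring
  have hs3 : (tl r₀ Λ j / tl r₀ Λ 0) ^ e ≤ (tl r₀ Λ j / tl r₀ Λ 0) ^ (1 / 4 : ℝ) :=
    Real.rpow_le_rpow_of_exponent_ge (by positivity) ((div_le_one h0).2 (h.tle0 j)) he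
  have hst := h.start c
  have hA := h.hA₀
  have hlow := h.low j c
  have hfl := h.Dfl j
  have hS0 : 0 ≤ ∫ s in tl r₀ Λ 0..Q * ρ ^ 2, g s c c := by
    apply intervalIntegral.integral_nonneg (h.tleQ 0)
    intro s hs
    exact h.pg s (h0.trans_le hs.1) hs.2 c
  have hG := h.pG _ hj (h.tle j) c
  have e1 : (tl r₀ Λ j / ρ ^ 2) ^ (1 / 4 : ℝ) =
      (tl r₀ Λ j / ρ ^ 2) ^ (1 / 8 : ℝ) * (tl r₀ Λ j / ρ ^ 2) ^ (1 / 8 : ℝ) := by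
    rw [← Real.rpow_add (by positivity)]; norm_num
  have hs4 : ∫ s in tl r₀ Λ 0..Q * ρ ^ 2, (tl r₀ Λ j / s) ^ e * g s c c ≤
      2 * (D (tl r₀ Λ j) * G (tl r₀ Λ j) c c) := by
    calc _ ≤ (tl r₀ Λ j / tl r₀ Λ 0) ^ e * ∫ s in tl r₀ Λ 0..Q * ρ ^ 2, g s c c := hs2
      _ ≤ (tl r₀ Λ j / tl r₀ Λ 0) ^ (1 / 4 : ℝ) *
          (A₀ * (tl r₀ Λ 0 / ρ ^ 2) ^ (1 / 4 : ℝ) * ‖c‖ ^ 2) := by gcongr
      _ = A₀ * ((tl r₀ Λ j / tl r₀ Λ 0) ^ (1 / 4 : ℝ) *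
          (tl r₀ Λ 0 / ρ ^ 2) ^ (1 / 4 : ℝ)) * ‖c‖ ^ 2 := by ring
      _ = A₀ * (tl r₀ Λ j / ρ ^ 2) ^ (1 / 4 : ℝ) * ‖c‖ ^ 2 := by
          rw [← h.wpow (1 / 4) j (by positivity)]
      _ = (A₀ * (tl r₀ Λ j / ρ ^ 2) ^ (1 / 8 : ℝ)) *
          ((tl r₀ Λ j / ρ ^ 2) ^ (1 / 8 : ℝ) * ‖c‖ ^ 2) := by rw [e1]; ring
      _ ≤ D (tl r₀ Λ j) * (2 * G (tl r₀ Λ j) c c) := by
          have := h.Dnn j
          gcongr
      _ = _ := by ring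
  rw [hs1]
  exact add_le_add (h.Iblock he0 c j) hs4

/-- the background of `Nt` -/
theorem bgle {e : ℝ} (he : 1 / 4 ≤ e) (c : E n) (j : ℕ) :
    A₀ * (tl r₀ Λ j / ρ ^ 2) ^ e * ⟪c, c⟫_ℝ ≤ 2 * (D (tl r₀ Λ j) * G (tl r₀ Λ j) c c) := by
  have hj := h.tpos j
  have hρ := h.hρ
  have hA := h.hA₀
  have hlow := h.low j c
  have hfl := h.Dfl j
  have hG := h.pG _ hj (h.tle j) c
  have e1 : (tl r₀ Λ j / ρ ^ 2) ^ (1 / 4 : ℝ) =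
      (tl r₀ Λ j / ρ ^ 2) ^ (1 / 8 : ℝ) * (tl r₀ Λ j / ρ ^ 2) ^ (1 / 8 : ℝ) := by
    rw [← Real.rpow_add (by positivity)]; norm_num
  have h3 : (tl r₀ Λ j / ρ ^ 2) ^ e ≤ (tl r₀ Λ j / ρ ^ 2) ^ (1 / 4 : ℝ) :=
    Real.rpow_le_rpow_of_exponent_ge (by positivity)
      ((div_le_one (by positivity)).2 (h.tle j)) he
  rw [real_inner_self_eq_norm_sq]
  calc A₀ * (tl r₀ Λ j / ρ ^ 2) ^ e * ‖c‖ ^ 2
      ≤ A₀ * (tl r₀ Λ j / ρ ^ 2) ^ (1 / 4 : ℝ) * ‖c‖ ^ 2 := by gcongr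
    _ = (A₀ * (tl r₀ Λ j / ρ ^ 2) ^ (1 / 8 : ℝ)) *
          ((tl r₀ Λ j / ρ ^ 2) ^ (1 / 8 : ℝ) * ‖c‖ ^ 2) := by rw [e1]; ring
    _ ≤ D (tl r₀ Λ j) * (2 * G (tl r₀ Λ j) c c) := by
          have := h.Dnn j
          gcongr
    _ = _ := by ring

/-- `Nt` is bounded by the weighted sum of the blocks -/
theorem Nle {e : ℝ} (he : 1 / 4 ≤ e) (c : E n) (j : ℕ) :
    NtF g Q A₀ ρ e (tl r₀ Λ j) c c ≤
      ws (Λ ^ (-(2 * e))) (fun i => SF g r₀ Λ i c) j +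
        4 * (D (tl r₀ Λ j) * G (tl r₀ Λ j) c c) := by
  unfold NtF
  linarith [h.Iall he c j, h.bgle he c j]

theorem powΛ (e : ℝ) (he : 1 / 4 ≤ e) : Λ ^ (-e) ≤ 1 / 4 := by
  have h1 : (4 : ℝ) ≤ Λ ^ e := by
    calc (4 : ℝ) = (256 : ℝ) ^ (1 / 4 : ℝ) := by
          rw [show (256 : ℝ) = 4 ^ (4 : ℝ) by norm_num, ← Real.rpow_mul (by norm_num)]
          norm_num
      _ ≤ Λ ^ (1 / 4 : ℝ) := Real.rpow_le_rpow (by norm_num) h.hΛ (by norm_num)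
      _ ≤ Λ ^ e := Real.rpow_le_rpow_of_exponent_le (by linarith [h.hΛ]) he
  rw [Real.rpow_neg h.Λpos.le]
  rw [inv_le_comm₀ (by linarith) (by norm_num)]
  norm_num
  linarith

theorem q_bil (j : ℕ) : SymBil (fun c d => NtF g Q A₀ ρ (3 / 8) (tl r₀ Λ j) c d +
    D (tl r₀ Λ j) * G (tl r₀ Λ j) c d) := by
  have h1 := h.bN (e := 3 / 8) (h.tpos j) (h.tleQ j)
  have h2 := h.bG _ (h.tpos j) (h.tle j)
  refine ⟨fun c d => ?_, fun a b d => ?_, fun r a d => ?_⟩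
  · rw [h1.symm, h2.symm]
  · rw [h1.add, h2.add]; ring
  · rw [h1.smul, h2.smul]; ring

theorem qnn (j : ℕ) (c : E n) : 0 ≤ NtF g Q A₀ ρ (3 / 8) (tl r₀ Λ j) c c +
      D (tl r₀ Λ j) * G (tl r₀ Λ j) c c :=
  add_nonneg (h.Nnn (h.tpos j) (h.tleQ j) c) (mul_nonneg (h.Dnn j) (h.pG _ (h.tpos j) (h.tle j) c))

end E6F

namespace E6In

variable (h : E6In G g D Q A₀ ρ Λ r₀ ε CL P V A)
include h

theorem G_app (j : ℕ) (c d : E n) :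
    (toPers G g D Q A₀ ρ Λ r₀ P V A).G j c d = G (tl r₀ Λ j) c d :=
  (h.bG _ (h.tpos j) (h.tle j)).toForm_apply c d

theorem q_app (j : ℕ) (c d : E n) :
    (toPers G g D Q A₀ ρ Λ r₀ P V A).q j c d = NtF g Q A₀ ρ (3 / 8) (tl r₀ Λ j) c d +
      D (tl r₀ Λ j) * G (tl r₀ Λ j) c d :=
  (h.q_bil j).toForm_apply c d

theorem nrG (j : ℕ) (c : E n) :
    nr ((toPers G g D Q A₀ ρ Λ r₀ P V A).G j) c = √(G (tl r₀ Λ j) c c) := by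
  unfold nr; rw [h.G_app]

theorem nrq (j : ℕ) (c : E n) :
    nr ((toPers G g D Q A₀ ρ Λ r₀ P V A).q j) c = nn' G g D Q A₀ ρ (tl r₀ Λ j) c := by
  unfold nr nn'; rw [h.q_app]

theorem hyp : V2.Hyp (toPar A₀ ρ Λ r₀ ε CL) (toPers G g D Q A₀ ρ Λ r₀ P V A) := by
  have hΛ := h.hΛ
  have hΛ0 := h.Λpos
  have hCL := h.hCL
  have hΛ2 : (1 : ℝ) ≤ Λ ^ 2 := one_le_pow₀ (by linarith)
  have hC1 : CL ≤ 5 * Λ ^ 2 * CL := by nlinarith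
  have hC5 : 5 ≤ 5 * Λ ^ 2 * CL := by nlinarith
  have hnn : ∀ j v, 0 ≤ nn' G g D Q A₀ ρ (tl r₀ Λ j) v := fun j v => Real.sqrt_nonneg _
  refine
    { hCL := ?_, hβ0 := ?_, hβα := ?_, hαγ := ?_, hγ := ?_, hη := ?_, hε := h.hε, G := ?_, q := ?_,
      S := ?_, gr1 := ?_, gr2 := ?_, qD := ?_, qε := ?_, qS := ?_, Dnn := h.Dnn, Dle := h.Dle,
      Dstep := ?_, D0 := h.Dfl 0, Gstep := ?_, A0 := ?_, A1 := ?_, anti := ?_, M := ?_,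
      Pnn := h.Pnn, Ple := ?_, Vle := ?_, Vge := ?_, Vstep := ?_, K := ?_ }
  · show 1 ≤ 5 * Λ ^ 2 * CL
    linarith
  · show 0 < Λ ^ (-(3 / 4) : ℝ)
    positivity
  · show Λ ^ (-(3 / 4) : ℝ) ≤ Λ ^ (-(1 / 2) : ℝ) / 2
    have e1 : Λ ^ (-(3 / 4) : ℝ) = Λ ^ (-(1 / 2) : ℝ) * Λ ^ (-(1 / 4) : ℝ) := by
      rw [← Real.rpow_add hΛ0]; norm_num
    rw [e1]
    have := h.powΛ (1 / 4) le_rfl
    have h2 : 0 ≤ Λ ^ (-(1 / 2) : ℝ) := by positivity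
    nlinarith
  · show Λ ^ (-(1 / 2) : ℝ) ≤ Λ ^ (-(1 / 4) : ℝ) / 4
    have e1 : Λ ^ (-(1 / 2) : ℝ) = Λ ^ (-(1 / 4) : ℝ) * Λ ^ (-(1 / 4) : ℝ) := by
      rw [← Real.rpow_add hΛ0]; norm_num
    rw [e1]
    have := h.powΛ (1 / 4) le_rfl
    have h2 : 0 ≤ Λ ^ (-(1 / 4) : ℝ) := by positivity
    nlinarith
  · show Λ ^ (-(1 / 4) : ℝ) ≤ 1 / 2
    linarith [h.powΛ (1 / 4) le_rfl]
  · show 0 ≤ A₀ * (tl r₀ Λ 0 / ρ ^ 2) ^ (1 / 8 : ℝ)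
    have := h.hA₀
    have := h.tpos 0
    have := h.hρ
    positivity
  · intro j
    refine ⟨fun v w => ?_, fun v => ?_⟩
    · rw [h.G_app, h.G_app]; exact (h.bG _ (h.tpos j) (h.tle j)).symm v w
    · rw [h.G_app]; exact h.pG _ (h.tpos j) (h.tle j) v
  · intro j
    refine ⟨fun v w => ?_, fun v => ?_⟩
    · rw [h.q_app, h.q_app]; exact (h.q_bil j).symm v w
    · rw [h.q_app]; exact h.qnn j v
  · exact h.Snn
  · intro j v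
    rw [h.G_app, h.G_app]; exact h.p1 j v
  · intro j v
    rw [h.G_app, h.G_app]; exact h.f7 j v
  · intro j v
    rw [h.G_app, h.q_app]
    have := h.Nnn (e := 3 / 8) (h.tpos j) (h.tleQ j) v
    show D (tl r₀ Λ j) * _ ≤ _
    linarith
  · intro j v
    rw [h.G_app, h.q_app]
    show _ ≤ 5 * Λ ^ 2 * CL * ε * _
    have h1 := h.f4a j v
    have hG := h.pG _ (h.tpos j) (h.tle j) v
    have h2 := mul_le_mul_of_nonneg_right (h.Dle j) hG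
    have h3 : 0 ≤ ε * G (tl r₀ Λ j) v v := mul_nonneg h.hε.le hG
    have h4 := mul_le_mul_of_nonneg_right hC5 h3
    linarith
  · intro j v
    rw [h.G_app, h.q_app]
    show _ ≤ 5 * Λ ^ 2 * CL * (ws (Λ ^ (-(3 / 4) : ℝ)) (fun i => SF g r₀ Λ i v) j +
      D (tl r₀ Λ j) * _)
    have h1 := h.Nle (e := 3 / 8) (by norm_num) v j
    have e1 : -(2 * (3 / 8 : ℝ)) = -(3 / 4) := by norm_num
    rw [e1] at h1
    have hG := mul_nonneg (h.Dnn j) (h.pG _ (h.tpos j) (h.tle j) v)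
    have hw : 0 ≤ ws (Λ ^ (-(3 / 4) : ℝ)) (fun i => SF g r₀ Λ i v) j :=
      ws_nonneg (by positivity) (fun i => h.Snn i v) j
    have h2 := mul_le_mul_of_nonneg_right hC5 (add_nonneg hw hG)
    linarith
  · intro j
    show Λ ^ (-(1 / 4) : ℝ) * D (tl r₀ Λ j) ≤ D (tl r₀ Λ (j + 1))
    have h1 := h.Dstep j
    rw [Real.rpow_neg hΛ0.le, inv_mul_le_iff₀ (by positivity)]
    exact h1
  · intro j v w
    rw [h.G_app, h.G_app, h.nrq, h.nrq, h.nrq, h.nrq]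
    show _ ≤ 5 * Λ ^ 2 * CL * _
    have h1 := h.f2 j v w
    have hDG : ∀ v, 0 ≤ D (tl r₀ Λ j) * G (tl r₀ Λ j) v v := fun v =>
      mul_nonneg (h.Dnn j) (h.pG _ (h.tpos j) (h.tle j) v)
    have h2 : ∀ v, √(NtF g Q A₀ ρ (3 / 8) (tl r₀ Λ j) v v) ≤ nn' G g D Q A₀ ρ (tl r₀ Λ j) v :=
      fun v => Real.sqrt_le_sqrt (by linarith [hDG v])
    calc _ ≤ CL * (√(NtF g Q A₀ ρ (3 / 8) (tl r₀ Λ j) v v) *
          √(NtF g Q A₀ ρ (3 / 8) (tl r₀ Λ j) w w)) := h1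
      _ ≤ 5 * Λ ^ 2 * CL * (nn' G g D Q A₀ ρ (tl r₀ Λ j) v * nn' G g D Q A₀ ρ (tl r₀ Λ j) w +
          nn' G g D Q A₀ ρ (tl r₀ Λ (j + 1)) v * nn' G g D Q A₀ ρ (tl r₀ Λ (j + 1)) w) := by
        have h3 := hnn (j + 1) v
        have h4 := hnn (j + 1) w
        have h5 : √(NtF g Q A₀ ρ (3 / 8) (tl r₀ Λ j) v v) *
            √(NtF g Q A₀ ρ (3 / 8) (tl r₀ Λ j) w w) ≤
            nn' G g D Q A₀ ρ (tl r₀ Λ j) v * nn' G g D Q A₀ ρ (tl r₀ Λ j) w :=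
          mul_le_mul (h2 v) (h2 w) (Real.sqrt_nonneg _) (hnn j v)
        have h6 := mul_nonneg h3 h4
        apply mul_le_mul hC1 (by linarith) (by positivity) (by linarith)
  · intro j v
    rw [h.nrG, h.nrG]
    show _ ≤ 5 * Λ ^ 2 * CL * _
    exact (h.A0 j v).trans (mul_le_mul_of_nonneg_right hC1 (Real.sqrt_nonneg _))
  · intro j v
    rw [h.nrG, h.nrq, h.nrq]
    show _ ≤ 5 * Λ ^ 2 * CL * (√(D (tl r₀ Λ j)) * _ + √(D (tl r₀ Λ (j + 1))) * _)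
    have h3 := hnn (j + 1) v
    have h4 := hnn j v
    refine (h.A1 j v).trans (mul_le_mul_of_nonneg_right hC1 (by positivity))
  · intro j v w
    rw [h.G_app, h.G_app, h.nrG, h.nrG, h.nrG, h.nrG, h.nrq, h.nrq]
    show _ ≤ 5 * Λ ^ 2 * CL * √(D (tl r₀ Λ j)) * _ + 5 * Λ ^ 2 * CL * √ε * _
    have h3 := hnn j v
    have h4 := hnn j w
    refine (h.anti j v w).trans (add_le_add ?_ ?_)
    · apply mul_le_mul_of_nonneg_right _ (by positivity)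
      exact mul_le_mul_of_nonneg_right hC1 (Real.sqrt_nonneg _)
    · apply mul_le_mul_of_nonneg_right _ (by positivity)
      exact mul_le_mul_of_nonneg_right hC1 (Real.sqrt_nonneg _)
  · intro j v
    rw [h.G_app, h.nrG, h.nrG, h.nrq]
    show |P j v - V j * G (tl r₀ Λ j) (A j v) v| ≤ 5 * Λ ^ 2 * CL * (√(D (tl r₀ Λ j)) * _ * _ +
      √ε * _ * _)
    have h3 := hnn j v
    exact (h.M j v).trans (mul_le_mul_of_nonneg_right hC1 (by positivity))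
  · intro j v
    rw [h.q_app]
    show P j v ≤ 5 * Λ ^ 2 * CL * _
    have h1 := h.Ple j v
    unfold nn' at h1
    rw [Real.sq_sqrt (h.qnn j v)] at h1
    exact h1.trans (mul_le_mul_of_nonneg_right hC1 (h.qnn j v))
  · intro j
    exact (h.Vle j).trans hC1
  · intro j
    show 1 ≤ 5 * Λ ^ 2 * CL * V j
    have h1 := h.Vge j
    have h2 : 0 < V j := by
      by_contra hc
      push Not at hc
      nlinarith
    have h3 := mul_le_mul_of_nonneg_right hC1 h2.le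
    linarith
  · intro j
    show _ ≤ 5 * Λ ^ 2 * CL * √(D (tl r₀ Λ j))
    exact (h.Vstep j).trans (mul_le_mul_of_nonneg_right hC1 (Real.sqrt_nonneg _))
  · intro j v
    rw [h.G_app]
    show SF g r₀ Λ j v ≤ 5 * Λ ^ 2 * CL * (ws (Λ ^ (-(1 / 2) : ℝ) / 2) (fun i => P i v) j +
      A₀ * (tl r₀ Λ 0 / ρ ^ 2) ^ (1 / 8 : ℝ) * (Λ ^ (-(1 / 2) : ℝ) / 2) ^ j * G (tl r₀ Λ j) v v)
    have hA₀ := h.hA₀
    have ht0 := h.tpos 0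
    have hρ := h.hρ
    have hG := h.pG _ (h.tpos j) (h.tle j) v
    have hw : 0 ≤ ws (Λ ^ (-(1 / 2) : ℝ) / 2) (fun i => P i v) j :=
      ws_nonneg (by positivity) (fun i => h.Pnn i v) j
    have hX : 0 ≤ ws (Λ ^ (-(1 / 2) : ℝ) / 2) (fun i => P i v) j +
      A₀ * (tl r₀ Λ 0 / ρ ^ 2) ^ (1 / 8 : ℝ) * (Λ ^ (-(1 / 2) : ℝ) / 2) ^ j *
        G (tl r₀ Λ j) v v := by positivity
    cases j with
    | zero =>
      show (0 : ℝ) ≤ _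
      exact mul_nonneg (by linarith) hX
    | succ j =>
      set X := ws (Λ ^ (-(1 / 2) : ℝ) / 2) (fun i => P i v) (j + 1) +
        A₀ * (tl r₀ Λ 0 / ρ ^ 2) ^ (1 / 8 : ℝ) * (Λ ^ (-(1 / 2) : ℝ) / 2) ^ (j + 1) *
          G (tl r₀ Λ (j + 1)) v v with hXd
      have hp := h.tpos (j + 1)
      have h1 : ∀ s ∈ Icc (tl r₀ Λ (j + 1)) (tl r₀ Λ j), g s v v ≤ CL * X / tl r₀ Λ (j + 1) := by
        intro s hs
        rw [le_div_iff₀ hp]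
        have := h.K j v s hs.1 hs.2
        linarith
      have h2 : SF g r₀ Λ (j + 1) v ≤ ∫ _ in tl r₀ Λ (j + 1)..tl r₀ Λ j,
          CL * X / tl r₀ Λ (j + 1) := by
        unfold SF
        exact intervalIntegral.integral_mono_on (h.tanti j) (h.ig' v v hp (h.tanti j) (h.tleQ j))
          intervalIntegrable_const h1
      rw [intervalIntegral.integral_const, smul_eq_mul] at h2
      have h3 : (tl r₀ Λ j - tl r₀ Λ (j + 1)) * (CL * X / tl r₀ Λ (j + 1)) ≤ Λ ^ 2 * (CL * X) := by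
        have e1 : tl r₀ Λ j = Λ ^ 2 * tl r₀ Λ (j + 1) := by
          rw [tl_succ hΛ0]; field_simp
        have h4 : 0 ≤ CL * X := mul_nonneg (by linarith) hX
        have e2 : (tl r₀ Λ j - tl r₀ Λ (j + 1)) * (CL * X / tl r₀ Λ (j + 1)) =
            Λ ^ 2 * (CL * X) - CL * X := by
          rw [e1]; field_simp
        rw [e2]; linarith
      have h5 : 0 ≤ Λ ^ 2 * (CL * X) := by
        have : 0 ≤ CL * X := mul_nonneg (by linarith) hX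
        positivity
      calc _ ≤ Λ ^ 2 * (CL * X) := h2.trans h3
        _ ≤ 5 * Λ ^ 2 * CL * X := by linarith

/-- (A-bound) in Voc words. -/
theorem abound (hε : ε ≤ 1 / (20 * (5 * Λ ^ 2 * CL) ^ 3)) (j : ℕ) (v : E n) :
    √(G (tl r₀ Λ j) (A j v) (A j v)) ≤
      22 * (5 * Λ ^ 2 * CL) ^ 3 * √ε * nn' G g D Q A₀ ρ (tl r₀ Λ j) v := by
  have h1 := h.hyp.A_bound hε j v
  rw [h.nrq] at h1
  rw [← h.nrG]
  exact h1

/-- (E6') in Voc words. -/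
theorem e6 (hε : ε ≤ 1 / (5760 * (5 * Λ ^ 2 * CL) ^ 8)) (k : ℕ) (c : E n) :
    NtF g Q A₀ ρ (1 / 4) (tl r₀ Λ k) c c ≤
      5000004 * (5 * Λ ^ 2 * CL) ^ 15 * (P k c + D (tl r₀ Λ k) * G (tl r₀ Λ k) c c) := by
  have h1 := h.hyp.persist hε k c
  have h2 := h.Nle (e := 1 / 4) le_rfl c k
  have e1 : -(2 * (1 / 4 : ℝ)) = -(1 / 2) := by norm_num
  rw [e1] at h2
  rw [h.G_app] at h1
  have h3 : ws (Λ ^ (-(1 / 2) : ℝ)) (fun j => SF g r₀ Λ j c) k ≤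
      5000000 * (5 * Λ ^ 2 * CL) ^ 15 * (P k c + D (tl r₀ Λ k) * G (tl r₀ Λ k) c c) := h1
  have hC : 1 ≤ 5 * Λ ^ 2 * CL := h.hyp.hCL
  have h4 : 1 ≤ (5 * Λ ^ 2 * CL) ^ 15 := one_le_pow₀ hC
  have h5 := mul_nonneg (h.Dnn k) (h.pG _ (h.tpos k) (h.tle k) c)
  have h6 := h.Pnn k c
  have h7 : 4 * (D (tl r₀ Λ k) * G (tl r₀ Λ k) c c) ≤
      4 * (5 * Λ ^ 2 * CL) ^ 15 * (P k c + D (tl r₀ Λ k) * G (tl r₀ Λ k) c c) := by
    have := mul_le_mul_of_nonneg_right h4 (add_nonneg h6 h5)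
    linarith
  linarith

end E6In

end Vale.Agent.P242.H852
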