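import Vale.Agent.P242.H852.DtV
import Vale.Agent.P242.H744.Start
import Vale.Agent.P242.H744.NuD
import Vale.Agent.P242.H155.Forms
import Vale.Agent.P242.H155.Tx
import Vale.Agent.P242.H597.EnvB
import Vale.Agent.P242.H703.Hf4

/-!
# P242, package A-E6P: the fields of `E6F` in the frozen vocabulary, directly from `Env`, `Cfg`,
`DropS` and `TT`.
-/

open MeasureTheory Set Metric
open scoped InnerProductSpace

set_option linter.unusedSectionVars false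

noncomputable section

universe u

namespace Vale.Agent.P242.H852

open Vale.Agent.P233 Vale.Agent.P233.RA Vale.Agent.P242.H990 Vale.Agent.P242.H71

section forms

variable {n : ℕ}

theorem SymBil.sub {B B' : E n → E n → ℝ} (h : SymBil B) (h' : SymBil B') :
    SymBil (fun c d => B c d - B' c d) :=
  ⟨fun c d => by rw [h.symm, h'.symm], fun a b d => by rw [h.add, h'.add]; ring,
    fun r a d => by rw [h.smul, h'.smul]; ring⟩

/-- polarization for functions of two vectors -/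
theorem polar_fun {B N : E n → E n → ℝ} (hB : SymBil B) (hN : SymBil N) (hN0 : ∀ c, 0 ≤ N c c)
    {C : ℝ} (hC : 0 ≤ C) (h : ∀ c, |B c c| ≤ C * N c c) (c d : E n) :
    |B c d| ≤ C * (√(N c c) * √(N d d)) := by
  have h1 := polar (B := toForm B) (Q := C • toForm N)
    (fun v w => by rw [hB.toForm_apply, hB.toForm_apply, hB.symm])
    ⟨fun v w => by
      simp only [LinearMap.smul_apply, hN.toForm_apply, smul_eq_mul]
      rw [hN.symm], fun v => by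
      simp only [LinearMap.smul_apply, hN.toForm_apply, smul_eq_mul]
      exact mul_nonneg hC (hN0 v)⟩
    (fun v => by
      simp only [LinearMap.smul_apply, hN.toForm_apply, hB.toForm_apply, smul_eq_mul]
      exact h v) c d
  rw [hB.toForm_apply] at h1
  refine h1.trans (le_of_eq ?_)
  unfold nr
  simp only [LinearMap.smul_apply, hN.toForm_apply, smul_eq_mul]
  rw [Real.sqrt_mul hC, Real.sqrt_mul hC]
  have := Real.mul_self_sqrt hC
  calc √C * √(N c c) * (√C * √(N d d)) = √C * √C * (√(N c c) * √(N d d)) := by ring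
    _ = _ := by rw [this]

/-- `E6F` with a larger constant -/
theorem E6F.mono {G g : ℝ → E n → E n → ℝ} {D : ℝ → ℝ} {Q A₀ ρ Λ r₀ ε CL CL' : ℝ}
    (h : E6F G g D Q A₀ ρ Λ r₀ ε CL) (hC : CL ≤ CL') : E6F G g D Q A₀ ρ Λ r₀ ε CL' :=
  { h with
    hCL := h.hCL.trans hC
    f2 := fun j c d => (h.f2 j c d).trans (mul_le_mul_of_nonneg_right hC (by positivity)) }

end forms

variable {M : Type u} [MetricSpace M] [CompleteSpace M] [SecondCountableTopology M]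
  [MeasurableSpace M] [BorelSpace M] {m : Measure M} {n : ℕ} {K A : ℝ} {o : M}
  {p : ℝ → M → M → ℝ} {R Q η ρ A₀ : ℝ} {u : Fin n → M →ₘ[m] ℝ} {uu : M → E n}

theorem fh_of (e : Env m n K o A p) (hu : Cfg m n K o p R Q η ρ u uu) : H155.FH m K p u :=
  ⟨H751.env_gamma e, H597.env_bei' e, H597.env_cen e, hu.test⟩

theorem Gm_bil (e : Env m n K o A p) (hu : Cfg m n K o p R Q η ρ u uu) (x : M) {s : ℝ}
    (hs : 0 < s) : SymBil (Gm m p u s x) :=
  ⟨fun c d => (fh_of e hu).Gm_symm c d, fun a b d => (fh_of e hu).Gm_add hs a b d,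
    fun r a d => (fh_of e hu).Gm_smul r a d⟩

theorem gm_bil (e : Env m n K o A p) (hu : Cfg m n K o p R Q η ρ u uu) (x : M) {s : ℝ}
    (hs : 0 < s) : SymBil (gm m K p u s x) :=
  ⟨fun c d => (fh_of e hu).gm_symm c d, fun a b d => (fh_of e hu).gm_add hs a b d,
    fun r a d => (fh_of e hu).gm_smul hs r a d⟩

theorem eta_nonneg (hu : Cfg m n K o p R Q η ρ u uu) : 0 ≤ η :=
  (mul_nonneg (abs_nonneg K) (sq_nonneg ρ)).trans hu.Kρ

/-- change of `G` in time -/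
theorem dG_bound (e : Env m n K o A p) (hu : Cfg m n K o p R Q η ρ u uu) {x : M}
    (hx : x ∈ ball o (R * ρ)) {t' t : ℝ} (ht' : 0 < t') (htt : t' ≤ t) (htQ : t ≤ Q * ρ ^ 2)
    (c : E n) {B : ℝ} (hB : ∀ s, t' ≤ s → s ≤ t → gm m K p u s x c c ≤ B) :
    |Gm m p u t x c c - Gm m p u t' x c c| ≤
      (2 * B + 12 * n * (η / ρ ^ 2) * ‖c‖ ^ 2) * (t - t') := by
  have hη := eta_nonneg hu
  have h1 := Convex.norm_image_sub_le_of_norm_hasDerivWithin_le (s := Icc t' t)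
    (f := fun s => Gm m p u s x c c) (C := 2 * B + 12 * n * (η / ρ ^ 2) * ‖c‖ ^ 2)
    (fun s hs => (H597.hasDeriv_Gm e hu x c (ht'.trans_le hs.1)).hasDerivWithinAt)
    (fun s hs => ?_) (convex_Icc t' t) (left_mem_Icc.2 htt) (right_mem_Icc.2 htt)
  · rw [Real.norm_eq_abs, Real.norm_eq_abs, abs_of_nonneg (sub_nonneg.2 htt)] at h1
    exact h1
  · have hs0 : 0 < s := ht'.trans_le hs.1
    have h2 := H597.deriv_near e hu x c hs0
    have h3 := H597.Er_le' e hu hx hs0 (hs.2.trans htQ) hη c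
    have h4 := H597.gm_nonneg e hu x c hs0
    have h5 := hB s hs.1 hs.2
    rw [Real.norm_eq_abs, add_assoc]
    refine (abs_add_le _ _).trans ?_
    rw [abs_of_nonneg (by positivity)]
    linarith

/-- `t gm_s ≤ C N_t` for `s ∈ [t/Γ, t]` -/
theorem gm_le_N (e : Env m n K o A p) (hu : Cfg m n K o p R Q η ρ u uu) (hQ1 : 1 ≤ Q)
    (hQ : 8 * A ^ 2 ≤ Q) (hA₀ : 0 ≤ A₀) {x : M} (hx : x ∈ ball o (R * ρ)) {L s t : ℝ} (hL : 1 ≤ L)
    (hs : 0 < s) (hst : s ≤ t) (hts : t ≤ L * s) (htρ : t ≤ ρ ^ 2) (c : E n) :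
    t * gm m K p u s x c c ≤ 2 * (cG n A (8 * A ^ 2 * L) 0 * Real.exp (2 * A)) *
      NtF (fun s => gm m K p u s x) Q A₀ ρ (3 / 8) t c c := by
  have hA := e.kb.one_le
  have hρ := hu.ρ_pos
  have hρ2 : 0 < ρ ^ 2 := by positivity
  have ht : 0 < t := hs.trans_le hst
  set g : ℝ → E n → E n → ℝ := fun s => gm m K p u s x with hg
  set Ch := cG n A (8 * A ^ 2 * L) 0 * Real.exp (2 * A) with hCh
  have hCh0 : 0 < Ch := mul_pos (cG_pos hA (by positivity)) (Real.exp_pos _)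
  have hA2 : 1 ≤ A ^ 2 := one_le_pow₀ hA
  have h8 : 8 * A ^ 2 * t ≤ Q * ρ ^ 2 := mul_le_mul hQ htρ ht.le (by positivity)
  have hti : ∀ a b, 0 < a → a ≤ b → IntervalIntegrable (fun s' => (t / s') ^ (3 / 8 : ℝ) * g s' c c)
      volume a b := by
    intro a b ha hab
    refine (H744.gm_int e hu c c x ha hab).continuousOn_mul ?_
    intro s' hs'
    rw [uIcc_of_le hab] at hs'
    have hs0 : 0 < s' := ha.trans_le hs'.1
    refine ContinuousAt.continuousWithinAt ?_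
    refine ContinuousAt.rpow_const ?_ (Or.inl (by positivity))
    exact continuousAt_const.div continuousAt_id hs0.ne'
  have hnn : ∀ s', 0 < s' → 0 ≤ g s' c c := fun s' hs' => H597.gm_nonneg e hu x c hs'
  -- Harnack
  have h1 : ∀ s' ∈ Icc (4 * A ^ 2 * t) (8 * A ^ 2 * t),
      gm m K p u s x c c / (Ch * (8 * A ^ 2)) ≤ (t / s') ^ (3 / 8 : ℝ) * g s' c c := by
    intro s' hs'
    have hs'0 : 0 < s' := lt_of_lt_of_le (by positivity) hs'.1
    have h2 := H744.gam_harnack e (H744.uc_test e hu c) (x := x) (y := x) (C₀ := 0)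
      (Γ := 8 * A ^ 2 * L) (s := s) (s' := s') hs
      (le_trans (by gcongr) hs'.1)
      (hs'.2.trans (by
        calc 8 * A ^ 2 * t ≤ 8 * A ^ 2 * (L * s) := by gcongr
          _ = _ := by ring))
      (hs'.2.trans (h8.trans hu.Qρ)) (by simp)
    have hdx : dist x o ≤ 1 := (mem_ball.1 hx).le.trans hu.Rρ
    have h3 : cG n A (8 * A ^ 2 * L) 0 * Real.exp (2 * A * dist x o) ≤ Ch := by
      refine mul_le_mul_of_nonneg_left (Real.exp_le_exp.2 ?_) (cG_pos hA (by positivity)).le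
      exact mul_le_of_le_one_right (by positivity) hdx
    have h4 : gm m K p u s x c c ≤ Ch * g s' c c :=
      h2.trans (mul_le_mul_of_nonneg_right h3 (hnn s' hs'0))
    have h5 : 1 / (8 * A ^ 2) ≤ (t / s') ^ (3 / 8 : ℝ) := by
      have h6 : 1 / (8 * A ^ 2) ≤ t / s' := by
        rw [div_le_div_iff₀ (by positivity) hs'0]
        linarith [hs'.2]
      have h7 : t / s' ≤ 1 := by
        rw [div_le_one hs'0]
        nlinarith [hs'.1]
      calc 1 / (8 * A ^ 2) ≤ t / s' := h6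
        _ = (t / s') ^ (1 : ℝ) := (Real.rpow_one _).symm
        _ ≤ _ := Real.rpow_le_rpow_of_exponent_ge (by positivity) h7 (by norm_num)
    have h6 : gm m K p u s x c c / Ch ≤ g s' c c := by
      rw [div_le_iff₀ hCh0]; linarith
    calc gm m K p u s x c c / (Ch * (8 * A ^ 2))
        = 1 / (8 * A ^ 2) * (gm m K p u s x c c / Ch) := by field_simp
      _ ≤ (t / s') ^ (3 / 8 : ℝ) * g s' c c :=
        mul_le_mul h5 h6 (div_nonneg (hnn s hs) hCh0.le) (by positivity)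
  have h2 : ∫ _ in 4 * A ^ 2 * t..8 * A ^ 2 * t, gm m K p u s x c c / (Ch * (8 * A ^ 2)) ≤
      ∫ s' in 4 * A ^ 2 * t..8 * A ^ 2 * t, (t / s') ^ (3 / 8 : ℝ) * g s' c c := by
    apply intervalIntegral.integral_mono_on (by nlinarith) intervalIntegrable_const
      (hti _ _ (by positivity) (by nlinarith))
    exact h1
  have h3 : ∫ s' in 4 * A ^ 2 * t..8 * A ^ 2 * t, (t / s') ^ (3 / 8 : ℝ) * g s' c c ≤
      ∫ s' in t..Q * ρ ^ 2, (t / s') ^ (3 / 8 : ℝ) * g s' c c := by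
    apply intervalIntegral.integral_mono_interval (by nlinarith) (by nlinarith) h8
    · rw [Filter.EventuallyLE, ae_restrict_iff' measurableSet_Ioc]
      filter_upwards with s' hs'
      have hs'0 : 0 < s' := ht.trans hs'.1
      exact mul_nonneg (by positivity) (hnn s' hs'0)
    · exact hti _ _ ht (le_trans (by nlinarith) h8)
  rw [intervalIntegral.integral_const, smul_eq_mul] at h2
  have h4 : (8 * A ^ 2 * t - 4 * A ^ 2 * t) * (gm m K p u s x c c / (Ch * (8 * A ^ 2))) =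
      t * gm m K p u s x c c / (2 * Ch) := by
    field_simp
    ring
  rw [h4] at h2
  have h5 : 0 ≤ A₀ * (t / ρ ^ 2) ^ (3 / 8 : ℝ) * ⟪c, c⟫_ℝ := by
    have : (0:ℝ) ≤ ⟪c, c⟫_ℝ := real_inner_self_nonneg
    positivity
  have h6 : t * gm m K p u s x c c / (2 * Ch) ≤ NtF g Q A₀ ρ (3 / 8) t c c := by
    unfold NtF
    linarith
  rw [div_le_iff₀ (by positivity)] at h6
  linarith

/-- `‖c‖²` against the background of `Nt` -/
theorem bg_le_N (e : Env m n K o A p) (hu : Cfg m n K o p R Q η ρ u uu) (hQ1 : 1 ≤ Q)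
    (hA₀ : 0 < A₀) (x : M) {t : ℝ} (ht : 0 < t) (htρ : t ≤ ρ ^ 2) (c : E n) :
    A₀ * (t / ρ ^ 2) * ‖c‖ ^ 2 ≤ NtF (fun s => gm m K p u s x) Q A₀ ρ (3 / 8) t c c := by
  have hρ := hu.ρ_pos
  have h1 : 0 ≤ ∫ s in t..Q * ρ ^ 2, (t / s) ^ (3 / 8 : ℝ) * gm m K p u s x c c := by
    apply intervalIntegral.integral_nonneg (by nlinarith)
    intro s hs
    have hs0 : 0 < s := ht.trans_le hs.1
    exact mul_nonneg (by positivity) (H597.gm_nonneg e hu x c hs0)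
  have h2 : t / ρ ^ 2 ≤ (t / ρ ^ 2) ^ (3 / 8 : ℝ) := by
    have h3 : t / ρ ^ 2 ≤ 1 := (div_le_one (by positivity)).2 htρ
    calc t / ρ ^ 2 = (t / ρ ^ 2) ^ (1 : ℝ) := (Real.rpow_one _).symm
      _ ≤ _ := Real.rpow_le_rpow_of_exponent_ge (by positivity) h3 (by norm_num)
  unfold NtF
  rw [real_inner_self_eq_norm_sq]
  have h4 : A₀ * (t / ρ ^ 2) * ‖c‖ ^ 2 ≤ A₀ * (t / ρ ^ 2) ^ (3 / 8 : ℝ) * ‖c‖ ^ 2 := by gcongr
  linarith

/-- the background of `Nt` plus the memory, against `G_t` -/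
theorem N_le_G (e : Env m n K o A p) (hu : Cfg m n K o p R Q η ρ u uu) (hQ1 : 1 ≤ Q) (hn : 1 ≤ n)
    (hA₀ : 0 < A₀) {x : M} (hx : x ∈ ball o (R * ρ)) {t ε : ℝ} (ht : 0 < t) (htρ : t ≤ ρ ^ 2)
    (hT : H155.TTx m K p Q ε ρ u x t) (hε0 : 0 ≤ ε) (hε : ε ≤ 1 / 32)
    (hη1 : (1 + 24 * n) * η ≤ 1 / 2) (hη2 : 5 * n * Q * η ≤ 1 / 16) (c : E n) :
    NtF (fun s => gm m K p u s x) Q A₀ ρ (3 / 8) t c c ≤
      (4 * ε + 2 * A₀) * Gm m p u t x c c := by
  have hρ := hu.ρ_pos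
  have hη := eta_nonneg hu
  have htQ : t ≤ Q * ρ ^ 2 := by nlinarith
  have hG := H597.Gm_nonneg e hu x c ht
  have hlow := H597.G_lower e hu hQ1 hx ht htρ hT (by linarith) hη hη1 c
  have h1 : ∀ s ∈ Icc t (Q * ρ ^ 2), (t / s) ^ (3 / 8 : ℝ) * gm m K p u s x c c ≤
      ε * Gm m p u t x c c * ((t / s) ^ ((1 / 2 : ℝ) / 2) / s) := by
    intro s hs
    have hs0 : 0 < s := ht.trans_le hs.1
    have h2 := (H597.G_two e hu hQ1 hn hx ht hT (by linarith) hη hη1 le_rfl hs.1 hs.2 c).1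
    have h3 := hT s hs.1 hs.2 c
    have h4 : (s / t) ^ (2 * ε + 5 * n * Q * η) ≤ (s / t) ^ (1 / 8 : ℝ) :=
      Real.rpow_le_rpow_of_exponent_le ((one_le_div ht).2 hs.1) (by linarith)
    have h5 : gm m K p u s x c c ≤ ε * ((s / t) ^ (1 / 8 : ℝ) * Gm m p u t x c c) / s := by
      rw [le_div_iff₀ hs0]
      have h6 : Gm m p u s x c c ≤ (s / t) ^ (1 / 8 : ℝ) * Gm m p u t x c c :=
        h2.trans (mul_le_mul_of_nonneg_right h4 hG)
      have h7 := mul_le_mul_of_nonneg_left h6 hε0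
      linarith
    have h6 : (t / s) ^ (3 / 8 : ℝ) * (s / t) ^ (1 / 8 : ℝ) = (t / s) ^ ((1 / 2 : ℝ) / 2) := by
      have e1 : (s / t) = (t / s)⁻¹ := by field_simp
      rw [e1, Real.inv_rpow (by positivity), ← Real.rpow_neg (by positivity),
        ← Real.rpow_add (by positivity)]
      norm_num
    calc (t / s) ^ (3 / 8 : ℝ) * gm m K p u s x c c
        ≤ (t / s) ^ (3 / 8 : ℝ) * (ε * ((s / t) ^ (1 / 8 : ℝ) * Gm m p u t x c c) / s) := by
          gcongr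
      _ = ε * Gm m p u t x c c * (((t / s) ^ (3 / 8 : ℝ) * (s / t) ^ (1 / 8 : ℝ)) / s) := by ring
      _ = _ := by rw [h6]
  have hti : IntervalIntegrable (fun s => (t / s) ^ (3 / 8 : ℝ) * gm m K p u s x c c)
      volume t (Q * ρ ^ 2) := by
    refine (H744.gm_int e hu c c x ht htQ).continuousOn_mul ?_
    intro s' hs'
    rw [uIcc_of_le htQ] at hs'
    have hs0 : 0 < s' := ht.trans_le hs'.1
    refine ContinuousAt.continuousWithinAt ?_
    refine ContinuousAt.rpow_const ?_ (Or.inl (by positivity))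
    exact continuousAt_const.div continuousAt_id hs0.ne'
  have hti2 : IntervalIntegrable (fun s => ε * Gm m p u t x c c *
      ((t / s) ^ ((1 / 2 : ℝ) / 2) / s)) volume t (Q * ρ ^ 2) := by
    refine ContinuousOn.intervalIntegrable ?_
    intro s' hs'
    rw [uIcc_of_le htQ] at hs'
    have hs0 : 0 < s' := ht.trans_le hs'.1
    refine ContinuousAt.continuousWithinAt ?_
    refine ContinuousAt.mul continuousAt_const (ContinuousAt.div ?_ continuousAt_id hs0.ne')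
    refine ContinuousAt.rpow_const ?_ (Or.inl (by positivity))
    exact continuousAt_const.div continuousAt_id hs0.ne'
  have h2 := intervalIntegral.integral_mono_on htQ hti hti2 h1
  rw [intervalIntegral.integral_const_mul] at h2
  have h3 := H703.HF.int_log (e := 1 / 2) (by norm_num) ht htQ
  have h4 : ∫ s in t..Q * ρ ^ 2, (t / s) ^ (3 / 8 : ℝ) * gm m K p u s x c c ≤
      4 * ε * Gm m p u t x c c := by
    have h5 := mul_le_mul_of_nonneg_left h3 (mul_nonneg hε0 hG)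
    have e1 : (2 : ℝ) / (1 / 2) = 4 := by norm_num
    rw [e1] at h5
    linarith
  have h5 : A₀ * (t / ρ ^ 2) ^ (3 / 8 : ℝ) * ‖c‖ ^ 2 ≤ 2 * A₀ * Gm m p u t x c c := by
    have h6 : (t / ρ ^ 2) ^ (3 / 8 : ℝ) ≤ (t / ρ ^ 2) ^ (1 / 8 : ℝ) :=
      Real.rpow_le_rpow_of_exponent_ge (by positivity) ((div_le_one (by positivity)).2 htρ)
        (by norm_num)
    have h7 : (t / ρ ^ 2) ^ (3 / 8 : ℝ) * ‖c‖ ^ 2 ≤ (t / ρ ^ 2) ^ (1 / 8 : ℝ) * ‖c‖ ^ 2 := by
      gcongr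
    have h8 : (t / ρ ^ 2) ^ (3 / 8 : ℝ) * ‖c‖ ^ 2 ≤ 2 * Gm m p u t x c c := by linarith
    have h9 := mul_le_mul_of_nonneg_left h8 hA₀.le
    linarith
  unfold NtF
  rw [real_inner_self_eq_norm_sq]
  linarith

/-- the memory form is symmetric bilinear -/
theorem NtF_bil (e : Env m n K o A p) (hu : Cfg m n K o p R Q η ρ u uu) (y : M) {t : ℝ}
    (ht : 0 < t) (htQ : t ≤ Q * ρ ^ 2) :
    SymBil (NtF (fun s => gm m K p u s y) Q A₀ ρ (3 / 8) t) := by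
  have hti : ∀ c d : E n, IntervalIntegrable (fun s => (t / s) ^ (3 / 8 : ℝ) *
      gm m K p u s y c d) volume t (Q * ρ ^ 2) := by
    intro c d
    refine (H744.gm_int e hu c d y ht htQ).continuousOn_mul ?_
    intro s' hs'
    rw [uIcc_of_le htQ] at hs'
    have hs0 : 0 < s' := ht.trans_le hs'.1
    refine ContinuousAt.continuousWithinAt ?_
    refine ContinuousAt.rpow_const ?_ (Or.inl (by positivity))
    exact continuousAt_const.div continuousAt_id hs0.ne'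
  refine ⟨fun c d => ?_, fun a b d => ?_, fun r a d => ?_⟩
  · unfold NtF
    rw [real_inner_comm]
    congr 1
    apply intervalIntegral.integral_congr
    intro s hs
    rw [uIcc_of_le htQ] at hs
    simp only
    rw [(gm_bil e hu y (ht.trans_le hs.1)).symm]
  · unfold NtF
    rw [inner_add_left]
    have : ∫ s in t..Q * ρ ^ 2, (t / s) ^ (3 / 8 : ℝ) * gm m K p u s y (a + b) d =
        (∫ s in t..Q * ρ ^ 2, (t / s) ^ (3 / 8 : ℝ) * gm m K p u s y a d) +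
        ∫ s in t..Q * ρ ^ 2, (t / s) ^ (3 / 8 : ℝ) * gm m K p u s y b d := by
      rw [← intervalIntegral.integral_add (hti a d) (hti b d)]
      apply intervalIntegral.integral_congr
      intro s hs
      rw [uIcc_of_le htQ] at hs
      simp only
      rw [(gm_bil e hu y (ht.trans_le hs.1)).add]
      ring
    rw [this]
    ring
  · unfold NtF
    rw [real_inner_smul_left]
    have : ∫ s in t..Q * ρ ^ 2, (t / s) ^ (3 / 8 : ℝ) * gm m K p u s y (r • a) d =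
        r * ∫ s in t..Q * ρ ^ 2, (t / s) ^ (3 / 8 : ℝ) * gm m K p u s y a d := by
      rw [← intervalIntegral.integral_const_mul]
      apply intervalIntegral.integral_congr
      intro s hs
      rw [uIcc_of_le htQ] at hs
      simp only
      rw [(gm_bil e hu y (ht.trans_le hs.1)).smul]
      ring
    rw [this]
    ring

/-- (F2) in the frozen vocabulary -/
theorem f2_voc (e : Env m n K o A p) (hu : Cfg m n K o p R Q η ρ u uu) (hQ1 : 1 ≤ Q)
    (hQ : 8 * A ^ 2 ≤ Q) (hA₀ : 0 < A₀) (hηA : 12 * n * η ≤ A₀) {x : M} (hx : x ∈ ball o (R * ρ))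
    {Λ t t' : ℝ} (hΛ : 1 ≤ Λ) (ht' : 0 < t') (htt : t' ≤ t) (hL : t ≤ Λ ^ 2 * t')
    (htρ : t ≤ ρ ^ 2) (c d : E n) :
    |Gm m p u t x c d - Gm m p u t' x c d| ≤
      (4 * (cG n A (8 * A ^ 2 * Λ ^ 2) 0 * Real.exp (2 * A)) + 1) *
      (√(NtF (fun s => gm m K p u s x) Q A₀ ρ (3 / 8) t c c) *
        √(NtF (fun s => gm m K p u s x) Q A₀ ρ (3 / 8) t d d)) := by
  have hA := e.kb.one_le
  have hΛ2 : 1 ≤ Λ ^ 2 := one_le_pow₀ hΛ
  set Ch := cG n A (8 * A ^ 2 * Λ ^ 2) 0 * Real.exp (2 * A) with hCh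
  have hCh0 : 0 < Ch := mul_pos (cG_pos hA (by positivity)) (Real.exp_pos _)
  have hρ := hu.ρ_pos
  have ht : 0 < t := ht'.trans_le htt
  have htQ : t ≤ Q * ρ ^ 2 := by nlinarith
  have hN0 : ∀ c, 0 ≤ NtF (fun s => gm m K p u s x) Q A₀ ρ (3 / 8) t c c := by
    intro c
    refine le_trans ?_ (bg_le_N e hu hQ1 hA₀ x ht htρ c)
    positivity
  refine polar_fun (SymBil.sub (Gm_bil e hu x ht) (Gm_bil e hu x ht'))
    (NtF_bil e hu x ht htQ) hN0 (by linarith) (fun c => ?_) c d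
  have h3 := bg_le_N e hu hQ1 hA₀ x ht htρ c
  have hNc := hN0 c
  have h2' : ∀ s, t' ≤ s → s ≤ t → t * gm m K p u s x c c ≤
      2 * Ch * NtF (fun s => gm m K p u s x) Q A₀ ρ (3 / 8) t c c := by
    intro s hs1 hs2
    have hs0 : 0 < s := ht'.trans_le hs1
    exact gm_le_N e hu hQ1 hQ hA₀.le hx (L := Λ ^ 2) (s := s) (t := t) hΛ2 hs0 hs2
      (hL.trans (by gcongr)) htρ c
  generalize NtF (fun s => gm m K p u s x) Q A₀ ρ (3 / 8) t c c = N at h2' h3 hNc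
  have h1 : ∀ s, t' ≤ s → s ≤ t → gm m K p u s x c c ≤ 2 * Ch * N / t := by
    intro s hs1 hs2
    rw [le_div_iff₀ ht]
    have := h2' s hs1 hs2
    linarith
  have h2 := dG_bound e hu hx ht' htt htQ c h1
  have h4 : 12 * n * (η / ρ ^ 2) * ‖c‖ ^ 2 * t ≤ N := by
    calc 12 * n * (η / ρ ^ 2) * ‖c‖ ^ 2 * t
        = (12 * n * η) * ((t / ρ ^ 2) * ‖c‖ ^ 2) := by field_simp
      _ ≤ A₀ * ((t / ρ ^ 2) * ‖c‖ ^ 2) := by gcongr
      _ ≤ N := by linarith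
  have hη := eta_nonneg hu
  have h5 : 2 * (2 * Ch * N / t) * t = 4 * Ch * N := by field_simp; ring
  calc |Gm m p u t x c c - Gm m p u t' x c c|
      ≤ (2 * (2 * Ch * N / t) + 12 * n * (η / ρ ^ 2) * ‖c‖ ^ 2) * (t - t') := h2
    _ ≤ (2 * (2 * Ch * N / t) + 12 * n * (η / ρ ^ 2) * ‖c‖ ^ 2) * t := by
        apply mul_le_mul_of_nonneg_left (by linarith) (by positivity)
    _ ≤ (4 * Ch + 1) * N := by linarith

/-- the start -/
theorem start_voc {C₁ M' A₀ η t ρ X c : ℝ} (hM : 1 ≤ M') (hA₀ : 0 ≤ A₀) (hρ : 0 < ρ)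
    (hη : C₁ * η * M' ≤ A₀) (ht : ρ ^ 2 / M' ^ 2 ≤ t) (hc : 0 ≤ c) (hX : X ≤ C₁ * η * c) :
    X ≤ A₀ * (t / ρ ^ 2) ^ (1 / 4 : ℝ) * c := by
  have hM0 : 0 < M' := by linarith
  have hρ2 : 0 < ρ ^ 2 := by positivity
  have h2 : 1 / M' ≤ (t / ρ ^ 2) ^ (1 / 4 : ℝ) := by
    have h3 : (1 / M' ^ 2) ≤ t / ρ ^ 2 := by
      rw [div_le_div_iff₀ (by positivity) hρ2]
      rw [div_le_iff₀ (by positivity)] at ht
      linarith
    have h4 : (1 / M' ^ 2) ^ (1 / 4 : ℝ) ≤ (t / ρ ^ 2) ^ (1 / 4 : ℝ) :=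
      Real.rpow_le_rpow (by positivity) h3 (by norm_num)
    refine le_trans ?_ h4
    have h5 : (1 / M' ^ 2) ^ (1 / 4 : ℝ) = (1 / M') ^ (1 / 2 : ℝ) := by
      have e3 : (1 / M' ^ 2) = (1 / M') ^ (2 : ℝ) := by
        rw [Real.rpow_two]; field_simp
      rw [e3, ← Real.rpow_mul (by positivity)]
      norm_num
    rw [h5]
    calc 1 / M' = (1 / M') ^ (1 : ℝ) := (Real.rpow_one _).symm
      _ ≤ _ := Real.rpow_le_rpow_of_exponent_ge (by positivity)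
        ((div_le_one hM0).2 hM) (by norm_num)
  have h6 : C₁ * η ≤ A₀ * (1 / M') := by
    rw [mul_one_div, le_div_iff₀ hM0]
    exact hη
  calc X ≤ C₁ * η * c := hX
    _ ≤ A₀ * (1 / M') * c := by gcongr
    _ ≤ A₀ * (t / ρ ^ 2) ^ (1 / 4 : ℝ) * c := by gcongr

/-- the fields of `E6F` with explicit conditions -/
theorem e6f_core (e : Env m n K o A p) (hu : Cfg m n K o p R Q η ρ u uu) (hQ1 : 1 ≤ Q)
    (hQ : 8 * A ^ 2 ≤ Q) (hA₀ : 0 < A₀) {Λ ε ε' δ r₀ : ℝ} (hΛ : 256 ≤ Λ) (hε : 0 < ε)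
    (hε'0 : 0 ≤ ε') (l3 : ε' ≤ 1 / 32) (m1 : (1 + 24 * n) * η ≤ 1 / 2)
    (m2 : 5 * n * Q * η ≤ 1 / 16) (m3 : (Λ ^ 2) ^ (2 * ε' + 5 * n * Q * η) ≤ 2)
    (m4 : 12 * n * η ≤ A₀) (m5 : 4 * ε' + 2 * A₀ ≤ ε) (m6 : δ + A₀ ≤ ε) (hr₀ : 0 < r₀)
    (r₀ρ : r₀ ≤ ρ) (hD : DropS m n K o p R Q δ ρ) {y : M} (hyR : y ∈ ball o (R * ρ))
    (hTx : ∀ t, 0 < t → H155.TTx m K p Q ε' ρ u y t)
    (hst : ∀ c : E n, ∫ s in tl r₀ Λ 0..Q * ρ ^ 2, gm m K p u s y c c ≤
      A₀ * (tl r₀ Λ 0 / ρ ^ 2) ^ (1 / 4 : ℝ) * ‖c‖ ^ 2) :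
    E6F (fun t => Gm m p u t y) (fun s => gm m K p u s y) (fun t => Dt m n K p Q A₀ ρ t y)
      Q A₀ ρ Λ r₀ ε (4 * (cG n A (8 * A ^ 2 * Λ ^ 2) 0 * Real.exp (2 * A)) + 1) := by
  have hA := e.kb.one_le
  have hn2 := e.hyp.two_le
  have hn1 : 1 ≤ n := by omega
  have hΛ0 : 0 < Λ := by linarith
  have hΛ1 : 1 ≤ Λ := by linarith
  have hΛ2 : 1 ≤ Λ ^ 2 := one_le_pow₀ hΛ1
  have hCh0 : 0 < cG n A (8 * A ^ 2 * Λ ^ 2) 0 * Real.exp (2 * A) :=
    mul_pos (cG_pos hA (by positivity)) (Real.exp_pos _)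
  have hρ := hu.ρ_pos
  have hη0 := eta_nonneg hu
  have tp : ∀ j, 0 < tl r₀ Λ j := fun j => tl_pos hr₀ hΛ0 j
  have t0 : tl r₀ Λ 0 ≤ ρ ^ 2 := by
    rw [tl_eq]; simp only [pow_zero, div_one]
    exact pow_le_pow_left₀ hr₀.le r₀ρ 2
  have ta : ∀ j, tl r₀ Λ (j + 1) ≤ tl r₀ Λ j := fun j => by
    rw [tl_succ hΛ0]; exact div_le_self (tp j).le hΛ2
  have tle : ∀ j, tl r₀ Λ j ≤ ρ ^ 2 := fun j => by
    induction j with
    | zero => exact t0
    | succ j ih => exact (ta j).trans ih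
  have hρQ : ρ ^ 2 ≤ Q * ρ ^ 2 := by nlinarith [sq_nonneg ρ]
  have e1 : ∀ j, tl r₀ Λ j = Λ ^ 2 * tl r₀ Λ (j + 1) := fun j => by
    rw [tl_succ hΛ0]; field_simp
  have e2 : ∀ j, tl r₀ Λ j / tl r₀ Λ (j + 1) = Λ ^ 2 := fun j => by
    rw [e1 j]; have := tp (j + 1); field_simp
  have l3' : ε' ≤ 1 / 16 := by linarith
  refine
    { hΛ := hΛ, hr₀ := hr₀, hρ := hρ, r₀ρ := r₀ρ, hQ := hQ1, hA₀ := hA₀, hε := hε,
      hCL := by linarith,
      bG := fun t ht _ => Gm_bil e hu y ht, pG := fun t ht _ c => H597.Gm_nonneg e hu y c ht,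
      bg := fun s hs _ => gm_bil e hu y hs, pg := fun s hs _ c => H597.gm_nonneg e hu y c hs,
      ig := fun c c' a ha haQ => H744.gm_int e hu c c' y ha haQ, f7 := ?_, p1 := ?_, low := ?_,
      f2 := ?_, f4a := ?_, Dle := ?_, Dstep := ?_, Dfl := ?_, start := hst }
  · intro j c
    have h1 := (H597.G_two e hu hQ1 hn1 hyR (tp (j + 1)) (hTx _ (tp (j + 1))) l3'
      hη0 m1 le_rfl (ta j) ((tle j).trans hρQ) c).2
    rw [e2 j] at h1
    exact h1.trans (mul_le_mul_of_nonneg_right m3 (H597.Gm_nonneg e hu y c (tp j)))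
  · intro j c
    have h1 := (H597.G_two e hu hQ1 hn1 hyR (tp (j + 1)) (hTx _ (tp (j + 1))) l3'
      hη0 m1 le_rfl (ta j) ((tle j).trans hρQ) c).1
    rw [e2 j] at h1
    exact h1.trans (mul_le_mul_of_nonneg_right m3 (H597.Gm_nonneg e hu y c (tp (j + 1))))
  · intro j c
    have h1 := H597.G_lower e hu hQ1 hyR (tp j) (tle j) (hTx _ (tp j)) l3' hη0 m1 c
    show _ ≤ 2 * Gm m p u (tl r₀ Λ j) y c c
    linarith
  · intro j c d
    exact f2_voc e hu hQ1 hQ hA₀ m4 hyR hΛ1 (tp (j + 1)) (ta j) (e1 j).le (tle j) c d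
  · intro j c
    have h1 := N_le_G e hu hQ1 hn1 hA₀ hyR (tp j) (tle j) (hTx _ (tp j)) hε'0 l3 m1 m2 c
    exact h1.trans (mul_le_mul_of_nonneg_right m5 (H597.Gm_nonneg e hu y c (tp j)))
  · intro j
    have h1 := Dt_le (Q := Q) e hA₀.le hD hyR (tp j) (tle j) hQ1
    exact h1.trans m6
  · intro j
    have h1 := Dt_step (Q := Q) (A₀ := A₀) (ρ := ρ) e hA₀.le (by linarith : (16:ℝ) ≤ Λ) y (tp j)
      ((tle j).trans hρQ)
    rw [← tl_succ hΛ0] at h1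
    exact h1
  · intro j
    exact Dt_floor e y (tp j) ((tle j).trans hρQ)

theorem mul_le_of_div {a b c d : ℝ} (h : a ≤ c / b) (hb : 0 < b) (hd : d = a * b) : d ≤ c := by
  rw [hd]
  exact (le_div_iff₀ hb).1 h

/-- **the fields of `E6F` in the frozen vocabulary** -/
theorem e6f_voc (e : Env m n K o A p) : ∃ Q₀, 1 ≤ Q₀ ∧ ∀ Q, Q₀ ≤ Q → ∀ R, 1 ≤ R → ∀ Λ, 256 ≤ Λ →
    ∃ CL, 1 ≤ CL ∧ ∀ ε, 0 < ε → ∃ ε₁, 0 < ε₁ ∧ ∀ A₀, 0 < A₀ → A₀ ≤ ε₁ → ∀ M', 1 ≤ M' →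
    ∃ η₁, 0 < η₁ ∧ ∀ ε' η δ ρ, 0 < ε' → ε' ≤ ε₁ → 0 < η → η ≤ η₁ → δ ≤ η₁ → ρ ≤ η₁ →
      ∀ (u : Fin n → M →ₘ[m] ℝ) (uu : M → E n),
      Cfg m n K o p R Q η ρ u uu → DropS m n K o p R Q δ ρ → TT m K o p (R / 2) Q ε' ρ u →
        ∀ y ∈ ball o (R / 4 * ρ), ∀ r₀, ρ / M' ≤ r₀ → r₀ ≤ ρ / √M' →
          E6F (fun t => Gm m p u t y) (fun s => gm m K p u s y) (fun t => Dt m n K p Q A₀ ρ t y)
            Q A₀ ρ Λ r₀ ε CL := by
  have hA := e.kb.one_le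
  have hA2 : 1 ≤ A ^ 2 := one_le_pow₀ hA
  have hn2 := e.hyp.two_le
  have hn1 : 1 ≤ n := by omega
  have hn0 : (1 : ℝ) ≤ n := by exact_mod_cast hn1
  refine ⟨8 * A ^ 2, by linarith, ?_⟩
  intro Q hQ R hR Λ hΛ
  have hQ1 : 1 ≤ Q := by linarith
  have hQA : 2 * A ≤ Q := by nlinarith
  have hΛ0 : 0 < Λ := by linarith
  have hΛ2 : 1 ≤ Λ ^ 2 := one_le_pow₀ (by linarith)
  have hCh0 : 0 < cG n A (8 * A ^ 2 * Λ ^ 2) 0 * Real.exp (2 * A) :=
    mul_pos (cG_pos hA (by positivity)) (Real.exp_pos _)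
  refine ⟨4 * (cG n A (8 * A ^ 2 * Λ ^ 2) 0 * Real.exp (2 * A)) + 1, by linarith, ?_⟩
  intro ε hε
  -- the exponent
  have hlogΛ : 0 < Real.log Λ := Real.log_pos (by linarith)
  obtain ⟨a, ha0, haΛ⟩ : ∃ a : ℝ, 0 < a ∧ ∀ b, b ≤ a → (Λ ^ 2) ^ b ≤ 2 := by
    refine ⟨Real.log 2 / (2 * Real.log Λ), div_pos (Real.log_pos (by norm_num)) (by positivity), ?_⟩
    intro b hb
    have h1 := Real.rpow_le_rpow_of_exponent_le hΛ2 hb
    have h2 : (Λ ^ 2) ^ (Real.log 2 / (2 * Real.log Λ)) = 2 := by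
      rw [Real.rpow_def_of_pos (by positivity), Real.log_pow]
      have : (((2 : ℕ) : ℝ) * Real.log Λ) * (Real.log 2 / (2 * Real.log Λ)) = Real.log 2 := by
        push_cast
        field_simp
      rw [this, Real.exp_log (by norm_num)]
    linarith
  refine ⟨min (min (a / 4) (ε / 16)) (1 / 32), by positivity, ?_⟩
  intro A₀ hA₀ hA₀1 M' hM'
  have hA₀ε : A₀ ≤ ε / 16 := hA₀1.trans ((min_le_left _ _).trans (min_le_right _ _))
  obtain ⟨C₁, hC₁, hst⟩ := H744.gm_start (K := K) (m := m) e (Q' := Q) (L := M' ^ 2) hQ1 hQA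
    (one_le_pow₀ hM')
  have hM0 : 0 < M' := by linarith
  have hQ0 : 0 < Q := by linarith
  have hn00 : (0 : ℝ) < n := by linarith
  refine ⟨min (min (min (1 / (2 * (1 + 24 * n))) (1 / (16 * (5 * n * Q))))
    (min (a / (2 * (5 * n * Q))) (A₀ / (12 * n)))) (min (ε / 2) (A₀ / (C₁ * M'))),
    by positivity, ?_⟩
  intro ε' η δ ρ hε'0 hε' hη0 hη hδ hρη u uu hu hD hTT y hy r₀ hr₁ hr₂
  have hρ := hu.ρ_pos
  have k1 : η ≤ 1 / (2 * (1 + 24 * n)) :=
    hη.trans ((min_le_left _ _).trans ((min_le_left _ _).trans (min_le_left _ _)))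
  have k2 : η ≤ 1 / (16 * (5 * n * Q)) :=
    hη.trans ((min_le_left _ _).trans ((min_le_left _ _).trans (min_le_right _ _)))
  have k3 : η ≤ a / (2 * (5 * n * Q)) :=
    hη.trans ((min_le_left _ _).trans ((min_le_right _ _).trans (min_le_left _ _)))
  have k4 : η ≤ A₀ / (12 * n) :=
    hη.trans ((min_le_left _ _).trans ((min_le_right _ _).trans (min_le_right _ _)))
  have k5 : δ ≤ ε / 2 := hδ.trans ((min_le_right _ _).trans (min_le_left _ _))
  have k6 : η ≤ A₀ / (C₁ * M') := hη.trans ((min_le_right _ _).trans (min_le_right _ _))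
  have l1 : ε' ≤ a / 4 := hε'.trans ((min_le_left _ _).trans (min_le_left _ _))
  have l2 : ε' ≤ ε / 16 := hε'.trans ((min_le_left _ _).trans (min_le_right _ _))
  have l3 : ε' ≤ 1 / 32 := hε'.trans (min_le_right _ _)
  have m1 : 2 * ((1 + 24 * n) * η) ≤ 1 := mul_le_of_div k1 (by positivity) (by ring)
  have m2 : 16 * (5 * n * Q * η) ≤ 1 := mul_le_of_div k2 (by positivity) (by ring)
  have m3 : 2 * (5 * n * Q * η) ≤ a := mul_le_of_div k3 (by positivity) (by ring)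
  have m4 : 12 * n * η ≤ A₀ := mul_le_of_div k4 (by positivity) (by ring)
  have m6 : C₁ * η * M' ≤ A₀ := mul_le_of_div k6 (by positivity) (by ring)
  clear k1 k2 k3 k4 k6
  have hr₀ : 0 < r₀ := lt_of_lt_of_le (by positivity) hr₁
  have hsM : 1 ≤ √M' := Real.one_le_sqrt.2 hM'
  have r₀ρ : r₀ ≤ ρ := hr₂.trans (div_le_self hρ.le hsM)
  have hyR : y ∈ ball o (R * ρ) := ball_subset_ball (by nlinarith) hy
  have hyR2 : y ∈ ball o (R / 2 * ρ) := ball_subset_ball (by nlinarith) hy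
  have t0 : tl r₀ Λ 0 = r₀ ^ 2 := by
    rw [tl_eq]; simp only [pow_zero, div_one]
  have ht0 : ρ ^ 2 / M' ^ 2 ≤ tl r₀ Λ 0 := by
    rw [t0, ← div_pow]
    exact pow_le_pow_left₀ (by positivity) hr₁ 2
  have ht1 : tl r₀ Λ 0 ≤ Q * ρ ^ 2 := by
    rw [t0]
    have := pow_le_pow_left₀ hr₀.le r₀ρ 2
    nlinarith [sq_nonneg ρ]
  have n1 : 2 * ε' + 5 * n * Q * η ≤ a := by linarith
  refine e6f_core e hu hQ1 hQ hA₀ hΛ hε hε'0.le l3 (by linarith) (by linarith) (haΛ _ n1) m4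
    (by linarith) (by linarith)
    hr₀ r₀ρ hD hyR (fun t ht => H155.TTx_of_TT hTT hyR2 ht) (fun c => ?_)
  exact start_voc hM' hA₀.le hρ m6 ht0 (sq_nonneg _) (hst R η ρ u uu hu y hyR (tl r₀ Λ 0) ht0 ht1 c)

end Vale.Agent.P242.H852
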