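import Vale.Agent.P242.H771.Sub
import Vale.Agent.P242.H852.E6FV

/-!
# P242, A-TOP upper half: the vertex statement `SB_Vx` from its inputs
-/

open MeasureTheory Set Metric
open scoped InnerProductSpace

set_option linter.unusedSectionVars false

noncomputable section

universe u

namespace Vale.Agent.P242.H852

open Vale.Agent.P233 Vale.Agent.P233.RA Vale.Agent.P242.H990 Vale.Agent.P242.H71
open Vale.Agent.P242.H655 Vale.Agent.P242.H771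

section defs

variable {M : Type u} [MetricSpace M] [MeasurableSpace M]

/-- the output of GL1-d at one vertex and one time, in the shapes of `E6In` -/
structure GOut (m : Measure M) {n : ℕ} (K : ℝ) (p : ℝ → M → M → ℝ) (u : Fin n → M →ₘ[m] ℝ)
    (Q A₀ ρ CL ε t : ℝ) (y : M) (P0 X0 : M →ₘ[m] ℝ) (Aa : E n →ₗ[ℝ] E n) : Prop where
  anti : ∀ v w, |Gm m p u t y (Aa v) w - Gm m p u t y v (Aa w)| ≤
    CL * √(Dt m n K p Q A₀ ρ t y) * (nE m K p u Q A₀ ρ t y v * nG m p u t y w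
        + nE m K p u Q A₀ ρ t y w * nG m p u t y v)
      + CL * √ε * (nG m p u t y (Aa v) * nE m K p u Q A₀ ρ t y w
        + nG m p u t y (Aa w) * nE m K p u Q A₀ ρ t y v)
  mm : ∀ v, |(sob m).NN (-|K|) (uc u v) (uc u v) X0 / √t ^ n
      - I P0 / √t ^ n * Gm m p u t y (Aa v) v| ≤
    CL * (√(Dt m n K p Q A₀ ρ t y) * nE m K p u Q A₀ ρ t y v * nG m p u t y v
      + √ε * nG m p u t y (Aa v) * nE m K p u Q A₀ ρ t y v)
  pnn : ∀ v, 0 ≤ (sob m).NN (-|K|) (uc u v) (uc u v) X0 / √t ^ n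
  ple : ∀ v, (sob m).NN (-|K|) (uc u v) (uc u v) X0 / √t ^ n ≤
    CL * nE m K p u Q A₀ ρ t y v ^ 2
  pgm : ∀ v, (sob m).NN (-|K|) (uc u v) (uc u v) X0 / √t ^ n ≤ CL * (t * gm m K p u t y v v)

theorem nE_nonneg (m : Measure M) {n : ℕ} (K : ℝ) (p : ℝ → M → M → ℝ) (u : Fin n → M →ₘ[m] ℝ)
    (Q A₀ ρ t : ℝ) (y : M) (v : E n) : 0 ≤ nE m K p u Q A₀ ρ t y v := Real.sqrt_nonneg _

theorem nG_nonneg (m : Measure M) {n : ℕ} (p : ℝ → M → M → ℝ) (u : Fin n → M →ₘ[m] ℝ)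
    (t : ℝ) (y : M) (v : E n) : 0 ≤ nG m p u t y v := Real.sqrt_nonneg _

theorem E1At.mono {m : Measure M} {n : ℕ} {K : ℝ} {p : ℝ → M → M → ℝ} {Q A₀ ρ B B' t : ℝ} {y : M}
    (h : E1At m n K p Q A₀ ρ B t y) (hB : B ≤ B') (ht : 0 ≤ t) (hD : 0 ≤ Dt m n K p Q A₀ ρ t y) :
    E1At m n K p Q A₀ ρ B' t y :=
  ⟨h.mu.trans (mul_le_mul_of_nonneg_right hB hD),
    h.q.trans (mul_le_mul_of_nonneg_right hB (mul_nonneg ht hD)),
    h.qq.trans (mul_le_mul_of_nonneg_right hB hD)⟩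

theorem WAt.mono {m : Measure M} {n : ℕ} {p : ℝ → M → M → ℝ} {a a' L L' t : ℝ} {y : M}
    {P0 P1 P2 X0 : M →ₘ[m] ℝ} (h : WAt m n p a L t y P0 P1 P2 X0) (ha0 : 0 < a) (ha : a ≤ a')
    (hL : L ≤ L') : WAt m n p a' L' t y P0 P1 P2 X0 := by
  have hst : 0 < √t := h.wb.r0
  have hI : 0 ≤ I P0 := by
    by_contra hc
    push Not at hc
    have h1 := h.v_ge
    have h2 : 0 ≤ √t ^ n := by positivity
    nlinarith
  refine ⟨h.rp, ⟨ha0.le.trans ha, h.wb.r0, h.wb.w0, h.wb.w1, ?_, ?_, ?_⟩, h.xA, h.xG, ?_, h.x0,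
    h.eq, ?_, h.v_le.trans (mul_le_mul_of_nonneg_right ha (by positivity)),
    h.v_ge.trans (mul_le_mul_of_nonneg_right ha hI)⟩
  · filter_upwards [h.wb.p0, h.wb.w0] with x a1 a2
    exact a1.trans (mul_le_mul_of_nonneg_right ha a2)
  · filter_upwards [h.wb.p1, h.wb.w0] with x a1 a2
    exact a1.trans (mul_le_mul_of_nonneg_right
      (div_le_div_of_nonneg_right ha (by positivity)) a2)
  · filter_upwards [h.wb.p2, h.wb.w0] with x a1 a2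
    exact a1.trans (mul_le_mul_of_nonneg_right
      (div_le_div_of_nonneg_right ha (by positivity)) a2)
  · filter_upwards [h.xw, h.wb.w0] with x a1 a2
    exact a1.trans (mul_le_mul_of_nonneg_right
      (mul_le_mul_of_nonneg_right ha (by positivity)) a2)
  · filter_upwards [h.supp] with x a1 a2
    exact (a1 a2).trans_le (mul_le_mul_of_nonneg_right hL hst.le)

theorem E4Out_mono {m : Measure M} {n : ℕ} {K : ℝ} {p : ℝ → M → M → ℝ} {Q A₀ ρ B B' Λ r₀ : ℝ}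
    {u : Fin n → M →ₘ[m] ℝ} {uu : M → E n} {y : M} {𝒜 : ℕ → E n →ₗ[ℝ] E n} {cc : ℕ → E n → ℝ}
    (hr : 0 < r₀) (hΛ : 0 < Λ) (hB : B ≤ B') (h : E4Out m K p u uu Q A₀ Λ B ρ r₀ y 𝒜 cc) :
    E4Out m K p u uu Q A₀ Λ B' ρ r₀ y 𝒜 cc := by
  have hrr : ∀ k, 0 ≤ rr r₀ Λ k := fun k => by unfold rr; positivity
  refine ⟨fun k v => (h.err k v).trans ?_, fun k v => (h.step k v).trans ?_,
    fun k v => (h.bd k v).trans ?_, fun k v => (h.const k v).trans ?_⟩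
  · have h1 : 0 ≤ xE m K p u Q A₀ ρ (rr r₀ Λ k ^ 2) y v :=
      mul_nonneg (Real.sqrt_nonneg _) (Real.sqrt_nonneg _)
    exact mul_le_mul_of_nonneg_right (mul_le_mul_of_nonneg_right hB (hrr k)) h1
  · exact mul_le_mul_of_nonneg_right hB (mul_nonneg (Real.sqrt_nonneg _) (Real.sqrt_nonneg _))
  · exact mul_le_mul_of_nonneg_right hB (Real.sqrt_nonneg _)
  · refine mul_le_mul_of_nonneg_right (mul_le_mul_of_nonneg_right
      (mul_le_mul_of_nonneg_right hB (hrr k)) (Real.sqrt_nonneg _)) (Real.sqrt_nonneg _)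

/-- GL1-d (helper771): `GOut` from the weights, GL1-b, (E1) and (O1) -/
def SB_GOut [BorelSpace M] (m : Measure M) (n : ℕ) (K : ℝ) (o : M) (p : ℝ → M → M → ℝ) : Prop :=
  EvO fun Q R Λ => ∀ B₁ : ℝ, 1 ≤ B₁ → ∃ CL, 1 ≤ CL ∧ ∀ ε, 0 < ε →
    EvI fun A₀ M' ε' η δ ρ => ∀ (u : Fin n → M →ₘ[m] ℝ) (uu : M → E n),
      Cfg m n K o p R Q η ρ u uu → DropS m n K o p R Q δ ρ → TT m K o p (R / 2) Q ε' ρ u →
      ∀ y ∈ ball o (R / 4 * ρ), ∀ t, 0 < t → t ≤ ρ ^ 2 / M' →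
      ∀ P0 P1 P2 X0 : M →ₘ[m] ℝ, WAt m n p B₁ B₁ t y P0 P1 P2 X0 →
      (∀ c c' : E n, |I (P0 * (sob m).Γ (uc u c) (uc u c')) - I P0 * Gm m p u t y c c'|
        ≤ B₁ * (√t ^ n * (√(Nt m K p u Q A₀ ρ (3 / 8) t y c c) *
          √(Nt m K p u Q A₀ ρ (3 / 8) t y c' c')))) →
      E1At m n K p Q A₀ ρ B₁ t y →
      ∀ (Aa : E n →ₗ[ℝ] E n) (cc : E n → ℝ),
      (∀ v, PP m p t y |eE m p u t y v (Aa v) (cc v)| ≤ B₁ * √t * xE m K p u Q A₀ ρ t y v) →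
        GOut m K p u Q A₀ ρ CL ε t y P0 X0 Aa

end defs

section real

/-- the constant of `SB_Vx` -/
def cVx (Λ CL : ℝ) : ℝ :=
  CL + 22 * (5 * Λ ^ 2 * CL) ^ 3 + 5000004 * (5 * Λ ^ 2 * CL) ^ 15 * (CL + 1)

/-- the smallness of `E6In` -/
def eVx (Λ CL θ : ℝ) : ℝ :=
  min θ (min (1 / (20 * (5 * Λ ^ 2 * CL) ^ 3)) (1 / (5760 * (5 * Λ ^ 2 * CL) ^ 8)))

theorem eVx_pos {Λ CL θ : ℝ} (hΛ : 0 < Λ) (hC : 1 ≤ CL) (hθ : 0 < θ) : 0 < eVx Λ CL θ := by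
  have : 0 < CL := by linarith
  unfold eVx
  positivity

theorem cVx_ge {Λ CL : ℝ} (hΛ : 1 ≤ Λ) (hC : 1 ≤ CL) :
    CL ≤ cVx Λ CL ∧ 22 * (5 * Λ ^ 2 * CL) ^ 3 ≤ cVx Λ CL ∧
      5000004 * (5 * Λ ^ 2 * CL) ^ 15 * (CL + 1) ≤ cVx Λ CL := by
  have h0 : 0 < CL := by linarith
  have h1 : 0 ≤ 22 * (5 * Λ ^ 2 * CL) ^ 3 := by positivity
  have h2 : 0 ≤ 5000004 * (5 * Λ ^ 2 * CL) ^ 15 * (CL + 1) := by positivity
  unfold cVx
  refine ⟨by linarith, by linarith, by linarith⟩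

end real

section vertex

variable {M : Type u} [MetricSpace M] [MeasurableSpace M] {m : Measure M} {n : ℕ} {K : ℝ}
  {p : ℝ → M → M → ℝ} {Q A₀ ρ Λ r₀ ε θ Ba Bf : ℝ} {u : Fin n → M →ₘ[m] ℝ} {uu : M → E n} {y : M}

/-- `E6In` at a vertex -/
theorem e6in_of {CL CF CG BW BE : ℝ} {P0 X0 : ℝ → M →ₘ[m] ℝ} {𝒜 : ℕ → E n →ₗ[ℝ] E n}
    {cc : ℕ → E n → ℝ}
    (hF : E6F (fun t => Gm m p u t y) (fun s => gm m K p u s y) (fun t => Dt m n K p Q A₀ ρ t y)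
      Q A₀ ρ Λ r₀ ε CF) (hCF : CF ≤ CL) (hCG : CG ≤ CL) (hBW : BW ≤ CL) (hBE : BE ≤ CL)
    (hBW0 : 0 < BW) (hE : E4Out m K p u uu Q A₀ Λ BE ρ r₀ y 𝒜 cc)
    (hG : ∀ j, GOut m K p u Q A₀ ρ CG ε (tl r₀ Λ j) y (P0 (tl r₀ Λ j)) (X0 (tl r₀ Λ j)) (𝒜 j))
    (hv1 : ∀ j, I (P0 (tl r₀ Λ j)) ≤ BW * √(tl r₀ Λ j) ^ n)
    (hv2 : ∀ j, √(tl r₀ Λ j) ^ n ≤ BW * I (P0 (tl r₀ Λ j)))
    (hv3 : ∀ j, |I (P0 (tl r₀ Λ j)) / √(tl r₀ Λ j) ^ n
      - I (P0 (tl r₀ Λ j / Λ ^ 2)) / √(tl r₀ Λ j / Λ ^ 2) ^ n|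
        ≤ BW * √(Dt m n K p Q A₀ ρ (tl r₀ Λ j) y))
    (hK : ∀ (j : ℕ) (v : E n) (s : ℝ), tl r₀ Λ (j + 1) ≤ s →
      s ≤ tl r₀ Λ j → tl r₀ Λ (j + 1) * gm m K p u s y v v ≤
        BW * (ws (Λ ^ (-(1 / 2) : ℝ) / 2) (fun i =>
            (sob m).NN (-|K|) (uc u v) (uc u v) (X0 (tl r₀ Λ i)) / √(tl r₀ Λ i) ^ n) (j + 1) +
          A₀ * (tl r₀ Λ 0 / ρ ^ 2) ^ (1 / 8 : ℝ) * (Λ ^ (-(1 / 2) : ℝ) / 2) ^ (j + 1) *
            Gm m p u (tl r₀ Λ (j + 1)) y v v)) :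
    E6In (fun t => Gm m p u t y) (fun s => gm m K p u s y) (fun t => Dt m n K p Q A₀ ρ t y)
      Q A₀ ρ Λ r₀ ε CL
      (fun j v => (sob m).NN (-|K|) (uc u v) (uc u v) (X0 (tl r₀ Λ j)) / √(tl r₀ Λ j) ^ n)
      (fun j => I (P0 (tl r₀ Λ j)) / √(tl r₀ Λ j) ^ n) 𝒜 := by
  have hst : ∀ j, 0 < √(tl r₀ Λ j) ^ n := fun j => pow_pos (Real.sqrt_pos.2 (hF.tpos j)) _
  have hE0 : ∀ j v, 0 ≤ nE m K p u Q A₀ ρ (tl r₀ Λ j) y v := fun j v => Real.sqrt_nonneg _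
  have hG0 : ∀ j v, 0 ≤ nG m p u (tl r₀ Λ j) y v := fun j v => Real.sqrt_nonneg _
  have hI0 : ∀ j, 0 ≤ I (P0 (tl r₀ Λ j)) := fun j => by
    have h1 := hv2 j
    have h2 := hst j
    by_contra hc
    push Not at hc
    nlinarith
  refine { hF.mono hCF with
    A0 := ?_, A1 := ?_, anti := ?_, M := ?_, Pnn := ?_, Ple := ?_, Vle := ?_, Vge := ?_,
    Vstep := ?_, K := ?_ }
  · intro j v
    exact (hE.bd j v).trans (mul_le_mul_of_nonneg_right hBE (hG0 j v))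
  · intro j v
    have h1 := hE.step j v
    have h2 : 0 ≤ xE m K p u Q A₀ ρ (rr r₀ Λ j ^ 2) y v :=
      mul_nonneg (Real.sqrt_nonneg _) (Real.sqrt_nonneg _)
    have h3 : 0 ≤ √(Dt m n K p Q A₀ ρ (tl r₀ Λ (j + 1)) y) *
        nE m K p u Q A₀ ρ (tl r₀ Λ (j + 1)) y v := mul_nonneg (Real.sqrt_nonneg _) (hE0 _ _)
    have hCL0 : 0 ≤ CL := by linarith
    refine (h1.trans (mul_le_mul_of_nonneg_right hBE h2)).trans ?_
    exact mul_le_mul_of_nonneg_left (le_add_of_nonneg_right h3) hCL0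
  · intro j v w
    refine ((hG j).anti v w).trans (add_le_add ?_ ?_)
    · refine mul_le_mul_of_nonneg_right (mul_le_mul_of_nonneg_right hCG (Real.sqrt_nonneg _)) ?_
      exact add_nonneg (mul_nonneg (hE0 j v) (hG0 j w)) (mul_nonneg (hE0 j w) (hG0 j v))
    · refine mul_le_mul_of_nonneg_right (mul_le_mul_of_nonneg_right hCG (Real.sqrt_nonneg _)) ?_
      exact add_nonneg (mul_nonneg (hG0 j _) (hE0 j w)) (mul_nonneg (hG0 j _) (hE0 j v))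
  · intro j v
    refine ((hG j).mm v).trans (mul_le_mul_of_nonneg_right hCG ?_)
    exact add_nonneg (mul_nonneg (mul_nonneg (Real.sqrt_nonneg _) (hE0 j v)) (hG0 j v))
      (mul_nonneg (mul_nonneg (Real.sqrt_nonneg _) (hG0 j _)) (hE0 j v))
  · intro j v
    exact (hG j).pnn v
  · intro j v
    exact ((hG j).ple v).trans (mul_le_mul_of_nonneg_right hCG (sq_nonneg _))
  · intro j
    show I (P0 (tl r₀ Λ j)) / √(tl r₀ Λ j) ^ n ≤ CL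
    rw [div_le_iff₀ (hst j)]
    exact (hv1 j).trans (mul_le_mul_of_nonneg_right hBW (hst j).le)
  · intro j
    show 1 ≤ CL * (I (P0 (tl r₀ Λ j)) / √(tl r₀ Λ j) ^ n)
    have h1 := (hv2 j).trans (mul_le_mul_of_nonneg_right hBW (hI0 j))
    rw [← mul_div_assoc, le_div_iff₀ (hst j)]
    linarith
  · intro j
    have h1 := hv3 j
    rw [← tl_succ hF.Λpos] at h1
    exact h1.trans (mul_le_mul_of_nonneg_right hBW (Real.sqrt_nonneg _))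
  · intro j v s hs1 hs2
    refine (hK j v s hs1 hs2).trans (mul_le_mul_of_nonneg_right hBW ?_)
    have hA₀ := hF.hA₀
    have ht0 := hF.tpos 0
    have hρ := hF.hρ
    have hΛ := hF.Λpos
    have hGn := hF.pG _ (hF.tpos (j + 1)) (hF.tle (j + 1)) v
    refine add_nonneg (ws_nonneg (by positivity) (fun i => (hG i).pnn v) _) ?_
    positivity

/-- `VxAt` at all levels from `E6In` -/
theorem vxat_of {CL CG : ℝ} {P : ℕ → E n → ℝ} {V : ℕ → ℝ} {𝒜 : ℕ → E n →ₗ[ℝ] E n}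
    {P0 X0 : ℝ → M →ₘ[m] ℝ}
    (h : E6In (fun t => Gm m p u t y) (fun s => gm m K p u s y) (fun t => Dt m n K p Q A₀ ρ t y)
      Q A₀ ρ Λ r₀ (eVx Λ CL θ) CL P V 𝒜) (hCG : CG ≤ CL) (hθ : 0 < θ)
    (hP : ∀ j v, P j v ≤ CG * (tl r₀ Λ j * gm m K p u (tl r₀ Λ j) y v v))
    (hG : ∀ j, GOut m K p u Q A₀ ρ CG (eVx Λ CL θ) (tl r₀ Λ j) y (P0 (tl r₀ Λ j))
      (X0 (tl r₀ Λ j)) (𝒜 j)) (k : ℕ) :
    VxAt m K p u Q A₀ ρ (cVx Λ CL) θ (tl r₀ Λ k) y (𝒜 k) := by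
  have hE0 : ∀ v, 0 ≤ nE m K p u Q A₀ ρ (tl r₀ Λ k) y v := fun v => Real.sqrt_nonneg _
  have hG0 : ∀ v, 0 ≤ nG m p u (tl r₀ Λ k) y v := fun v => Real.sqrt_nonneg _
  have hΛ1 : 1 ≤ Λ := by linarith [h.hΛ]
  have hCL := h.hCL
  have hCL0 : 0 < CL := by linarith
  obtain ⟨c1, c2, c3⟩ := cVx_ge hΛ1 hCL
  have hc0 : 0 ≤ cVx Λ CL := by linarith
  have he1 : eVx Λ CL θ ≤ θ := min_le_left _ _
  have he2 : eVx Λ CL θ ≤ 1 / (20 * (5 * Λ ^ 2 * CL) ^ 3) :=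
    (min_le_right _ _).trans (min_le_left _ _)
  have he3 : eVx Λ CL θ ≤ 1 / (5760 * (5 * Λ ^ 2 * CL) ^ 8) :=
    (min_le_right _ _).trans (min_le_right _ _)
  have hs : √(eVx Λ CL θ) ≤ √θ := Real.sqrt_le_sqrt he1
  refine ⟨(h.Dle k).trans he1, ?_, ?_, ?_⟩
  · intro v w
    refine ((hG k).anti v w).trans (add_le_add ?_ ?_)
    · rw [mul_assoc]
      refine mul_le_mul_of_nonneg_right (hCG.trans c1) (mul_nonneg (Real.sqrt_nonneg _) ?_)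
      exact add_nonneg (mul_nonneg (hE0 v) (hG0 w)) (mul_nonneg (hE0 w) (hG0 v))
    · rw [mul_assoc]
      have h1 : 0 ≤ nG m p u (tl r₀ Λ k) y (𝒜 k v) * nE m K p u Q A₀ ρ (tl r₀ Λ k) y w
          + nG m p u (tl r₀ Λ k) y (𝒜 k w) * nE m K p u Q A₀ ρ (tl r₀ Λ k) y v :=
        add_nonneg (mul_nonneg (hG0 _) (hE0 w)) (mul_nonneg (hG0 _) (hE0 v))
      exact mul_le_mul (hCG.trans c1) (mul_le_mul_of_nonneg_right hs h1)
        (mul_nonneg (Real.sqrt_nonneg _) h1) hc0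
  · intro v
    have h1 := h.abound he2 k v
    refine h1.trans ?_
    show 22 * (5 * Λ ^ 2 * CL) ^ 3 * √(eVx Λ CL θ) * nE m K p u Q A₀ ρ (tl r₀ Λ k) y v ≤ _
    rw [mul_assoc]
    exact mul_le_mul c2 (mul_le_mul_of_nonneg_right hs (hE0 v))
      (mul_nonneg (Real.sqrt_nonneg _) (hE0 v)) hc0
  · intro v
    have h1 := h.e6 he3 k v
    have h2 := hP k v
    have hg := h.pg _ (h.tpos k) (h.tleQ k) v
    have hGn := h.pG _ (h.tpos k) (h.tle k) v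
    have hDn := h.Dnn k
    have ht := h.tpos k
    have hx : 0 ≤ tl r₀ Λ k * gm m K p u (tl r₀ Λ k) y v v := mul_nonneg ht.le hg
    have hy : 0 ≤ Dt m n K p Q A₀ ρ (tl r₀ Λ k) y * Gm m p u (tl r₀ Λ k) y v v :=
      mul_nonneg hDn hGn
    have hC15 : 0 ≤ 5000004 * (5 * Λ ^ 2 * CL) ^ 15 := by positivity
    have h3 : P k v + Dt m n K p Q A₀ ρ (tl r₀ Λ k) y * Gm m p u (tl r₀ Λ k) y v v ≤
        (CL + 1) * (tl r₀ Λ k * gm m K p u (tl r₀ Λ k) y v v +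
          Dt m n K p Q A₀ ρ (tl r₀ Λ k) y * Gm m p u (tl r₀ Λ k) y v v) := by
      have h4 := mul_le_mul_of_nonneg_right hCG hx
      have h5 : 0 ≤ CL * (Dt m n K p Q A₀ ρ (tl r₀ Λ k) y * Gm m p u (tl r₀ Λ k) y v v) :=
        mul_nonneg hCL0.le hy
      linarith
    refine h1.trans ?_
    calc 5000004 * (5 * Λ ^ 2 * CL) ^ 15 * (P k v +
          Dt m n K p Q A₀ ρ (tl r₀ Λ k) y * Gm m p u (tl r₀ Λ k) y v v)
        ≤ 5000004 * (5 * Λ ^ 2 * CL) ^ 15 * ((CL + 1) *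
          (tl r₀ Λ k * gm m K p u (tl r₀ Λ k) y v v +
          Dt m n K p Q A₀ ρ (tl r₀ Λ k) y * Gm m p u (tl r₀ Λ k) y v v)) :=
          mul_le_mul_of_nonneg_left h3 hC15
      _ = (5000004 * (5 * Λ ^ 2 * CL) ^ 15 * (CL + 1)) *
          (tl r₀ Λ k * gm m K p u (tl r₀ Λ k) y v v +
          Dt m n K p Q A₀ ρ (tl r₀ Λ k) y * Gm m p u (tl r₀ Λ k) y v v) := by ring
      _ ≤ _ := mul_le_mul_of_nonneg_right c3 (add_nonneg hx hy)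

end vertex

variable {M : Type u} [MetricSpace M] [CompleteSpace M] [SecondCountableTopology M]
  [MeasurableSpace M] [BorelSpace M] {m : Measure M} {n : ℕ} {K A : ℝ} {o : M}
  {p : ℝ → M → M → ℝ}

/-- `e6f_voc` in the form of the sub-blocks -/
theorem sb_e6f (e : Env m n K o A p) : EvO fun Q R Λ => ∃ CL, 1 ≤ CL ∧ ∀ θ, 0 < θ →
    EvI fun A₀ M' ε η δ ρ => ∀ (u : Fin n → M →ₘ[m] ℝ) (uu : M → E n),
      Cfg m n K o p R Q η ρ u uu → DropS m n K o p R Q δ ρ → TT m K o p (R / 2) Q ε ρ u →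
        ∀ y ∈ ball o (R / 4 * ρ), ∀ r₀, ρ / M' ≤ r₀ → r₀ ≤ ρ / √M' →
          E6F (fun t => Gm m p u t y) (fun s => gm m K p u s y) (fun t => Dt m n K p Q A₀ ρ t y)
            Q A₀ ρ Λ r₀ θ CL := by
  obtain ⟨Q₀, hQ₀, h⟩ := e6f_voc e
  refine ⟨Q₀, hQ₀, fun Q hQ => ⟨1, le_rfl, fun R hR => ⟨256, by norm_num, fun Λ hΛ => ?_⟩⟩⟩
  obtain ⟨CL, hCL, h⟩ := h Q hQ R hR Λ hΛ
  refine ⟨CL, hCL, fun θ hθ => ?_⟩
  obtain ⟨ε₁, hε₁, h⟩ := h θ hθ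
  exact ⟨ε₁, hε₁, fun A₀ h0 h1 => ⟨1, le_rfl, fun M' hM => h A₀ h0 h1 M' hM⟩⟩

/-- **the vertex statement** -/
theorem sb_vx_of (e : Env m n K o A p) (hE1 : SB_E1 m n K o p) (hW : SB_W m n K o p)
    (hE4 : SB_E4 m n K o p) (hGL : SB_GOut m n K o p) : SB_Vx m n K o p := by
  have h0 := ((hE1.and hW).and (hE4.and hGL)).and ((sb_e6f e).and (EvO.thr 1 (fun _ => 1)
    (fun _ _ => 1)))
  refine h0.mono ?_
  intro Q R Λ
  rintro ⟨⟨⟨⟨B1, hB1, h1⟩, ⟨BW, hBW, h2⟩⟩, ⟨⟨BE, hBE, h3⟩, h4⟩⟩,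
    ⟨⟨CF, hCF, h5⟩, ⟨hQ, -⟩, ⟨hR, -⟩, ⟨hΛ16, -⟩⟩⟩
  obtain ⟨CG, hCG, h4⟩ := h4 (B1 + BW + BE) (by linarith)
  have hCL : 1 ≤ CF + CG + BW + BE := by linarith
  set CL := CF + CG + BW + BE with hCLd
  have hΛ0 : 0 < Λ := by linarith
  refine ⟨cVx Λ CL, hCL.trans (cVx_ge (by linarith) hCL).1, fun θ hθ => ?_⟩
  have heps := eVx_pos hΛ0 hCL hθ
  have h6 := ((h1.and h2).and (h3.and (h4 _ heps))).and ((h5 _ heps).and
    (EvI.thr (a := 1) one_pos (fun _ => 1) (c := fun _ _ => 1) (fun _ _ _ _ => one_pos)))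
  refine h6.mono ?_
  intro A₀ M' ε η δ ρ
  rintro ⟨⟨⟨k1, k2⟩, ⟨k3, k4⟩⟩, ⟨k5, ⟨hA₀, -⟩, ⟨hM', -⟩, -⟩⟩
  intro u uu hc hD hT y hy r₀ hr₁ hr₂
  obtain ⟨𝒜, cc, hE⟩ := k3 u uu hc hD hT y hy r₀ hr₁ hr₂
  obtain ⟨P0, P1, P2, X0, hw, hK⟩ := k2 u uu hc hD hT y hy
  have hF := k5 u uu hc hD hT y hy r₀ hr₁ hr₂
  have hρ := hc.ρ_pos
  have hM0 : 0 < M' := by linarith
  -- the levels are in the range
  have ht0 : ∀ j, tl r₀ Λ j ≤ ρ ^ 2 / M' := by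
    intro j
    refine (hF.tle0 j).trans ?_
    rw [tl_eq]; simp only [pow_zero, div_one]
    have h7 := pow_le_pow_left₀ hF.hr₀.le hr₂ 2
    rwa [div_pow, Real.sq_sqrt hM0.le] at h7
  have hy2 : y ∈ ball o (R / 2 * ρ) := ball_subset_ball (by nlinarith) hy
  have hG : ∀ j, GOut m K p u Q A₀ ρ CG (eVx Λ CL θ) (tl r₀ Λ j) y (P0 (tl r₀ Λ j))
      (X0 (tl r₀ Λ j)) (𝒜 j) := by
    intro j
    obtain ⟨w1, w2, -⟩ := hw (tl r₀ Λ j) (hF.tpos j) (ht0 j)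
    have hst : √(tl r₀ Λ j) = rr r₀ Λ j := by
      unfold tl
      exact Real.sqrt_sq (by unfold rr; have := hF.hr₀; positivity)
    refine k4 u uu hc hD hT y hy (tl r₀ Λ j) (hF.tpos j) (ht0 j) _ (P1 (tl r₀ Λ j))
      (P2 (tl r₀ Λ j)) _ (WAt.mono w1 (by linarith) (by linarith) (by linarith)) (fun c c' => ?_)
      (E1At.mono (k1 u uu hc hD hT y hy2 _ (hF.tpos j) (hF.tle j)) (by linarith) (hF.tpos j).le
        (hF.Dnn j)) (𝒜 j) (cc j) (fun v => ?_)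
    · refine (w2 c c').trans (mul_le_mul_of_nonneg_right (by linarith) ?_)
      exact mul_nonneg (by positivity) (mul_nonneg (Real.sqrt_nonneg _) (Real.sqrt_nonneg _))
    · rw [hst]
      refine (hE.err j v).trans ?_
      have h8 : 0 ≤ xE m K p u Q A₀ ρ (rr r₀ Λ j ^ 2) y v :=
        mul_nonneg (Real.sqrt_nonneg _) (Real.sqrt_nonneg _)
      have h9 : 0 ≤ rr r₀ Λ j := by unfold rr; have := hF.hr₀; positivity
      exact mul_le_mul_of_nonneg_right (mul_le_mul_of_nonneg_right (by linarith) h9) h8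
  have hIn := e6in_of (P0 := P0) (X0 := X0) (CL := CL) hF (by linarith) (by linarith)
    (by linarith) (by linarith) (by linarith) hE hG
    (fun j => (hw _ (hF.tpos j) (ht0 j)).1.v_le) (fun j => (hw _ (hF.tpos j) (ht0 j)).1.v_ge)
    (fun j => (hw _ (hF.tpos j) (ht0 j)).2.2) (hK r₀ hr₁ hr₂)
  refine ⟨𝒜, cc, E4Out_mono hF.hr₀ hΛ0 ?_ hE, fun k => ?_⟩
  · exact le_trans (by linarith) (cVx_ge (by linarith : (1:ℝ) ≤ Λ) hCL).1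
  · exact vxat_of (P0 := P0) (X0 := X0) (CG := CG) hIn (by linarith) hθ
      (fun j v => (hG j).pgm v) hG k

end Vale.Agent.P242.H852
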