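import Vale.Agent.P242.H744.NuC
import Vale.Agent.P242.H852.E6Voc

/-!
# P242, package A-E6P: the drop function `Dt` at the levels
-/

open MeasureTheory Set Metric

set_option linter.unusedSectionVars false

noncomputable section

universe u

namespace Vale.Agent.P242.H852

open Vale.Agent.P242.H71 Vale.Agent.P242.H744

variable {M : Type u} [MetricSpace M] [CompleteSpace M] [SecondCountableTopology M]
  [MeasurableSpace M] [BorelSpace M] {m : Measure M} {n : ℕ} {K A : ℝ} {o : M}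
  {p : ℝ → M → M → ℝ} {Q A₀ ρ Λ : ℝ}

theorem Dt_eq (y : M) (t : ℝ) : Dt m n K p Q A₀ ρ t y =
    EE (fun s => nu m n K p y s y / s) (Q * ρ ^ 2) t + A₀ * (t / ρ ^ 2) ^ (1 / 8 : ℝ) := rfl

theorem nus_cont (e : Env m n K o A p) (y : M) :
    ContinuousOn (fun s => nu m n K p y s y / s) (Ioi 0) :=
  (nu_cont e y y).div continuousOn_id fun s hs => ne_of_gt hs

theorem nus_nonneg (e : Env m n K o A p) (y : M) : ∀ s, 0 < s → 0 ≤ nu m n K p y s y / s :=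
  fun _ hs => div_nonneg (nu_nonneg e y y hs) hs.le

theorem Dt_floor (e : Env m n K o A p) (y : M) {t : ℝ} (ht : 0 < t) (htQ : t ≤ Q * ρ ^ 2) :
    A₀ * (t / ρ ^ 2) ^ (1 / 8 : ℝ) ≤ Dt m n K p Q A₀ ρ t y := by
  rw [Dt_eq]
  linarith [ee_nonneg (nus_nonneg e y) ht htQ]

theorem Dt_nonneg (e : Env m n K o A p) (hA₀ : 0 ≤ A₀) (y : M) {t : ℝ} (ht : 0 < t)
    (htQ : t ≤ Q * ρ ^ 2) : 0 ≤ Dt m n K p Q A₀ ρ t y := by
  refine le_trans ?_ (Dt_floor e y ht htQ)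
  positivity

theorem Dt_step (e : Env m n K o A p) (hA₀ : 0 ≤ A₀) (hΛ : 16 ≤ Λ) (y : M) {t : ℝ} (ht : 0 < t)
    (htQ : t ≤ Q * ρ ^ 2) :
    Dt m n K p Q A₀ ρ t y ≤ Λ ^ (1 / 4 : ℝ) * Dt m n K p Q A₀ ρ (t / Λ ^ 2) y := by
  have hΛ0 : 0 < Λ := by linarith
  have h1 := (ee_step (nus_cont e y) (nus_nonneg e y) hΛ ht htQ).2
  have e1 : t * Λ⁻¹ ^ 2 = t / Λ ^ 2 := by field_simp
  have e2 : mu Λ = (Λ ^ (1 / 4 : ℝ))⁻¹ := by
    unfold mu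
    rw [← Real.rpow_neg hΛ0.le, inv_pow, ← Real.rpow_natCast Λ 2, ← Real.rpow_neg hΛ0.le,
      ← Real.rpow_mul hΛ0.le]
    norm_num
  rw [e1, e2] at h1
  rw [Dt_eq, Dt_eq]
  have hp : 0 < Λ ^ (1 / 4 : ℝ) := by positivity
  rw [inv_mul_le_iff₀ hp] at h1
  have e3 : Λ ^ (1 / 4 : ℝ) * (A₀ * (t / Λ ^ 2 / ρ ^ 2) ^ (1 / 8 : ℝ)) =
      A₀ * (t / ρ ^ 2) ^ (1 / 8 : ℝ) := by
    have e4 : t / Λ ^ 2 / ρ ^ 2 = (Λ ^ 2)⁻¹ * (t / ρ ^ 2) := by field_simp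
    have e5 : ((Λ ^ 2)⁻¹ : ℝ) ^ (1 / 8 : ℝ) = (Λ ^ (1 / 4 : ℝ))⁻¹ := by
      rw [← Real.rpow_neg hΛ0.le, ← Real.rpow_natCast Λ 2, ← Real.rpow_neg hΛ0.le,
        ← Real.rpow_mul hΛ0.le]
      norm_num
    rw [e4, Real.mul_rpow (by positivity) (by positivity), e5]
    field_simp
  rw [mul_add, e3]
  linarith

theorem Dt_le (e : Env m n K o A p) (hA₀ : 0 ≤ A₀) {R δ : ℝ} (hD : DropS m n K o p R Q δ ρ) {y : M}
    (hy : y ∈ ball o (R * ρ)) {t : ℝ} (ht : 0 < t) (htρ : t ≤ ρ ^ 2) (hQ : 1 ≤ Q) :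
    Dt m n K p Q A₀ ρ t y ≤ δ + A₀ := by
  have htQ : t ≤ Q * ρ ^ 2 := by nlinarith
  rw [Dt_eq]
  have h1 := ee_le (nus_cont e y) (nus_nonneg e y) ht htQ
  have h2 := hD y hy t ht htQ
  have h3 : (t / ρ ^ 2) ^ (1 / 8 : ℝ) ≤ 1 :=
    Real.rpow_le_one (by positivity) (div_le_one_of_le₀ htρ (by positivity)) (by norm_num)
  have h4 := mul_le_mul_of_nonneg_left h3 hA₀
  linarith

end Vale.Agent.P242.H852
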