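import Vale.Agent.P242.H852.E6Voc
import Vale.Agent.P242.H703.Hf4

/-!
# P242, package A-E6P: the fields of `E6F` from helper703's heat flow data
-/

open MeasureTheory Set
open scoped InnerProductSpace

set_option linter.unusedSectionVars false

noncomputable section

universe u

namespace Vale.Agent.P242.H852

open Vale.Agent.P242.H71

variable {n : ℕ} {X : Type u} [MetricSpace X] {H : H703.HF n X} {Ω : Set X}
  {Q C₀ C κ m η A₀ ρ : ℝ}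

/-- `Nb` in the form `NtF` -/
theorem NtF_Nb (h : H.Hyp Ω (ρ ^ 2) Q C₀ C κ m η) {e t : ℝ} (he : 0 < e) (ht : 0 < t)
    (htQ : t ≤ Q * ρ ^ 2) {x : X} (hx : x ∈ Ω) (c c' : E n) :
    H.Nb (ρ ^ 2) Q A₀ e t x c c' = NtF (fun s c c' => H.gam s x c c') Q A₀ ρ e t c c' :=
  h.Nb_eq he ht htQ hx c c'

/-- the contribution of the times above `t₀` is a background term -/
theorem start_of_HF (h : H.Hyp Ω (ρ ^ 2) Q C₀ C κ m η) {x : X} (hx : x ∈ Ω) {t₀ : ℝ} (ht : 0 < t₀)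
    (htρ : t₀ ≤ ρ ^ 2) (hη : (Q + C * (ρ ^ 2 / t₀) ^ m) * η ≤ A₀ * (t₀ / ρ ^ 2) ^ (1 / 4 : ℝ))
    (c : E n) :
    ∫ s in t₀..Q * ρ ^ 2, H.gam s x c c ≤ A₀ * (t₀ / ρ ^ 2) ^ (1 / 4 : ℝ) * ‖c‖ ^ 2 := by
  have hT := h.T_pos
  have hρ0 : ρ ≠ 0 := fun h0 => by rw [h0] at hT; norm_num at hT
  have hQT := h.T_le
  have hC := h.one_le_C
  have hκ := h.one_le_κ
  have hm := h.m_nonneg
  have hη0 := h.η_nonneg
  have hint : ∀ a b, 0 < a → a ≤ b → b ≤ Q * ρ ^ 2 →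
      IntervalIntegrable (fun s => H.gam s x c c) volume a b := by
    intro a b ha hab hb
    refine ContinuousOn.intervalIntegrable ((h.gam_cont x hx c c).mono ?_)
    rw [uIcc_of_le hab]
    exact fun s hs => ⟨ha.trans_le hs.1, hs.2.trans hb⟩
  have h1 : ∫ s in t₀..Q * ρ ^ 2, H.gam s x c c =
      (∫ s in t₀..ρ ^ 2, H.gam s x c c) + ∫ s in ρ ^ 2..Q * ρ ^ 2, H.gam s x c c :=
    (intervalIntegral.integral_add_adjacent_intervals (hint _ _ ht htρ hQT)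
      (hint _ _ hT hQT le_rfl)).symm
  have h2 : ∫ s in t₀..ρ ^ 2, H.gam s x c c ≤
      ∫ _ in t₀..ρ ^ 2, C * (ρ ^ 2 / t₀) ^ m * (η / ρ ^ 2 * ‖c‖ ^ 2) := by
    apply intervalIntegral.integral_mono_on htρ (hint _ _ ht htρ hQT) intervalIntegrable_const
    intro s hs
    have hs0 : 0 < s := ht.trans_le hs.1
    have hκT := h.κT_le
    have h3 := h.harnack s (ρ ^ 2) x hx x hx c hs0 hs.2 hκT (by
      rw [dist_self]; have := h.C₀_pos; positivity)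
    have h4 := h.top_gam (κ * ρ ^ 2) x hx c (by nlinarith) hκT
    have h5 : H.gam (κ * ρ ^ 2) x c c ≤ η / ρ ^ 2 * ‖c‖ ^ 2 := by
      have h6 : ρ ^ 2 * H.gam (κ * ρ ^ 2) x c c ≤ κ * ρ ^ 2 * H.gam (κ * ρ ^ 2) x c c := by
        apply mul_le_mul_of_nonneg_right (by nlinarith)
        exact h.gam_nonneg _ x hx c (by positivity) hκT
      have h7 := h6.trans h4
      rw [div_mul_eq_mul_div, le_div_iff₀ hT]
      linarith
    have h8 : (ρ ^ 2 / s) ^ m ≤ (ρ ^ 2 / t₀) ^ m := by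
      apply Real.rpow_le_rpow (by positivity) _ hm
      exact div_le_div_of_nonneg_left (by positivity) ht hs.1
    calc H.gam s x c c ≤ C * (ρ ^ 2 / s) ^ m * H.gam (κ * ρ ^ 2) x c c := h3
      _ ≤ C * (ρ ^ 2 / t₀) ^ m * (η / ρ ^ 2 * ‖c‖ ^ 2) := by
          have := h.gam_nonneg (κ * ρ ^ 2) x hx c (by positivity) hκT
          gcongr
  have h3 : ∫ s in ρ ^ 2..Q * ρ ^ 2, H.gam s x c c ≤
      ∫ _ in ρ ^ 2..Q * ρ ^ 2, η / ρ ^ 2 * ‖c‖ ^ 2 := by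
    apply intervalIntegral.integral_mono_on hQT (hint _ _ hT hQT le_rfl) intervalIntegrable_const
    intro s hs
    have h4 := h.top_gam s x hx c hs.1 hs.2
    have h6 : ρ ^ 2 * H.gam s x c c ≤ s * H.gam s x c c :=
      mul_le_mul_of_nonneg_right hs.1 (h.gam_nonneg _ x hx c (hT.trans_le hs.1) hs.2)
    have h7 := h6.trans h4
    rw [div_mul_eq_mul_div, le_div_iff₀ hT]
    linarith
  rw [intervalIntegral.integral_const, smul_eq_mul] at h2 h3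
  have h4 : (ρ ^ 2 - t₀) * (C * (ρ ^ 2 / t₀) ^ m * (η / ρ ^ 2 * ‖c‖ ^ 2)) ≤
      C * (ρ ^ 2 / t₀) ^ m * η * ‖c‖ ^ 2 := by
    have h5 : 0 ≤ C * (ρ ^ 2 / t₀) ^ m * (η / ρ ^ 2 * ‖c‖ ^ 2) := by positivity
    calc _ ≤ ρ ^ 2 * (C * (ρ ^ 2 / t₀) ^ m * (η / ρ ^ 2 * ‖c‖ ^ 2)) :=
          mul_le_mul_of_nonneg_right (by linarith) h5
      _ = _ := by field_simp
  have h5 : (Q * ρ ^ 2 - ρ ^ 2) * (η / ρ ^ 2 * ‖c‖ ^ 2) ≤ Q * η * ‖c‖ ^ 2 := by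
    have h6 : (Q * ρ ^ 2 - ρ ^ 2) * (η / ρ ^ 2 * ‖c‖ ^ 2) = (Q - 1) * η * ‖c‖ ^ 2 := by
      field_simp
    rw [h6]
    have : 0 ≤ η * ‖c‖ ^ 2 := by positivity
    nlinarith
  have h6 := mul_le_mul_of_nonneg_right hη (sq_nonneg ‖c‖)
  rw [h1]
  nlinarith

/-- the fields of `E6F` -/
theorem E6F.of_HF (h : H.Hyp Ω (ρ ^ 2) Q C₀ C κ m η) (q : H703.HF.Par Q η A₀ (3 / 8)) {x : X}
    (hx : x ∈ Ω) {D : ℝ → ℝ} {Λ r₀ ε ε' CL : ℝ} (hΛ : 256 ≤ Λ) (hr₀ : 0 < r₀) (hρ : 0 < ρ)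
    (r₀ρ : r₀ ≤ ρ) (hQ : 1 ≤ Q) (hA₀ : 0 < A₀) (hε : 0 < ε) (hCL : 4 * C * (2 * Λ ^ 2) ^ m + 1 ≤ CL)
    (hS : ∀ t, 0 < t → H.Small (ρ ^ 2) ε' t x) (hε0 : 0 ≤ ε') (hε' : ε' ≤ 1 / 16)
    (hη : 8 * η * Λ ^ 2 ≤ 1) (hεΛ : (Λ ^ 2) ^ (2 * ε') ≤ 3 / 2) (hεA : 16 / 3 * ε' + 6 * A₀ ≤ ε)
    (Dle : ∀ j, D (tl r₀ Λ j) ≤ ε)
    (Dstep : ∀ j, D (tl r₀ Λ j) ≤ Λ ^ (1 / 4 : ℝ) * D (tl r₀ Λ (j + 1)))
    (Dfl : ∀ j, A₀ * (tl r₀ Λ j / ρ ^ 2) ^ (1 / 8 : ℝ) ≤ D (tl r₀ Λ j))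
    (start : ∀ c : E n, ∫ s in tl r₀ Λ 0..Q * ρ ^ 2, H.gam s x c c ≤
      A₀ * (tl r₀ Λ 0 / ρ ^ 2) ^ (1 / 4 : ℝ) * ‖c‖ ^ 2) :
    E6F (fun t c c' => H.G t x c c') (fun s c c' => H.gam s x c c') D Q A₀ ρ Λ r₀ ε CL := by
  have hΛ0 : 0 < Λ := by linarith
  have hΛ2 : (1 : ℝ) ≤ Λ ^ 2 := one_le_pow₀ (by linarith)
  have hη0 := h.η_nonneg
  have hη8 : η ≤ 1 / 8 := by nlinarith
  have tp : ∀ j, 0 < tl r₀ Λ j := fun j => tl_pos hr₀ hΛ0 j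
  have t0 : tl r₀ Λ 0 ≤ ρ ^ 2 := by
    rw [tl_eq]; simp only [pow_zero, div_one]
    exact pow_le_pow_left₀ hr₀.le r₀ρ 2
  have ta : ∀ j, tl r₀ Λ (j + 1) ≤ tl r₀ Λ j := fun j => by
    rw [tl_succ hΛ0]; exact div_le_self (tp j).le hΛ2
  have tle : ∀ j, tl r₀ Λ j ≤ ρ ^ 2 := fun j => by
    induction j with
    | zero => exact t0
    | succ j ih => exact (ta j).trans ih
  have hρQ : ρ ^ 2 ≤ Q * ρ ^ 2 := by nlinarith [sq_nonneg ρ]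
  have e1 : ∀ j, tl r₀ Λ j = Λ ^ 2 * tl r₀ Λ (j + 1) := fun j => by
    rw [tl_succ hΛ0]; field_simp
  refine
    { hΛ := hΛ, hr₀ := hr₀, hρ := hρ, r₀ρ := r₀ρ, hQ := hQ, hA₀ := hA₀, hε := hε, hCL := ?_,
      bG := ?_, pG := ?_, bg := ?_, pg := ?_, ig := ?_, f7 := ?_, p1 := ?_, low := ?_, f2 := ?_,
      f4a := ?_, Dle := Dle, Dstep := Dstep, Dfl := Dfl, start := start }
  · have h1 := h.one_le_C
    have h2 : 0 ≤ 4 * C * (2 * Λ ^ 2) ^ m := by positivity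
    linarith
  · intro t ht htρ
    refine ⟨fun c d => h.G_symm t x hx c d ht htρ, fun a b d => ?_, fun r a d => ?_⟩
    · simp
    · simp
  · intro t ht htρ c
    exact h.G_nonneg (by linarith) hη8 ht htρ hx (hS t ht) c
  · intro s hs hsQ
    refine ⟨fun c d => h.gam_symm s x hx c d hs hsQ, fun a b d => ?_, fun r a d => ?_⟩
    · simp
    · simp
  · intro s hs hsQ c
    exact h.gam_nonneg s x hx c hs hsQ
  · intro c c' a ha haQ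
    refine ContinuousOn.intervalIntegrable ((h.gam_cont x hx c c').mono ?_)
    rw [uIcc_of_le haQ]
    exact fun s hs => ⟨ha.trans_le hs.1, hs.2⟩
  · intro j c
    have h1 := h.F7 (by linarith) hη8 (tp (j + 1)) (ta j) (tle j) hx (hS _ (tp j)) c
    have h2 := h.G_nonneg (by linarith) hη8 (tp j) (tle j) hx (hS _ (tp j)) c
    have h3 : (1 + 2 * η) * H.G (tl r₀ Λ j) x c c ≤ 2 * H.G (tl r₀ Λ j) x c c :=
      mul_le_mul_of_nonneg_right (by linarith) h2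
    exact h1.trans h3
  · intro j c
    have h1 := h.P1 (by linarith) (tp (j + 1)) (ta j) (tle j) hx (hS _ (tp (j + 1))) c
    have h2 := h.G_nonneg (by linarith) hη8 (tp (j + 1)) (tle (j + 1)) hx (hS _ (tp (j + 1))) c
    have h3 := h.G_lower (ε := ε') (a := 1 / 8) (by linarith) (by linarith) hη8 (tp (j + 1))
      (tle (j + 1)) hx (hS _ (tp (j + 1))) c
    have e2 : tl r₀ Λ j / tl r₀ Λ (j + 1) = Λ ^ 2 := by
      rw [e1 j]; have := tp (j + 1); field_simp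
    rw [e2] at h1
    have h4 : (Λ ^ 2) ^ (2 * ε') * H.G (tl r₀ Λ (j + 1)) x c c ≤
        3 / 2 * H.G (tl r₀ Λ (j + 1)) x c c := mul_le_mul_of_nonneg_right hεΛ h2
    have h5 : tl r₀ Λ (j + 1) / ρ ^ 2 ≤ (tl r₀ Λ (j + 1) / ρ ^ 2) ^ (1 / 8 : ℝ) := by
      have hle : tl r₀ Λ (j + 1) / ρ ^ 2 ≤ 1 := (div_le_one (by positivity)).2 (tle (j + 1))
      have hpos : 0 < tl r₀ Λ (j + 1) / ρ ^ 2 := div_pos (tp (j + 1)) (by positivity)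
      calc tl r₀ Λ (j + 1) / ρ ^ 2 = (tl r₀ Λ (j + 1) / ρ ^ 2) ^ (1 : ℝ) := (Real.rpow_one _).symm
        _ ≤ _ := Real.rpow_le_rpow_of_exponent_ge hpos hle (by norm_num)
    have h6 : 2 * (η / ρ ^ 2 * ‖c‖ ^ 2) * tl r₀ Λ j ≤ 1 / 2 * H.G (tl r₀ Λ (j + 1)) x c c := by
      calc 2 * (η / ρ ^ 2 * ‖c‖ ^ 2) * tl r₀ Λ j
          = 2 * η * Λ ^ 2 * ((tl r₀ Λ (j + 1) / ρ ^ 2) * ‖c‖ ^ 2) := by rw [e1 j]; field_simp
        _ ≤ 2 * η * Λ ^ 2 * ((tl r₀ Λ (j + 1) / ρ ^ 2) ^ (1 / 8 : ℝ) * ‖c‖ ^ 2) := by gcongr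
        _ ≤ 2 * η * Λ ^ 2 * (2 * H.G (tl r₀ Λ (j + 1)) x c c) := by gcongr
        _ = (8 * η * Λ ^ 2) * (1 / 2 * H.G (tl r₀ Λ (j + 1)) x c c) := by ring
        _ ≤ 1 * (1 / 2 * H.G (tl r₀ Λ (j + 1)) x c c) :=
            mul_le_mul_of_nonneg_right hη (by positivity)
        _ = _ := one_mul _
    show H.G (tl r₀ Λ j) x c c ≤ 2 * H.G (tl r₀ Λ (j + 1)) x c c
    linarith
  · intro j c
    exact h.G_lower (ε := ε') (a := 1 / 8) (by linarith) (by linarith) hη8 (tp j)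
      (tle j) hx (hS _ (tp j)) c
  · intro j c d
    have h1 := h.F2 q (tp (j + 1)) (ta j) (tle j) hx c d
    rw [NtF_Nb h (by norm_num) (tp j) ((tle j).trans hρQ) hx,
      NtF_Nb h (by norm_num) (tp j) ((tle j).trans hρQ) hx] at h1
    have e2 : 2 * tl r₀ Λ j / tl r₀ Λ (j + 1) = 2 * Λ ^ 2 := by
      rw [e1 j]; have := tp (j + 1); field_simp
    rw [e2] at h1
    exact h1.trans (mul_le_mul_of_nonneg_right hCL (by positivity))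
  · intro j c
    have h1 := h.F4a q hε0 (by linarith) (tp j) (tle j) hx (hS _ (tp j)) c
    rw [NtF_Nb h (by norm_num) (tp j) ((tle j).trans hρQ) hx] at h1
    have h2 := h.G_nonneg (by linarith) hη8 (tp j) (tle j) hx (hS _ (tp j)) c
    have e2 : 2 / (3 / 8) * ε' + 6 * A₀ = 16 / 3 * ε' + 6 * A₀ := by ring
    rw [e2] at h1
    exact h1.trans (mul_le_mul_of_nonneg_right hεA h2)

end Vale.Agent.P242.H852
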