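import Mathlib.LinearAlgebra.BilinearForm.Properties
import Mathlib.Analysis.SpecialFunctions.Pow.Real
import Mathlib.Analysis.SpecificLimits.Basic
import Mathlib.Tactic

/-!
# P242, package A-E6P: the discrete core of (A-bound) and (E6')

Everything takes place on the space `E` of coefficient vectors `c`; `G j`, `S j` are the forms at
level `j` (at a fixed centre `y`).
-/

open Finset

set_option linter.unusedSectionVars false

noncomputable section

namespace Vale.Agent.P242.H852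

universe u

variable {E : Type u} [AddCommGroup E] [Module ℝ E]

/-- bilinear forms -/
abbrev BF (E : Type u) [AddCommGroup E] [Module ℝ E] : Type u := E →ₗ[ℝ] E →ₗ[ℝ] ℝ

/-- the seminorm of a form -/
def nr (B : BF E) (v : E) : ℝ := Real.sqrt (B v v)

/-- symmetric and positive semidefinite -/
structure PSD (B : BF E) : Prop where
  symm : ∀ v w, B v w = B w v
  nonneg : ∀ v, 0 ≤ B v v

theorem nr_nonneg (B : BF E) (v : E) : 0 ≤ nr B v := Real.sqrt_nonneg _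

theorem PSD.sq {B : BF E} (h : PSD B) (v : E) : nr B v ^ 2 = B v v :=
  Real.sq_sqrt (h.nonneg v)

theorem PSD.cs {B : BF E} (h : PSD B) (v w : E) : |B v w| ≤ nr B v * nr B w := by
  have h1 := LinearMap.BilinForm.apply_mul_apply_le_of_forall_zero_le B h.nonneg v w
  rw [← h.symm v w] at h1
  unfold nr
  rw [← Real.sqrt_mul (h.nonneg v)]
  apply Real.le_sqrt_of_sq_le
  rw [sq_abs]
  nlinarith [h1]

theorem PSD.add {B B' : BF E} (h : PSD B) (h' : PSD B') : PSD (B + B') :=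
  ⟨fun v w => by simp [h.symm v w, h'.symm v w],
   fun v => by simpa using add_nonneg (h.nonneg v) (h'.nonneg v)⟩

theorem PSD.smul {B : BF E} (h : PSD B) {t : ℝ} (ht : 0 ≤ t) : PSD (t • B) :=
  ⟨fun v w => by simp [h.symm v w], fun v => by simpa using mul_nonneg ht (h.nonneg v)⟩

theorem PSD.sum {ι : Type} {s : Finset ι} {B : ι → BF E} (h : ∀ i ∈ s, PSD (B i)) :
    PSD (∑ i ∈ s, B i) := by
  classical
  induction s using Finset.induction_on with
  | empty => exact ⟨fun v w => by simp, fun v => by simp⟩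
  | insert a s ha ih =>
    rw [Finset.sum_insert ha]
    exact (h a (mem_insert_self _ _)).add (ih fun i hi => h i (mem_insert_of_mem hi))

/-- pull back of a form -/
theorem PSD.pull {B : BF E} (h : PSD B) (A : E →ₗ[ℝ] E) : PSD (B.compl₁₂ A A) :=
  ⟨fun v w => by simp [h.symm (A v) (A w)], fun v => by simpa using h.nonneg (A v)⟩

/-- if `x ≤ (s^2 a + b/s^2)/2` for all `s>0`, then `x ≤ √a √b` -/
theorem opt_aux {x a b : ℝ} (ha : 0 ≤ a) (hb : 0 ≤ b)
    (h : ∀ s : ℝ, 0 < s → x ≤ (s ^ 2 * a + b / s ^ 2) / 2) :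
    x ≤ Real.sqrt a * Real.sqrt b := by
  have key : ∀ e : ℝ, 0 < e → x ≤ (Real.sqrt a + e) * (Real.sqrt b + e) := by
    intro e he
    have ha' : 0 < Real.sqrt a + e := by positivity
    have hb' : 0 < Real.sqrt b + e := by positivity
    set s := Real.sqrt ((Real.sqrt b + e) / (Real.sqrt a + e)) with hs
    have hs0 : 0 < s := Real.sqrt_pos.mpr (by positivity)
    have hs2 : s ^ 2 = (Real.sqrt b + e) / (Real.sqrt a + e) :=
      Real.sq_sqrt (by positivity)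
    have h1 := h s hs0
    rw [hs2] at h1
    have h2 : a ≤ (Real.sqrt a + e) ^ 2 := by
      nlinarith [Real.sq_sqrt ha, Real.sqrt_nonneg a]
    have h3 : b ≤ (Real.sqrt b + e) ^ 2 := by
      nlinarith [Real.sq_sqrt hb, Real.sqrt_nonneg b]
    have h4 : (Real.sqrt b + e) / (Real.sqrt a + e) * a ≤
        (Real.sqrt b + e) * (Real.sqrt a + e) := by
      calc (Real.sqrt b + e) / (Real.sqrt a + e) * a
          ≤ (Real.sqrt b + e) / (Real.sqrt a + e) * (Real.sqrt a + e) ^ 2 := by gcongr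
        _ = _ := by field_simp
    have h5 : b / ((Real.sqrt b + e) / (Real.sqrt a + e)) ≤
        (Real.sqrt b + e) * (Real.sqrt a + e) := by
      calc b / ((Real.sqrt b + e) / (Real.sqrt a + e))
          ≤ (Real.sqrt b + e) ^ 2 / ((Real.sqrt b + e) / (Real.sqrt a + e)) := by gcongr
        _ = _ := by field_simp
    nlinarith
  refine le_of_forall_pos_le_add fun δ hδ => ?_
  have hc : Filter.Tendsto (fun e : ℝ => (Real.sqrt a + e) * (Real.sqrt b + e))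
      (nhdsWithin 0 (Set.Ioi 0)) (nhds ((Real.sqrt a + 0) * (Real.sqrt b + 0))) := by
    apply Filter.Tendsto.mono_left _ nhdsWithin_le_nhds
    exact ((continuous_const.add continuous_id).mul (continuous_const.add continuous_id)).tendsto 0
  have h6 : x ≤ (Real.sqrt a + 0) * (Real.sqrt b + 0) := by
    refine ge_of_tendsto hc ?_
    filter_upwards [self_mem_nhdsWithin] with e he using key e he
  simp only [add_zero] at h6
  linarith

/-- polarization of a symmetric form bounded by a positive form -/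
theorem polar {B Q : BF E} (hB : ∀ v w, B v w = B w v) (hQ : PSD Q)
    (h : ∀ v, |B v v| ≤ Q v v) (v w : E) : |B v w| ≤ nr Q v * nr Q w := by
  apply opt_aux (hQ.nonneg v) (hQ.nonneg w)
  intro s hs
  have h1 := h (s • v + s⁻¹ • w)
  have h2 := h (s • v - s⁻¹ • w)
  have e1 : B (s • v + s⁻¹ • w) (s • v + s⁻¹ • w) - B (s • v - s⁻¹ • w) (s • v - s⁻¹ • w)
      = 4 * B v w := by
    simp only [map_add, map_sub, map_smul, LinearMap.add_apply, LinearMap.sub_apply,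
      LinearMap.smul_apply, smul_eq_mul, hB w v]
    field_simp
    ring
  have e2 : Q (s • v + s⁻¹ • w) (s • v + s⁻¹ • w) + Q (s • v - s⁻¹ • w) (s • v - s⁻¹ • w)
      = 2 * (s ^ 2 * Q v v + Q w w / s ^ 2) := by
    simp only [map_add, map_sub, map_smul, LinearMap.add_apply, LinearMap.sub_apply,
      LinearMap.smul_apply, smul_eq_mul, hQ.symm w v]
    field_simp
    ring
  rw [abs_le] at h1 h2 ⊢
  constructor <;> linarith

theorem abound_alg {C a n s ε : ℝ} (hC : 1 ≤ C) (ha0 : 0 < a) (hn : 0 ≤ n) (hs0 : 0 ≤ s)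
    (hs : s ^ 2 = ε) (hε : 0 < ε) (hε2 : ε ≤ 1 / (20 * C ^ 3))
    (h7 : a ^ 2 ≤ 3 * C ^ 2 * ((n + s * a) * (3 * C * s * a)) +
      (C * (s * (n * a) + n * (2 * C * s * a)) + C * s * (a * (2 * C * s * a) + C * a * n)) / 2) :
    a ≤ 22 * C ^ 3 * s * n := by
  have hC0 : 0 < C := by linarith
  have h8 : a * a ≤ a * ((9 * C ^ 3 + (C + 3 * C ^ 2) / 2) * (s * n) +
      (9 * C ^ 3 + C ^ 2) * (ε * a)) := by
    rw [← hs]
    linarith [h7]
  have h9 := le_of_mul_le_mul_left h8 ha0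
  have h10 : C ≤ C ^ 3 := le_self_pow₀ hC (by norm_num)
  have h11 : C ^ 2 ≤ C ^ 3 := pow_le_pow_right₀ hC (by norm_num)
  have hsn : 0 ≤ s * n := by positivity
  have hεa : 0 ≤ ε * a := by positivity
  have h12 : (9 * C ^ 3 + (C + 3 * C ^ 2) / 2) * (s * n) ≤ 11 * C ^ 3 * (s * n) :=
    mul_le_mul_of_nonneg_right (by linarith) hsn
  have h13 : (9 * C ^ 3 + C ^ 2) * (ε * a) ≤ 10 * C ^ 3 * (ε * a) :=
    mul_le_mul_of_nonneg_right (by linarith) hεa
  have h14 : 10 * C ^ 3 * (ε * a) ≤ a / 2 := by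
    have : ε * (20 * C ^ 3) ≤ 1 := by
      rwa [le_div_iff₀ (by positivity)] at hε2
    have := mul_le_mul_of_nonneg_right this ha0.le
    linarith
  linarith

/-- the data at a fixed centre -/
structure Pers (E : Type u) [AddCommGroup E] [Module ℝ E] where
  G : ℕ → BF E
  S : ℕ → BF E
  P : ℕ → E → ℝ
  V : ℕ → ℝ
  D : ℕ → ℝ
  A : ℕ → E →ₗ[ℝ] E

/-- the constants: `α = lam`, `β = lama`, `γ = lamD` -/
structure Par where
  (α β γ η ε CL : ℝ)

variable (p : Par) (X : Pers E)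

/-- `Na_j` in discrete form -/
def na (j : ℕ) : BF E :=
  ∑ i ∈ range (j + 1), p.β ^ (j - i) • X.S i + (p.η * p.β ^ j) • X.G j

/-- `n'_j ^ 2` -/
def q (j : ℕ) : BF E := na p X j + X.D j • X.G j

/-- the hypotheses -/
structure Hyp : Prop where
  hCL : 1 ≤ p.CL
  hβ0 : 0 < p.β
  hβα : p.β ≤ p.α / 2
  hαγ : p.α ≤ p.γ / 4
  hγ : p.γ ≤ 1 / 2
  hη : 0 ≤ p.η
  hηε : p.η ≤ p.ε
  hε : 0 < p.ε
  G : ∀ j, PSD (X.G j)
  S : ∀ j, PSD (X.S j)
  Sle : ∀ j v, X.S j v v ≤ p.CL * p.ε * X.G j v v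
  Dnn : ∀ j, 0 ≤ X.D j
  Dle : ∀ j, X.D j ≤ p.ε
  Dstep : ∀ j, p.γ * X.D j ≤ X.D (j + 1)
  D0 : p.η ≤ X.D 0
  Gstep : ∀ j v w, |X.G j v w - X.G (j + 1) v w| ≤
    p.CL * (nr (X.S (j + 1)) v * nr (X.S (j + 1)) w +
      p.η * p.α ^ (j + 1) * (nr (X.G (j + 1)) v * nr (X.G (j + 1)) w))
  A0 : ∀ j v, nr (X.G j) (X.A j v) ≤ p.CL * nr (X.G j) v
  A1 : ∀ j v, nr (X.G (j + 1)) (X.A (j + 1) v - X.A j v) ≤
    p.CL * (Real.sqrt (X.D j) * nr (q p X j) v + Real.sqrt (X.D (j + 1)) * nr (q p X (j + 1)) v)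
  anti : ∀ j v w, |X.G j (X.A j v) w - X.G j v (X.A j w)| ≤
    p.CL * Real.sqrt (X.D j) * (nr (q p X j) v * nr (X.G j) w + nr (q p X j) w * nr (X.G j) v) +
    p.CL * Real.sqrt p.ε * (nr (X.G j) (X.A j v) * nr (q p X j) w +
      nr (X.G j) (X.A j w) * nr (q p X j) v)
  M : ∀ j v, |X.P j v - X.V j * X.G j (X.A j v) v| ≤
    p.CL * (Real.sqrt (X.D j) * nr (q p X j) v * nr (X.G j) v +
      Real.sqrt p.ε * nr (X.G j) (X.A j v) * nr (q p X j) v)
  Pnn : ∀ j v, 0 ≤ X.P j v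
  Ple : ∀ j v, X.P j v ≤ p.CL * q p X j v v
  Vle : ∀ j, X.V j ≤ p.CL
  Vge : ∀ j, 1 ≤ p.CL * X.V j
  Vstep : ∀ j, |X.V j - X.V (j + 1)| ≤ p.CL * Real.sqrt (X.D j)
  K : ∀ j v, X.S j v v ≤ p.CL * (∑ i ∈ range (j + 1), (p.α / 2) ^ (j - i) * X.P i v +
    p.η * (p.α / 2) ^ j * X.G j v v)


/-- weighted sum -/
def ws (r : ℝ) (a : ℕ → ℝ) (k : ℕ) : ℝ := ∑ i ∈ range (k + 1), r ^ (k - i) * a i

theorem ws_zero (r : ℝ) (a : ℕ → ℝ) : ws r a 0 = a 0 := by simp [ws]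

theorem ws_succ (r : ℝ) (a : ℕ → ℝ) (k : ℕ) : ws r a (k + 1) = r * ws r a k + a (k + 1) := by
  unfold ws
  rw [Finset.sum_range_succ, Finset.mul_sum]
  congr 1
  · apply Finset.sum_congr rfl
    intro i hi
    have hik : i ≤ k := by simpa [Nat.lt_succ_iff] using hi
    rw [Nat.succ_sub hik, pow_succ]
    ring
  · simp

theorem ws_nonneg {r : ℝ} (hr : 0 ≤ r) {a : ℕ → ℝ} (ha : ∀ i, 0 ≤ a i) (k : ℕ) :
    0 ≤ ws r a k :=
  Finset.sum_nonneg fun i _ => mul_nonneg (pow_nonneg hr _) (ha i)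

theorem ws_mono {r : ℝ} (hr : 0 ≤ r) {a b : ℕ → ℝ} (hab : ∀ i, a i ≤ b i) (k : ℕ) :
    ws r a k ≤ ws r b k :=
  Finset.sum_le_sum fun i _ => mul_le_mul_of_nonneg_left (hab i) (pow_nonneg hr _)

theorem ws_add (r : ℝ) (a b : ℕ → ℝ) (k : ℕ) :
    ws r (fun i => a i + b i) k = ws r a k + ws r b k := by
  simp only [ws, mul_add, Finset.sum_add_distrib]

theorem ws_mul (r c : ℝ) (a : ℕ → ℝ) (k : ℕ) : ws r (fun i => c * a i) k = c * ws r a k := by
  simp only [ws, Finset.mul_sum]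
  exact Finset.sum_congr rfl fun i _ => by ring

theorem le_ws {r : ℝ} (hr : 0 ≤ r) {a : ℕ → ℝ} (ha : ∀ i, 0 ≤ a i) (k : ℕ) : a k ≤ ws r a k := by
  cases k with
  | zero => rw [ws_zero]
  | succ k => rw [ws_succ]; have := mul_nonneg hr (ws_nonneg hr ha k); linarith

theorem ws_ws {r ρ : ℝ} (hρ : 0 ≤ ρ) (hr : ρ ≤ r / 2) {a : ℕ → ℝ} (ha : ∀ i, 0 ≤ a i) (k : ℕ) :
    ws r (ws ρ a) k ≤ 2 * ws r a k := by
  have hr0 : 0 ≤ r := by linarith
  have key : ws r (ws ρ a) k + ws ρ a k ≤ 2 * ws r a k := by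
    induction k with
    | zero => simp only [ws_zero]; linarith
    | succ k ih =>
      simp only [ws_succ]
      have h1 := mul_le_mul_of_nonneg_left ih hr0
      have h2 := mul_le_mul_of_nonneg_right hr (ws_nonneg hρ ha k)
      linarith
  have := ws_nonneg hρ ha k
  linarith

theorem ws_bg {r : ℝ} (hr : 0 ≤ r) {b x : ℕ → ℝ} (hb : ∀ i, b i ≤ x i) (hx0 : 0 ≤ x 0)
    (hx : ∀ i, r * x i ≤ 1 / 2 * x (i + 1)) (k : ℕ) : ws r b k ≤ 2 * x k := by
  induction k with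
  | zero => rw [ws_zero]; linarith [hb 0]
  | succ k ih =>
    rw [ws_succ]
    have h1 := mul_le_mul_of_nonneg_left ih hr
    linarith [hb (k + 1), hx k]

theorem ws_tele {r C : ℝ} (hr : 0 ≤ r) (hr1 : r ≤ 1 / 2) (hC : 0 ≤ C) {a e : ℕ → ℝ}
    (ha : ∀ i, 0 ≤ a i) (he : ∀ i, 0 ≤ e i)
    (h : ∀ i, |a i - a (i + 1)| ≤ C * (e i + e (i + 1))) (k : ℕ) :
    ws r a k ≤ 2 * a k + 4 * C * ws r e k := by
  have key : ws r a k ≤ 2 * a k + 4 * C * ws r e k - 2 * C * e k := by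
    induction k with
    | zero =>
      simp only [ws_zero]
      have := mul_nonneg hC (he 0)
      linarith [ha 0]
    | succ k ih =>
      rw [ws_succ, ws_succ]
      have h1 := mul_le_mul_of_nonneg_left ih hr
      have h2 := (abs_le.mp (h k)).2
      have h3 := mul_le_mul_of_nonneg_left h2 hr
      have h4 := mul_le_mul_of_nonneg_right hr1 (ha (k + 1))
      have h5 := mul_le_mul_of_nonneg_right hr1 (mul_nonneg hC (he (k + 1)))
      have h6 := mul_nonneg hC (he (k + 1))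
      linarith
  have := mul_nonneg hC (he k)
  linarith

theorem geo {r : ℝ} (h0 : 0 ≤ r) (h1 : r ≤ 1 / 2) (j : ℕ) :
    ∑ i ∈ range (j + 1), r ^ (j - i) ≤ 2 := by
  have e := Finset.sum_range_reflect (fun i => r ^ i) (j + 1)
  simp only [Nat.add_sub_cancel] at e
  rw [e]
  have h2 := geom_sum_mul_neg r (j + 1)
  have h3 : 0 ≤ r ^ (j + 1) := pow_nonneg h0 _
  have h4 : 0 ≤ ∑ i ∈ range (j + 1), r ^ i := Finset.sum_nonneg fun i _ => pow_nonneg h0 _
  nlinarith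

section basic

variable {p : Par} {X : Pers E}

theorem na_apply (j : ℕ) (v w : E) : na p X j v w =
    ∑ i ∈ range (j + 1), p.β ^ (j - i) * X.S i v w + p.η * p.β ^ j * X.G j v w := by
  simp [na, LinearMap.sum_apply]

theorem q_apply (j : ℕ) (v w : E) : q p X j v w = na p X j v w + X.D j * X.G j v w := by
  simp [q]

namespace Hyp

variable (h : Hyp p X)
include h

theorem α_pos : 0 < p.α := by linarith [h.hβ0, h.hβα]
theorem γ_pos : 0 < p.γ := by linarith [h.α_pos, h.hαγ]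
theorem α_le : p.α ≤ 1 / 8 := by linarith [h.hγ, h.hαγ]
theorem β_le : p.β ≤ 1 / 16 := by linarith [h.α_le, h.hβα]
theorem CL_pos : 0 < p.CL := by linarith [h.hCL]

theorem na_psd (j : ℕ) : PSD (na p X j) :=
  (PSD.sum fun i _ => (h.S i).smul (pow_nonneg h.hβ0.le _)).add
    ((h.G j).smul (mul_nonneg h.hη (pow_nonneg h.hβ0.le _)))

theorem q_psd (j : ℕ) : PSD (q p X j) := (h.na_psd j).add ((h.G j).smul (h.Dnn j))

theorem S_le_na (j : ℕ) (v : E) : X.S j v v ≤ na p X j v v := by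
  rw [na_apply]
  have h1 : X.S j v v = p.β ^ (j - j) * X.S j v v := by simp
  have h2 : p.β ^ (j - j) * X.S j v v ≤ ∑ i ∈ range (j + 1), p.β ^ (j - i) * X.S i v v :=
    Finset.single_le_sum (f := fun i => p.β ^ (j - i) * X.S i v v)
      (fun i _ => mul_nonneg (pow_nonneg h.hβ0.le _) ((h.S i).nonneg v)) (by simp)
  have h3 : 0 ≤ p.η * p.β ^ j * X.G j v v :=
    mul_nonneg (mul_nonneg h.hη (pow_nonneg h.hβ0.le _)) ((h.G j).nonneg v)
  linarith

theorem S_le_q (j : ℕ) (v : E) : X.S j v v ≤ q p X j v v := by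
  rw [q_apply]
  have := mul_nonneg (h.Dnn j) ((h.G j).nonneg v)
  linarith [h.S_le_na j v]

theorem DG_le_q (j : ℕ) (v : E) : X.D j * X.G j v v ≤ q p X j v v := by
  rw [q_apply]; linarith [(h.na_psd j).nonneg v]

theorem D_nr_le (j : ℕ) (v : E) : Real.sqrt (X.D j) * nr (X.G j) v ≤ nr (q p X j) v := by
  unfold nr
  rw [← Real.sqrt_mul (h.Dnn j)]
  exact Real.sqrt_le_sqrt (h.DG_le_q j v)

theorem growth_aux (hε : p.ε ≤ 1 / (4 * p.CL ^ 2)) (j : ℕ) (v : E) :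
    |X.G j v v - X.G (j + 1) v v| ≤ 1 / 2 * X.G (j + 1) v v := by
  have h1 := h.Gstep j v v
  have e1 : nr (X.S (j + 1)) v * nr (X.S (j + 1)) v = X.S (j + 1) v v := by
    rw [← pow_two, (h.S _).sq]
  have e2 : nr (X.G (j + 1)) v * nr (X.G (j + 1)) v = X.G (j + 1) v v := by
    rw [← pow_two, (h.G _).sq]
  rw [e1, e2] at h1
  have h2 := h.Sle (j + 1) v
  have h3 := (h.G (j + 1)).nonneg v
  have hC := h.CL_pos
  have h4 : p.η * p.α ^ (j + 1) ≤ p.ε := by
    have : p.α ^ (j + 1) ≤ 1 := pow_le_one₀ h.α_pos.le (by linarith [h.α_le])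
    nlinarith [h.hη, h.hηε]
  have h5 : p.η * p.α ^ (j + 1) * X.G (j + 1) v v ≤ p.ε * X.G (j + 1) v v :=
    mul_le_mul_of_nonneg_right h4 h3
  have h6 : p.ε * p.CL ^ 2 ≤ 1 / 4 := by
    have h7 : 0 < 4 * p.CL ^ 2 := by positivity
    rw [le_div_iff₀ h7] at hε
    linarith
  have h8 : p.CL * p.ε ≤ p.ε * p.CL ^ 2 := by
    have h81 : p.CL ≤ p.CL ^ 2 := by nlinarith [h.hCL]
    have := mul_le_mul_of_nonneg_right h81 h.hε.le
    linarith
  have h9 : p.CL * (X.S (j + 1) v v + p.η * p.α ^ (j + 1) * X.G (j + 1) v v) ≤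
      (p.ε * p.CL ^ 2 + p.CL * p.ε) * X.G (j + 1) v v := by
    have := mul_le_mul_of_nonneg_left (add_le_add h2 h5) hC.le
    nlinarith
  have h10 : (p.ε * p.CL ^ 2 + p.CL * p.ε) * X.G (j + 1) v v ≤ 1 / 2 * X.G (j + 1) v v :=
    mul_le_mul_of_nonneg_right (by linarith) h3
  linarith

theorem growth (hε : p.ε ≤ 1 / (4 * p.CL ^ 2)) (j : ℕ) (v : E) :
    X.G j v v ≤ 2 * X.G (j + 1) v v := by
  have h1 := h.growth_aux hε j v
  have h3 := (h.G (j + 1)).nonneg v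
  rw [abs_le] at h1
  linarith

theorem growth' (hε : p.ε ≤ 1 / (4 * p.CL ^ 2)) (j : ℕ) (v : E) :
    X.G (j + 1) v v ≤ 2 * X.G j v v := by
  have h1 := h.growth_aux hε j v
  have h3 := (h.G (j + 1)).nonneg v
  rw [abs_le] at h1
  linarith

theorem growthN (hε : p.ε ≤ 1 / (4 * p.CL ^ 2)) {i k : ℕ} (hik : i ≤ k) (v : E) :
    X.G i v v ≤ 2 ^ (k - i) * X.G k v v := by
  induction k, hik using Nat.le_induction with
  | base => simp
  | succ k hk ih =>
    rw [Nat.succ_sub hk, pow_succ]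
    have := h.growth hε k v
    calc X.G i v v ≤ 2 ^ (k - i) * X.G k v v := ih
      _ ≤ 2 ^ (k - i) * (2 * X.G (k + 1) v v) := by gcongr
      _ = _ := by ring

theorem q_le (hε : p.ε ≤ 1 / (4 * p.CL ^ 2)) (j : ℕ) (v : E) :
    q p X j v v ≤ 4 * p.CL * p.ε * X.G j v v := by
  have hG := (h.G j).nonneg v
  have hC := h.hCL
  have hε0 := h.hε
  have h1 : ∑ i ∈ range (j + 1), p.β ^ (j - i) * X.S i v v ≤
      ∑ i ∈ range (j + 1), (2 * p.β) ^ (j - i) * (p.CL * p.ε * X.G j v v) := by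
    apply Finset.sum_le_sum
    intro i hi
    have hij : i ≤ j := by simpa [Nat.lt_succ_iff] using hi
    have h2 := h.Sle i v
    have h3 := h.growthN hε hij v
    have h4 : 0 ≤ p.β ^ (j - i) := pow_nonneg h.hβ0.le _
    calc p.β ^ (j - i) * X.S i v v ≤ p.β ^ (j - i) * (p.CL * p.ε * X.G i v v) := by gcongr
      _ ≤ p.β ^ (j - i) * (p.CL * p.ε * (2 ^ (j - i) * X.G j v v)) := by
          have : 0 ≤ p.CL * p.ε := by positivity
          gcongr
      _ = _ := by rw [mul_pow]; ring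
  rw [← Finset.sum_mul] at h1
  have h5 := geo (r := 2 * p.β) (by linarith [h.hβ0]) (by linarith [h.β_le]) j
  have h6 : 0 ≤ p.CL * p.ε * X.G j v v := by positivity
  have h7 := mul_le_mul_of_nonneg_right h5 h6
  have h8 : p.η * p.β ^ j * X.G j v v ≤ p.ε * X.G j v v := by
    apply mul_le_mul_of_nonneg_right _ hG
    have : p.β ^ j ≤ 1 := pow_le_one₀ h.hβ0.le (by linarith [h.β_le])
    nlinarith [h.hη, h.hηε]
  have h9 : X.D j * X.G j v v ≤ p.ε * X.G j v v := mul_le_mul_of_nonneg_right (h.Dle j) hG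
  have h10 : p.ε * X.G j v v ≤ p.CL * p.ε * X.G j v v := by
    have : 0 ≤ p.ε * X.G j v v := by positivity
    nlinarith
  rw [q_apply, na_apply]
  linarith

theorem nrq_le (hε : p.ε ≤ 1 / (4 * p.CL ^ 2)) (j : ℕ) (v : E) :
    nr (q p X j) v ≤ 2 * p.CL * Real.sqrt p.ε * nr (X.G j) v := by
  unfold nr
  rw [Real.sqrt_le_left (by have := h.CL_pos; positivity)]
  rw [mul_pow, mul_pow, Real.sq_sqrt h.hε.le, Real.sq_sqrt ((h.G j).nonneg v)]
  have h1 := h.q_le hε j v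
  have h2 : 4 * p.CL * p.ε * X.G j v v ≤ (2 * p.CL) ^ 2 * p.ε * X.G j v v := by
    apply mul_le_mul_of_nonneg_right _ ((h.G j).nonneg v)
    have h81 : p.CL ≤ p.CL ^ 2 := by nlinarith [h.hCL]
    have := mul_le_mul_of_nonneg_right h81 h.hε.le
    nlinarith
  linarith

theorem Dpow (j : ℕ) : p.η * p.γ ^ j ≤ X.D j := by
  induction j with
  | zero => simpa using h.D0
  | succ j ih =>
    have h1 := mul_le_mul_of_nonneg_left ih h.γ_pos.le
    have h2 := h.Dstep j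
    rw [pow_succ]
    nlinarith

theorem DγN {i k : ℕ} (hik : i ≤ k) : p.γ ^ (k - i) * X.D i ≤ X.D k := by
  induction k, hik using Nat.le_induction with
  | base => simp
  | succ k hk ih =>
    rw [Nat.succ_sub hk, pow_succ]
    have h1 := mul_le_mul_of_nonneg_left ih h.γ_pos.le
    have h2 := h.Dstep k
    nlinarith

theorem Dη (j : ℕ) : p.η * p.α ^ j ≤ X.D j := by
  refine le_trans ?_ (h.Dpow j)
  have := h.α_pos
  have : p.α ≤ p.γ := by linarith [h.hαγ]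
  have := h.hη
  gcongr

/-- the form `n'^2 + ε |A .|^2` -/
def _root_.Vale.Agent.P242.H852.q2 (p : Par) (X : Pers E) (j : ℕ) : BF E :=
  q p X j + p.ε • (X.G j).compl₁₂ (X.A j) (X.A j)

omit h in
theorem q2_apply (j : ℕ) (v w : E) :
    q2 p X j v w = q p X j v w + p.ε * X.G j (X.A j v) (X.A j w) := by
  simp [q2]

theorem q2_psd (j : ℕ) : PSD (q2 p X j) :=
  (h.q_psd j).add (((h.G j).pull (X.A j)).smul h.hε.le)

theorem GA_diag (j : ℕ) (v : E) :
    |X.G j (X.A j v) v| ≤ 3 * p.CL ^ 2 * q2 p X j v v := by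
  have hC := h.hCL
  have hM := h.M j v
  have hP := h.Ple j v
  have hP0 := h.Pnn j v
  have hV := h.Vge j
  have hD := h.D_nr_le j v
  have hn : 0 ≤ nr (q p X j) v := nr_nonneg _ _
  have ha : 0 ≤ nr (X.G j) (X.A j v) := nr_nonneg _ _
  have hn2 := (h.q_psd j).sq v
  have ha2 := (h.G j).sq (X.A j v)
  have hs : Real.sqrt p.ε ^ 2 = p.ε := Real.sq_sqrt h.hε.le
  rw [q2_apply]
  set n := nr (q p X j) v
  set a := nr (X.G j) (X.A j v)
  set g := X.G j (X.A j v) v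
  set s := Real.sqrt p.ε
  rw [← hn2, ← ha2]
  rw [← hn2] at hP
  have hV0 : 0 < X.V j := by nlinarith [h.CL_pos]
  have e1 : Real.sqrt (X.D j) * n * nr (X.G j) v ≤ n ^ 2 := by nlinarith
  have e2 : s * a * n ≤ (p.ε * a ^ 2 + n ^ 2) / 2 := by nlinarith [sq_nonneg (s * a - n)]
  have e3 : |X.V j * g| ≤ p.CL * (5 / 2 * n ^ 2 + p.ε * a ^ 2 / 2) := by
    have h1 : X.V j * g = X.P j v - (X.P j v - X.V j * g) := by ring
    rw [h1]
    refine (abs_sub _ _).trans ?_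
    rw [abs_of_nonneg hP0]
    have h2 : p.CL * (Real.sqrt (X.D j) * n * nr (X.G j) v + s * a * n) ≤
        p.CL * (n ^ 2 + (p.ε * a ^ 2 + n ^ 2) / 2) := by
      have := h.CL_pos
      gcongr
    linarith
  rw [abs_mul, abs_of_pos hV0] at e3
  have e4 : |g| ≤ p.CL * (X.V j * |g|) := by
    have := mul_le_mul_of_nonneg_right hV (abs_nonneg g)
    linarith
  have hεa : 0 ≤ p.ε * a ^ 2 := mul_nonneg h.hε.le (sq_nonneg _)
  calc |g| ≤ p.CL * (X.V j * |g|) := e4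
    _ ≤ p.CL * (p.CL * (5 / 2 * n ^ 2 + p.ε * a ^ 2 / 2)) :=
        mul_le_mul_of_nonneg_left e3 h.CL_pos.le
    _ = p.CL ^ 2 * (5 / 2 * n ^ 2 + p.ε * a ^ 2 / 2) := by ring
    _ ≤ p.CL ^ 2 * (3 * (n ^ 2 + p.ε * a ^ 2)) := by
        apply mul_le_mul_of_nonneg_left _ (by positivity)
        nlinarith [sq_nonneg n]
    _ = _ := by ring

theorem GA_sym (j : ℕ) (v w : E) :
    |(X.G j (X.A j v) w + X.G j v (X.A j w)) / 2| ≤
      3 * p.CL ^ 2 * (nr (q2 p X j) v * nr (q2 p X j) w) := by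
  have hC := h.CL_pos
  have h1 := polar (B := (1 / 2 : ℝ) • ((X.G j).compl₁₂ (X.A j) LinearMap.id +
      (X.G j).compl₁₂ LinearMap.id (X.A j))) (Q := (3 * p.CL ^ 2) • q2 p X j)
    (fun v w => by
      simp only [LinearMap.smul_apply, LinearMap.add_apply, LinearMap.compl₁₂_apply,
        LinearMap.id_apply, smul_eq_mul]
      rw [(h.G j).symm (X.A j v) w, (h.G j).symm v (X.A j w)]
      ring)
    ((h.q2_psd j).smul (by positivity))
    (fun v => by
      have := h.GA_diag j v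
      simp only [LinearMap.smul_apply, LinearMap.add_apply, LinearMap.compl₁₂_apply,
        LinearMap.id_apply, smul_eq_mul]
      rw [(h.G j).symm v (X.A j v)]
      have e : 1 / 2 * (X.G j (X.A j v) v + X.G j (X.A j v) v) = X.G j (X.A j v) v := by ring
      rw [e]
      exact this) v w
  have e1 : ∀ u, nr ((3 * p.CL ^ 2) • q2 p X j) u = Real.sqrt (3 * p.CL ^ 2) * nr (q2 p X j) u := by
    intro u
    unfold nr
    simp only [LinearMap.smul_apply, smul_eq_mul]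
    rw [Real.sqrt_mul (by positivity)]
  rw [e1, e1] at h1
  simp only [LinearMap.smul_apply, LinearMap.add_apply, LinearMap.compl₁₂_apply,
        LinearMap.id_apply, smul_eq_mul] at h1
  have e2 : (X.G j (X.A j v) w + X.G j v (X.A j w)) / 2 =
    1 / 2 * (X.G j (X.A j v) w + X.G j v (X.A j w)) := by ring
  rw [e2]
  refine h1.trans (le_of_eq ?_)
  have e3 : Real.sqrt (3 * p.CL ^ 2) * Real.sqrt (3 * p.CL ^ 2) = 3 * p.CL ^ 2 :=
    Real.mul_self_sqrt (by positivity)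
  calc _ = (Real.sqrt (3 * p.CL ^ 2) * Real.sqrt (3 * p.CL ^ 2)) *
        (nr (q2 p X j) v * nr (q2 p X j) w) := by ring
    _ = _ := by rw [e3]

/-- (A-bound) -/
theorem A_bound (hε1 : p.ε ≤ 1 / (4 * p.CL ^ 2)) (hε2 : p.ε ≤ 1 / (20 * p.CL ^ 3)) (j : ℕ) (v : E) :
    nr (X.G j) (X.A j v) ≤ 22 * p.CL ^ 3 * Real.sqrt p.ε * nr (q p X j) v := by
  have hC := h.hCL
  have hC0 := h.CL_pos
  have hn : 0 ≤ nr (q p X j) v := nr_nonneg _ _
  have ha : 0 ≤ nr (X.G j) (X.A j v) := nr_nonneg _ _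
  rcases ha.eq_or_lt with ha0 | ha0
  · rw [← ha0]; positivity
  have hs0 : 0 ≤ Real.sqrt p.ε := Real.sqrt_nonneg _
  have hs : Real.sqrt p.ε ^ 2 = p.ε := Real.sq_sqrt h.hε.le
  -- w = A v
  have hw1 := h.nrq_le hε1 j (X.A j v)
  have hw2 := h.A0 j (X.A j v)
  have hsym := h.GA_sym j v (X.A j v)
  have hanti := h.anti j v (X.A j v)
  have hD := h.D_nr_le j v
  have hDε : Real.sqrt (X.D j) ≤ Real.sqrt p.ε := Real.sqrt_le_sqrt (h.Dle j)
  have hD0 : 0 ≤ Real.sqrt (X.D j) := Real.sqrt_nonneg _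
  have hv2 := (h.G j).sq (X.A j v)
  have hn2v : nr (q2 p X j) v ≤ nr (q p X j) v + Real.sqrt p.ε * nr (X.G j) (X.A j v) := by
    apply Real.sqrt_le_iff.mpr
    refine ⟨by positivity, ?_⟩
    rw [q2_apply, ← (h.q_psd j).sq v, ← hv2]
    have : 0 ≤ nr (q p X j) v * (Real.sqrt p.ε * nr (X.G j) (X.A j v)) := by positivity
    nlinarith
  have hn2w : nr (q2 p X j) (X.A j v) ≤ 3 * p.CL * Real.sqrt p.ε * nr (X.G j) (X.A j v) := by
    apply Real.sqrt_le_iff.mpr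
    refine ⟨by positivity, ?_⟩
    rw [q2_apply, ← (h.q_psd j).sq (X.A j v), ← (h.G j).sq (X.A j (X.A j v))]
    have h1 : nr (q p X j) (X.A j v) ^ 2 ≤
        (2 * p.CL * Real.sqrt p.ε * nr (X.G j) (X.A j v)) ^ 2 :=
      pow_le_pow_left₀ (nr_nonneg _ _) hw1 2
    have h2 : nr (X.G j) (X.A j (X.A j v)) ^ 2 ≤ (p.CL * nr (X.G j) (X.A j v)) ^ 2 :=
      pow_le_pow_left₀ (nr_nonneg _ _) hw2 2
    have h3 := mul_le_mul_of_nonneg_left h2 h.hε.le
    have h4 : 0 ≤ p.ε * (p.CL * nr (X.G j) (X.A j v)) ^ 2 := by have := h.hε; positivity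
    calc nr (q p X j) (X.A j v) ^ 2 + p.ε * nr (X.G j) (X.A j (X.A j v)) ^ 2
        ≤ (2 * p.CL * Real.sqrt p.ε * nr (X.G j) (X.A j v)) ^ 2 +
          p.ε * (p.CL * nr (X.G j) (X.A j v)) ^ 2 := by linarith
      _ = 5 * (p.ε * (p.CL * nr (X.G j) (X.A j v)) ^ 2) := by
          rw [mul_pow, mul_pow, hs]; ring
      _ ≤ 9 * (p.ε * (p.CL * nr (X.G j) (X.A j v)) ^ 2) := by linarith
      _ = (3 * p.CL * Real.sqrt p.ε * nr (X.G j) (X.A j v)) ^ 2 := by
          have e : (3 * p.CL * Real.sqrt p.ε * nr (X.G j) (X.A j v)) ^ 2 =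
            9 * (Real.sqrt p.ε ^ 2 * (p.CL * nr (X.G j) (X.A j v)) ^ 2) := by ring
          rw [e, hs]
  have hn2v0 : 0 ≤ nr (q2 p X j) v := nr_nonneg _ _
  have hn2w0 : 0 ≤ nr (q2 p X j) (X.A j v) := nr_nonneg _ _
  have hw10 : 0 ≤ nr (q p X j) (X.A j v) := nr_nonneg _ _
  have hAA0 : 0 ≤ nr (X.G j) (X.A j (X.A j v)) := nr_nonneg _ _
  have hv0 : 0 ≤ nr (X.G j) v := nr_nonneg _ _
  set n := nr (q p X j) v
  set a := nr (X.G j) (X.A j v)
  set s := Real.sqrt p.ε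
  set C := p.CL
  have h1 : X.G j (X.A j v) (X.A j v) ≤
      3 * C ^ 2 * (nr (q2 p X j) v * nr (q2 p X j) (X.A j v)) +
      (C * Real.sqrt (X.D j) * (n * a + nr (q p X j) (X.A j v) * nr (X.G j) v) +
       C * s * (a * nr (q p X j) (X.A j v) + nr (X.G j) (X.A j (X.A j v)) * n)) / 2 := by
    rw [abs_le] at hsym hanti
    linarith [hsym.2, hanti.2]
  have h2 : nr (q2 p X j) v * nr (q2 p X j) (X.A j v) ≤ (n + s * a) * (3 * C * s * a) := by
    gcongr
  have h3 : Real.sqrt (X.D j) * (n * a) ≤ s * (n * a) := by gcongr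
  have h4 : Real.sqrt (X.D j) * (nr (q p X j) (X.A j v) * nr (X.G j) v) ≤ n * (2 * C * s * a) := by
    calc _ = (Real.sqrt (X.D j) * nr (X.G j) v) * nr (q p X j) (X.A j v) := by ring
      _ ≤ n * (2 * C * s * a) := by gcongr
  have h5 : a * nr (q p X j) (X.A j v) ≤ a * (2 * C * s * a) := by gcongr
  have h6 : nr (X.G j) (X.A j (X.A j v)) * n ≤ C * a * n := by gcongr
  rw [← hv2] at h1
  have h7 : a ^ 2 ≤ 3 * C ^ 2 * ((n + s * a) * (3 * C * s * a)) +
      (C * (s * (n * a) + n * (2 * C * s * a)) + C * s * (a * (2 * C * s * a) + C * a * n)) / 2 := by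
    refine h1.trans ?_
    have e1 : C * Real.sqrt (X.D j) * (n * a + nr (q p X j) (X.A j v) * nr (X.G j) v) =
      C * (Real.sqrt (X.D j) * (n * a) +
        Real.sqrt (X.D j) * (nr (q p X j) (X.A j v) * nr (X.G j) v)) := by ring
    rw [e1]
    gcongr
  exact abound_alg hC ha0 hn hs0 hs h.hε hε2 h7

theorem nrG_succ (hε : p.ε ≤ 1 / (4 * p.CL ^ 2)) (j : ℕ) (v : E) :
    nr (X.G (j + 1)) v ≤ 3 / 2 * nr (X.G j) v := by
  apply Real.sqrt_le_iff.mpr
  refine ⟨mul_nonneg (by norm_num) (nr_nonneg _ _), ?_⟩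
  rw [mul_pow, (h.G j).sq]
  have := h.growth' hε j v
  have := (h.G j).nonneg v
  linarith

end Hyp

/-- the error at level `j` -/
def er (p : Par) (X : Pers E) (v : E) (j : ℕ) : ℝ :=
  Real.sqrt (X.D j) * nr (q p X j) v * nr (X.G j) v + p.ε * nr (q p X j) v ^ 2

namespace Hyp

variable (h : Hyp p X)
include h

theorem er_nonneg (v : E) (j : ℕ) : 0 ≤ er p X v j := by
  have h1 : 0 ≤ nr (q p X j) v := nr_nonneg _ _
  have h2 : 0 ≤ nr (X.G j) v := nr_nonneg _ _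
  have h3 := h.hε
  unfold er; positivity

theorem er1 (v : E) (j : ℕ) : Real.sqrt (X.D j) * nr (q p X j) v * nr (X.G j) v ≤ er p X v j := by
  unfold er
  have := mul_nonneg h.hε.le (sq_nonneg (nr (q p X j) v))
  linarith

theorem er2 (v : E) (j : ℕ) : p.ε * nr (q p X j) v ^ 2 ≤ er p X v j := by
  unfold er
  have := mul_nonneg (mul_nonneg (Real.sqrt_nonneg (X.D j)) (nr_nonneg (q p X j) v))
    (nr_nonneg (X.G j) v)
  linarith

variable (hε1 : p.ε ≤ 1 / (4 * p.CL ^ 2)) (hε2 : p.ε ≤ 1 / (20 * p.CL ^ 3))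
include hε1 hε2

omit hε1 hε2 in
theorem sε_le_one (hε1 : p.ε ≤ 1 / (4 * p.CL ^ 2)) : Real.sqrt p.ε ≤ 1 := by
  rw [Real.sqrt_le_one]
  refine hε1.trans ?_
  rw [div_le_one (by have := h.CL_pos; positivity)]
  nlinarith [h.hCL]

/-- first error: `P_j - V_j G_j(A_j c, c)` -/
theorem step0 (j : ℕ) (v : E) :
    |X.P j v - X.V j * X.G j (X.A j v) v| ≤ 22 * p.CL ^ 4 * er p X v j := by
  have hC := h.hCL
  have hC0 := h.CL_pos
  refine (h.M j v).trans ?_
  have h1 := h.A_bound hε1 hε2 j v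
  have hn : 0 ≤ nr (q p X j) v := nr_nonneg _ _
  have hs : Real.sqrt p.ε ^ 2 = p.ε := Real.sq_sqrt h.hε.le
  have hs0 : 0 ≤ Real.sqrt p.ε := Real.sqrt_nonneg _
  have e1 := h.er1 v j
  have h2 : Real.sqrt p.ε * nr (X.G j) (X.A j v) * nr (q p X j) v ≤
      Real.sqrt p.ε * (22 * p.CL ^ 3 * Real.sqrt p.ε * nr (q p X j) v) * nr (q p X j) v := by
    gcongr
  have h3 : Real.sqrt p.ε * (22 * p.CL ^ 3 * Real.sqrt p.ε * nr (q p X j) v) * nr (q p X j) v =
      22 * p.CL ^ 3 * (p.ε * nr (q p X j) v ^ 2) := by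
    calc _ = 22 * p.CL ^ 3 * (Real.sqrt p.ε ^ 2 * nr (q p X j) v ^ 2) := by ring
      _ = _ := by rw [hs]
  rw [h3] at h2
  have h5 : 0 ≤ Real.sqrt (X.D j) * nr (q p X j) v * nr (X.G j) v :=
    mul_nonneg (mul_nonneg (Real.sqrt_nonneg _) hn) (nr_nonneg _ _)
  have hC3 : (1:ℝ) ≤ p.CL ^ 3 := one_le_pow₀ hC
  have h6 : Real.sqrt (X.D j) * nr (q p X j) v * nr (X.G j) v ≤
      22 * p.CL ^ 3 * (Real.sqrt (X.D j) * nr (q p X j) v * nr (X.G j) v) :=
    le_mul_of_one_le_left h5 (by linarith)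
  calc _ ≤ p.CL * (22 * p.CL ^ 3 * (Real.sqrt (X.D j) * nr (q p X j) v * nr (X.G j) v) +
        22 * p.CL ^ 3 * (p.ε * nr (q p X j) v ^ 2)) := by gcongr
    _ = _ := by unfold er; ring

theorem step1 (j : ℕ) (v : E) :
    |(X.V j - X.V (j + 1)) * X.G j (X.A j v) v| ≤ 22 * p.CL ^ 4 * er p X v j := by
  have hC := h.hCL
  have hC0 := h.CL_pos
  rw [abs_mul]
  have h1 := h.A_bound hε1 hε2 j v
  have h2 := (h.G j).cs (X.A j v) v
  have h3 := h.Vstep j
  have h4 := h.er1 v j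
  have h5 := h.sε_le_one hε1
  have hn : 0 ≤ nr (q p X j) v := nr_nonneg _ _
  have hg : 0 ≤ nr (X.G j) v := nr_nonneg _ _
  calc |X.V j - X.V (j + 1)| * |X.G j (X.A j v) v|
      ≤ (p.CL * Real.sqrt (X.D j)) * (nr (X.G j) (X.A j v) * nr (X.G j) v) := by gcongr
    _ ≤ (p.CL * Real.sqrt (X.D j)) *
        ((22 * p.CL ^ 3 * 1 * nr (q p X j) v) * nr (X.G j) v) := by
        gcongr
        refine h1.trans ?_
        gcongr
    _ = 22 * p.CL ^ 4 * (Real.sqrt (X.D j) * nr (q p X j) v * nr (X.G j) v) := by ring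
    _ ≤ _ := by gcongr

theorem step2 (j : ℕ) (v : E) :
    |X.V (j + 1) * (X.G j (X.A j v) v - X.G (j + 1) (X.A j v) v)| ≤
      33 * p.CL ^ 6 * (er p X v j + er p X v (j + 1)) := by
  have hC := h.hCL
  have hC0 := h.CL_pos
  have hn : 0 ≤ nr (q p X j) v := nr_nonneg _ _
  have hn' : 0 ≤ nr (q p X (j + 1)) v := nr_nonneg _ _
  have hs : Real.sqrt p.ε ^ 2 = p.ε := Real.sq_sqrt h.hε.le
  have hs0 : 0 ≤ Real.sqrt p.ε := Real.sqrt_nonneg _
  have h1 := h.A_bound hε1 hε2 j v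
  have h2 := h.nrG_succ hε1 j (X.A j v)
  have hV : |X.V (j + 1)| ≤ p.CL := by
    rw [abs_of_nonneg]
    · exact h.Vle _
    · have := h.Vge (j + 1)
      by_contra hc
      push Not at hc
      nlinarith
  -- |A_j v|_{j+1}
  have h3 : nr (X.G (j + 1)) (X.A j v) ≤ 33 * p.CL ^ 3 * Real.sqrt p.ε * nr (q p X j) v := by
    linarith
  have h4 : nr (X.S (j + 1)) (X.A j v) ≤ 33 * p.CL ^ 4 * p.ε * nr (q p X j) v := by
    have h41 : nr (X.S (j + 1)) (X.A j v) ≤ p.CL * Real.sqrt p.ε * nr (X.G (j + 1)) (X.A j v) := by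
      apply Real.sqrt_le_iff.mpr
      refine ⟨mul_nonneg (by positivity) (nr_nonneg _ _), ?_⟩
      rw [mul_pow, mul_pow, hs, (h.G (j + 1)).sq]
      refine (h.Sle (j + 1) _).trans ?_
      apply mul_le_mul_of_nonneg_right _ ((h.G (j + 1)).nonneg _)
      apply mul_le_mul_of_nonneg_right _ h.hε.le
      nlinarith
    calc _ ≤ p.CL * Real.sqrt p.ε * nr (X.G (j + 1)) (X.A j v) := h41
      _ ≤ p.CL * Real.sqrt p.ε * (33 * p.CL ^ 3 * Real.sqrt p.ε * nr (q p X j) v) := by gcongr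
      _ = 33 * p.CL ^ 4 * (Real.sqrt p.ε ^ 2) * nr (q p X j) v := by ring
      _ = _ := by rw [hs]
  have h5 : nr (X.S (j + 1)) v ≤ nr (q p X (j + 1)) v := Real.sqrt_le_sqrt (h.S_le_q (j + 1) v)
  have h6 : p.η * p.α ^ (j + 1) * (nr (X.G (j + 1)) (X.A j v) * nr (X.G (j + 1)) v) ≤
      33 * p.CL ^ 3 * p.ε * (nr (q p X j) v * nr (q p X (j + 1)) v) := by
    have h61 : p.η * p.α ^ (j + 1) ≤ Real.sqrt p.ε * Real.sqrt (X.D (j + 1)) := by
      have h611 := h.Dη (j + 1)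
      have h612 : X.D (j + 1) = Real.sqrt (X.D (j + 1)) * Real.sqrt (X.D (j + 1)) :=
        (Real.mul_self_sqrt (h.Dnn _)).symm
      have h613 : Real.sqrt (X.D (j + 1)) ≤ Real.sqrt p.ε := Real.sqrt_le_sqrt (h.Dle _)
      have h614 := mul_le_mul_of_nonneg_right h613 (Real.sqrt_nonneg (X.D (j + 1)))
      linarith
    have h62 := h.D_nr_le (j + 1) v
    have hga : 0 ≤ nr (X.G (j + 1)) (X.A j v) := nr_nonneg _ _
    have hgv : 0 ≤ nr (X.G (j + 1)) v := nr_nonneg _ _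
    calc _ ≤ (Real.sqrt p.ε * Real.sqrt (X.D (j + 1))) *
          (nr (X.G (j + 1)) (X.A j v) * nr (X.G (j + 1)) v) := by gcongr
      _ = Real.sqrt p.ε * nr (X.G (j + 1)) (X.A j v) *
          (Real.sqrt (X.D (j + 1)) * nr (X.G (j + 1)) v) := by ring
      _ ≤ Real.sqrt p.ε * (33 * p.CL ^ 3 * Real.sqrt p.ε * nr (q p X j) v) *
          nr (q p X (j + 1)) v := by gcongr
      _ = 33 * p.CL ^ 3 * (Real.sqrt p.ε ^ 2) * (nr (q p X j) v * nr (q p X (j + 1)) v) := by ring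
      _ = _ := by rw [hs]
  have h7 := h.Gstep j (X.A j v) v
  have hS0 : 0 ≤ nr (X.S (j + 1)) v := nr_nonneg _ _
  have hε0 := h.hε
  have h8 : nr (X.S (j + 1)) (X.A j v) * nr (X.S (j + 1)) v ≤
      33 * p.CL ^ 4 * p.ε * (nr (q p X j) v * nr (q p X (j + 1)) v) := by
    calc _ ≤ (33 * p.CL ^ 4 * p.ε * nr (q p X j) v) * nr (q p X (j + 1)) v := by gcongr
      _ = _ := by ring
  have h9 : nr (q p X j) v * nr (q p X (j + 1)) v ≤
      (nr (q p X j) v ^ 2 + nr (q p X (j + 1)) v ^ 2) / 2 := by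
    nlinarith [sq_nonneg (nr (q p X j) v - nr (q p X (j + 1)) v)]
  have h10 := h.er2 v j
  have h11 := h.er2 v (j + 1)
  have hC34 : p.CL ^ 3 ≤ p.CL ^ 4 := pow_le_pow_right₀ hC (by norm_num)
  rw [abs_mul]
  calc |X.V (j + 1)| * |X.G j (X.A j v) v - X.G (j + 1) (X.A j v) v|
      ≤ p.CL * (p.CL * (33 * p.CL ^ 4 * p.ε * (nr (q p X j) v * nr (q p X (j + 1)) v) +
          33 * p.CL ^ 3 * p.ε * (nr (q p X j) v * nr (q p X (j + 1)) v))) := by
        gcongr
        exact h7.trans (by gcongr)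
    _ ≤ p.CL * (p.CL * (33 * p.CL ^ 4 * p.ε * (nr (q p X j) v * nr (q p X (j + 1)) v) +
          33 * p.CL ^ 4 * p.ε * (nr (q p X j) v * nr (q p X (j + 1)) v))) := by
        gcongr
    _ = 66 * p.CL ^ 6 * p.ε * (nr (q p X j) v * nr (q p X (j + 1)) v) := by ring
    _ ≤ 66 * p.CL ^ 6 * p.ε * ((nr (q p X j) v ^ 2 + nr (q p X (j + 1)) v ^ 2) / 2) := by
        gcongr
    _ = 33 * p.CL ^ 6 * (p.ε * nr (q p X j) v ^ 2 + p.ε * nr (q p X (j + 1)) v ^ 2) := by ring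
    _ ≤ _ := by gcongr

theorem step3 (j : ℕ) (v : E) :
    |X.V (j + 1) * X.G (j + 1) (X.A (j + 1) v - X.A j v) v| ≤
      2 * p.CL ^ 2 * (er p X v j + er p X v (j + 1)) := by
  have hC := h.hCL
  have hC0 := h.CL_pos
  have hn : 0 ≤ nr (q p X j) v := nr_nonneg _ _
  have hn' : 0 ≤ nr (q p X (j + 1)) v := nr_nonneg _ _
  have hV : |X.V (j + 1)| ≤ p.CL := by
    rw [abs_of_nonneg]
    · exact h.Vle _
    · have := h.Vge (j + 1)
      by_contra hc
      push Not at hc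
      nlinarith
  have h1 := h.A1 j v
  have h2 := (h.G (j + 1)).cs (X.A (j + 1) v - X.A j v) v
  have h3 := h.nrG_succ hε1 j v
  have h4 := h.er1 v j
  have h5 := h.er1 v (j + 1)
  have hg' : 0 ≤ nr (X.G (j + 1)) v := nr_nonneg _ _
  have hg : 0 ≤ nr (X.G j) v := nr_nonneg _ _
  have hD : 0 ≤ Real.sqrt (X.D j) := Real.sqrt_nonneg _
  rw [abs_mul]
  have h6 : Real.sqrt (X.D j) * nr (q p X j) v * nr (X.G (j + 1)) v ≤
      3 / 2 * (Real.sqrt (X.D j) * nr (q p X j) v * nr (X.G j) v) := by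
    calc _ ≤ Real.sqrt (X.D j) * nr (q p X j) v * (3 / 2 * nr (X.G j) v) := by gcongr
      _ = _ := by ring
  have h7 := h.er_nonneg v j
  have h8 := h.er_nonneg v (j + 1)
  calc |X.V (j + 1)| * |X.G (j + 1) (X.A (j + 1) v - X.A j v) v|
      ≤ p.CL * ((p.CL * (Real.sqrt (X.D j) * nr (q p X j) v +
        Real.sqrt (X.D (j + 1)) * nr (q p X (j + 1)) v)) * nr (X.G (j + 1)) v) := by
        gcongr
        exact h2.trans (by gcongr)
    _ = p.CL ^ 2 * (Real.sqrt (X.D j) * nr (q p X j) v * nr (X.G (j + 1)) v +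
        Real.sqrt (X.D (j + 1)) * nr (q p X (j + 1)) v * nr (X.G (j + 1)) v) := by ring
    _ ≤ p.CL ^ 2 * (2 * er p X v j + 2 * er p X v (j + 1)) := by
        apply mul_le_mul_of_nonneg_left _ (by positivity)
        linarith
    _ = _ := by ring

theorem Pstep (v : E) (j : ℕ) :
    |X.P j v - X.P (j + 1) v| ≤ 80 * p.CL ^ 6 * (er p X v j + er p X v (j + 1)) := by
  have hC := h.hCL
  have a0 := h.step0 hε1 hε2 j v
  have a0' := h.step0 hε1 hε2 (j + 1) v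
  have a1 := h.step1 hε1 hε2 j v
  have a2 := h.step2 hε1 hε2 j v
  have a3 := h.step3 hε1 hε2 j v
  have e0 := h.er_nonneg v j
  have e1 := h.er_nonneg v (j + 1)
  have c4 : p.CL ^ 4 ≤ p.CL ^ 6 := pow_le_pow_right₀ hC (by norm_num)
  have c2 : p.CL ^ 2 ≤ p.CL ^ 6 := pow_le_pow_right₀ hC (by norm_num)
  have b1 := mul_le_mul_of_nonneg_right c4 e0
  have b2 := mul_le_mul_of_nonneg_right c4 e1
  have b3 := mul_le_mul_of_nonneg_right c2 (add_nonneg e0 e1)
  have b4 := mul_nonneg (pow_nonneg (h.CL_pos.le) 6) e0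
  have b5 := mul_nonneg (pow_nonneg (h.CL_pos.le) 6) e1
  have key : X.P j v - X.P (j + 1) v = (X.P j v - X.V j * X.G j (X.A j v) v) -
      (X.P (j + 1) v - X.V (j + 1) * X.G (j + 1) (X.A (j + 1) v) v) +
      (X.V j - X.V (j + 1)) * X.G j (X.A j v) v +
      X.V (j + 1) * (X.G j (X.A j v) v - X.G (j + 1) (X.A j v) v) -
      X.V (j + 1) * X.G (j + 1) (X.A (j + 1) v - X.A j v) v := by
    simp only [map_sub, LinearMap.sub_apply]
    ring
  rw [abs_le] at a0 a0' a1 a2 a3 ⊢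
  constructor <;> linarith [a0.1, a0.2, a0'.1, a0'.2, a1.1, a1.2, a2.1, a2.2, a3.1, a3.2]

end Hyp

/-- the final constant -/
def CP (p : Par) : ℝ := 14000000 * p.CL ^ 14

namespace Hyp

variable (h : Hyp p X)
include h

theorem eps_all (hε : p.ε ≤ 1 / (5120 * p.CL ^ 7)) :
    p.ε ≤ 1 / (4 * p.CL ^ 2) ∧ p.ε ≤ 1 / (20 * p.CL ^ 3) := by
  have hC := h.hCL
  have hC0 := h.CL_pos
  have c1 : p.CL ^ 2 ≤ p.CL ^ 7 := pow_le_pow_right₀ hC (by norm_num)
  have c2 : p.CL ^ 3 ≤ p.CL ^ 7 := pow_le_pow_right₀ hC (by norm_num)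
  constructor
  · refine hε.trans (one_div_le_one_div_of_le (by positivity) ?_)
    nlinarith [pow_pos hC0 2]
  · refine hε.trans (one_div_le_one_div_of_le (by positivity) ?_)
    nlinarith [pow_pos hC0 3]

/-- the background decays slowly -/
theorem bgstep (hε1 : p.ε ≤ 1 / (4 * p.CL ^ 2)) (v : E) (j : ℕ) :
    p.α * (X.D j * X.G j v v) ≤ 1 / 2 * (X.D (j + 1) * X.G (j + 1) v v) := by
  have h1 := h.growth hε1 j v
  have h2 := h.Dstep j
  have hG := (h.G (j + 1)).nonneg v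
  have hα := h.α_pos
  have hD := h.Dnn j
  calc p.α * (X.D j * X.G j v v) ≤ (p.γ / 4) * (X.D j * (2 * X.G (j + 1) v v)) := by
        have := h.hαγ
        have := (h.G j).nonneg v
        have := h.γ_pos
        gcongr
    _ = 1 / 2 * ((p.γ * X.D j) * X.G (j + 1) v v) := by ring
    _ ≤ _ := by gcongr

/-- (E6'), discrete form -/
theorem persist (hε : p.ε ≤ 1 / (5120 * p.CL ^ 7)) (k : ℕ) (v : E) :
    ws p.α (fun j => X.S j v v) k ≤ CP p * (X.P k v + X.D k * X.G k v v) := by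
  obtain ⟨hε1, hε2⟩ := h.eps_all hε
  have hC := h.hCL
  have hC0 := h.CL_pos
  have hα := h.α_pos
  have hS0 : ∀ j, 0 ≤ X.S j v v := fun j => (h.S j).nonneg v
  have hG0 : ∀ j, 0 ≤ X.G j v v := fun j => (h.G j).nonneg v
  -- the three sums
  have b1 : ws p.α (fun j => p.η * (p.α / 2) ^ j * X.G j v v) k ≤ 2 * (X.D k * X.G k v v) := by
    refine ws_bg (x := fun j => X.D j * X.G j v v) hα.le (fun j => ?_)
      (mul_nonneg (h.Dnn 0) (hG0 0)) (fun j => h.bgstep hε1 v j) k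
    apply mul_le_mul_of_nonneg_right _ (hG0 j)
    refine le_trans ?_ (h.Dη j)
    have := h.hη
    gcongr
    linarith
  have b2 : ws p.α (fun j => X.D j * X.G j v v) k ≤ 2 * (X.D k * X.G k v v) :=
    ws_bg (x := fun j => X.D j * X.G j v v) hα.le (fun j => le_rfl)
      (mul_nonneg (h.Dnn 0) (hG0 0)) (fun j => h.bgstep hε1 v j) k
  have b3 : ws p.α (fun j => p.η * p.β ^ j * X.G j v v) k ≤ 2 * (X.D k * X.G k v v) := by
    refine ws_bg (x := fun j => X.D j * X.G j v v) hα.le (fun j => ?_)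
      (mul_nonneg (h.Dnn 0) (hG0 0)) (fun j => h.bgstep hε1 v j) k
    apply mul_le_mul_of_nonneg_right _ (hG0 j)
    refine le_trans ?_ (h.Dη j)
    have := h.hη
    have := h.hβ0
    have := h.hβα
    gcongr
    linarith
  -- S by P
  have s1 : ws p.α (fun j => X.S j v v) k ≤
      p.CL * (2 * ws p.α (fun j => X.P j v) k + 2 * (X.D k * X.G k v v)) := by
    have s11 : ws p.α (fun j => X.S j v v) k ≤ ws p.α (fun j => p.CL *
        (ws (p.α / 2) (fun i => X.P i v) j + p.η * (p.α / 2) ^ j * X.G j v v)) k :=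
      ws_mono hα.le (fun j => h.K j v) k
    rw [ws_mul, ws_add] at s11
    have s12 := ws_ws (r := p.α) (ρ := p.α / 2) (by linarith) le_rfl (fun i => h.Pnn i v) k
    refine s11.trans ?_
    gcongr
  -- P by telescoping
  have s2 := ws_tele (r := p.α) (C := 80 * p.CL ^ 6) hα.le (by linarith [h.α_le]) (by positivity)
    (fun i => h.Pnn i v) (h.er_nonneg v) (h.Pstep hε1 hε2 v) k
  -- the errors
  set θ : ℝ := 1 / (2560 * p.CL ^ 7) with hθ
  have hθ0 : 0 < θ := by positivity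
  have hθ1 : θ ≤ 1 := by
    rw [hθ, div_le_one (by positivity)]
    have : (1:ℝ) ≤ p.CL ^ 7 := one_le_pow₀ hC
    linarith
  have hεθ : p.ε ≤ θ / 2 := by
    rw [hθ]
    refine hε.trans (le_of_eq ?_)
    (field_simp; norm_num)
  have s3 : ∀ j, er p X v j ≤ θ * na p X j v v + 2 / θ * (X.D j * X.G j v v) := by
    intro j
    have hq := h.q_psd j
    have hna := (h.na_psd j).nonneg v
    have e1 := hq.sq v
    have e2 := (h.G j).sq v
    have e3 : Real.sqrt (X.D j) ^ 2 = X.D j := Real.sq_sqrt (h.Dnn j)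
    have hDG : 0 ≤ X.D j * X.G j v v := mul_nonneg (h.Dnn j) (hG0 j)
    have e4 : Real.sqrt (X.D j) * nr (q p X j) v * nr (X.G j) v ≤
        θ / 2 * (q p X j v v) + 1 / (2 * θ) * (X.D j * X.G j v v) := by
      have := sq_nonneg (θ * nr (q p X j) v - Real.sqrt (X.D j) * nr (X.G j) v)
      rw [← e1, ← e2]
      nth_rw 2 [← e3]
      have e5 : Real.sqrt (X.D j) * nr (q p X j) v * nr (X.G j) v * (2 * θ) ≤
        (θ / 2 * nr (q p X j) v ^ 2 + 1 / (2 * θ) * (Real.sqrt (X.D j) ^ 2 * nr (X.G j) v ^ 2)) *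
          (2 * θ) := by
        have e6 : (θ / 2 * nr (q p X j) v ^ 2 +
          1 / (2 * θ) * (Real.sqrt (X.D j) ^ 2 * nr (X.G j) v ^ 2)) * (2 * θ) =
          θ ^ 2 * nr (q p X j) v ^ 2 + Real.sqrt (X.D j) ^ 2 * nr (X.G j) v ^ 2 := by
          field_simp
        rw [e6]
        nlinarith
      exact le_of_mul_le_mul_right e5 (by positivity)
    have e7 : p.ε * q p X j v v ≤ θ / 2 * q p X j v v :=
      mul_le_mul_of_nonneg_right hεθ (hq.nonneg v)
    have e8 : er p X v j ≤ θ * q p X j v v + 1 / (2 * θ) * (X.D j * X.G j v v) := by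
      unfold er
      rw [e1]
      linarith
    rw [q_apply] at e8
    have e9 : θ * (X.D j * X.G j v v) ≤ 1 / θ * (X.D j * X.G j v v) := by
      apply mul_le_mul_of_nonneg_right _ hDG
      rw [le_div_iff₀ hθ0]
      nlinarith
    have e10 : 1 / (2 * θ) * (X.D j * X.G j v v) ≤ 1 / θ * (X.D j * X.G j v v) := by
      apply mul_le_mul_of_nonneg_right _ hDG
      apply one_div_le_one_div_of_le hθ0
      linarith
    have e11 : 2 / θ * (X.D j * X.G j v v) = 1 / θ * (X.D j * X.G j v v) +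
      1 / θ * (X.D j * X.G j v v) := by ring
    rw [e11]
    linarith
  have s4 : ws p.α (er p X v) k ≤ θ * (2 * ws p.α (fun j => X.S j v v) k +
      2 * (X.D k * X.G k v v)) + 2 / θ * (2 * (X.D k * X.G k v v)) := by
    have s41 := ws_mono hα.le s3 k
    have s42 : ws p.α (fun j => θ * na p X j v v + 2 / θ * (X.D j * X.G j v v)) k =
        θ * ws p.α (fun j => na p X j v v) k + 2 / θ * ws p.α (fun j => X.D j * X.G j v v) k := by
      rw [ws_add p.α (fun j => θ * na p X j v v) (fun j => 2 / θ * (X.D j * X.G j v v)), ws_mul,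
        ws_mul]
    have s43 : ws p.α (fun j => na p X j v v) k =
        ws p.α (ws p.β (fun i => X.S i v v)) k +
        ws p.α (fun j => p.η * p.β ^ j * X.G j v v) k := by
      rw [← ws_add]
      congr 1
      funext j
      exact na_apply j v v
    have s44 := ws_ws (r := p.α) (ρ := p.β) h.hβ0.le h.hβα (fun i => hS0 i) k
    rw [s42, s43] at s41
    refine s41.trans ?_
    gcongr
  -- conclusion
  set T' := ws p.α (fun j => X.S j v v) k
  set Y := X.D k * X.G k v v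
  have hY : 0 ≤ Y := mul_nonneg (h.Dnn k) (hG0 k)
  have hT : 0 ≤ T' := ws_nonneg hα.le hS0 k
  have hP : 0 ≤ X.P k v := h.Pnn k v
  have s5 : T' ≤ p.CL * (2 * (2 * X.P k v + 4 * (80 * p.CL ^ 6) *
      (θ * (2 * T' + 2 * Y) + 2 / θ * (2 * Y))) + 2 * Y) := by
    refine s1.trans ?_
    gcongr
    refine s2.trans ?_
    gcongr
  have t1 : p.CL * (2 * (4 * (80 * p.CL ^ 6) * (θ * (2 * T')))) = T' / 2 := by
    rw [hθ]; (field_simp; norm_num)
  have t2 : p.CL * (2 * (4 * (80 * p.CL ^ 6) * (θ * (2 * Y)))) = Y / 2 := by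
    rw [hθ]; (field_simp; norm_num)
  have t3 : p.CL * (2 * (4 * (80 * p.CL ^ 6) * (2 / θ * (2 * Y)))) =
      6553600 * p.CL ^ 14 * Y := by
    rw [hθ]; field_simp; norm_num; ring
  have s6 : T' ≤ 4 * p.CL * X.P k v + T' / 2 + Y / 2 + 6553600 * p.CL ^ 14 * Y + 2 * p.CL * Y := by
    have : p.CL * (2 * (2 * X.P k v + 4 * (80 * p.CL ^ 6) *
      (θ * (2 * T' + 2 * Y) + 2 / θ * (2 * Y))) + 2 * Y) =
      4 * p.CL * X.P k v + p.CL * (2 * (4 * (80 * p.CL ^ 6) * (θ * (2 * T')))) +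
      p.CL * (2 * (4 * (80 * p.CL ^ 6) * (θ * (2 * Y)))) +
      p.CL * (2 * (4 * (80 * p.CL ^ 6) * (2 / θ * (2 * Y)))) + 2 * p.CL * Y := by ring
    rw [this, t1, t2, t3] at s5
    exact s5
  have c1 : p.CL ≤ p.CL ^ 14 := le_self_pow₀ hC (by norm_num)
  have c2 : (1:ℝ) ≤ p.CL ^ 14 := one_le_pow₀ hC
  have d1 := mul_le_mul_of_nonneg_right c1 hP
  have d2 := mul_le_mul_of_nonneg_right c1 hY
  have d3 := mul_le_mul_of_nonneg_right c2 hY
  have d4 : 0 ≤ p.CL ^ 14 * X.P k v := by positivity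
  have d5 : 0 ≤ p.CL ^ 14 * Y := by positivity
  unfold CP
  linarith

end Hyp

end basic

end Vale.Agent.P242.H852
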