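import Vale.Agent.P242.H852.Pers

/-!
# P242, package A-E6P: the discrete core of (A-bound) and (E6'), second version

As `Pers.lean`, but the form `q j = n'_j ^ 2` is a datum (in the application
`q j = Nt (3/8) (t_j) + D_j G_j`), and the growth of `G` is a hypothesis.
-/

open Finset

set_option linter.unusedSectionVars false

noncomputable section

namespace Vale.Agent.P242.H852.V2

open Vale.Agent.P242.H852

universe u

variable {E : Type u} [AddCommGroup E] [Module ℝ E]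

/-- the data at a fixed centre -/
structure Pers (E : Type u) [AddCommGroup E] [Module ℝ E] where
  G : ℕ → BF E
  q : ℕ → BF E
  S : ℕ → E → ℝ
  P : ℕ → E → ℝ
  V : ℕ → ℝ
  D : ℕ → ℝ
  A : ℕ → E →ₗ[ℝ] E

/-- the constants: `α = lam`, `β = lama`, `γ = lamD` -/
structure Par where
  (α β γ η ε CL : ℝ)

variable (p : Par) (X : Pers E)

/-- the hypotheses -/
structure Hyp : Prop where
  hCL : 1 ≤ p.CL
  hβ0 : 0 < p.β
  hβα : p.β ≤ p.α / 2
  hαγ : p.α ≤ p.γ / 4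
  hγ : p.γ ≤ 1 / 2
  hη : 0 ≤ p.η
  hε : 0 < p.ε
  G : ∀ j, PSD (X.G j)
  q : ∀ j, PSD (X.q j)
  S : ∀ j v, 0 ≤ X.S j v
  gr1 : ∀ j v, X.G j v v ≤ 2 * X.G (j + 1) v v
  gr2 : ∀ j v, X.G (j + 1) v v ≤ 2 * X.G j v v
  qD : ∀ j v, X.D j * X.G j v v ≤ X.q j v v
  qε : ∀ j v, X.q j v v ≤ p.CL * p.ε * X.G j v v
  qS : ∀ j v, X.q j v v ≤ p.CL * (ws p.β (fun i => X.S i v) j + X.D j * X.G j v v)
  Dnn : ∀ j, 0 ≤ X.D j
  Dle : ∀ j, X.D j ≤ p.ε
  Dstep : ∀ j, p.γ * X.D j ≤ X.D (j + 1)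
  D0 : p.η ≤ X.D 0
  Gstep : ∀ j v w, |X.G j v w - X.G (j + 1) v w| ≤
    p.CL * (nr (X.q j) v * nr (X.q j) w + nr (X.q (j + 1)) v * nr (X.q (j + 1)) w)
  A0 : ∀ j v, nr (X.G j) (X.A j v) ≤ p.CL * nr (X.G j) v
  A1 : ∀ j v, nr (X.G (j + 1)) (X.A (j + 1) v - X.A j v) ≤
    p.CL * (Real.sqrt (X.D j) * nr (X.q j) v + Real.sqrt (X.D (j + 1)) * nr (X.q (j + 1)) v)
  anti : ∀ j v w, |X.G j (X.A j v) w - X.G j v (X.A j w)| ≤
    p.CL * Real.sqrt (X.D j) * (nr (X.q j) v * nr (X.G j) w + nr (X.q j) w * nr (X.G j) v) +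
    p.CL * Real.sqrt p.ε * (nr (X.G j) (X.A j v) * nr (X.q j) w +
      nr (X.G j) (X.A j w) * nr (X.q j) v)
  M : ∀ j v, |X.P j v - X.V j * X.G j (X.A j v) v| ≤
    p.CL * (Real.sqrt (X.D j) * nr (X.q j) v * nr (X.G j) v +
      Real.sqrt p.ε * nr (X.G j) (X.A j v) * nr (X.q j) v)
  Pnn : ∀ j v, 0 ≤ X.P j v
  Ple : ∀ j v, X.P j v ≤ p.CL * X.q j v v
  Vle : ∀ j, X.V j ≤ p.CL
  Vge : ∀ j, 1 ≤ p.CL * X.V j
  Vstep : ∀ j, |X.V j - X.V (j + 1)| ≤ p.CL * Real.sqrt (X.D j)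
  K : ∀ j v, X.S j v ≤ p.CL * (ws (p.α / 2) (fun i => X.P i v) j +
    p.η * (p.α / 2) ^ j * X.G j v v)

section basic

variable {p : Par} {X : Pers E}

namespace Hyp

variable (h : Hyp p X)
include h

theorem α_pos : 0 < p.α := by linarith [h.hβ0, h.hβα]
theorem γ_pos : 0 < p.γ := by linarith [h.α_pos, h.hαγ]
theorem α_le : p.α ≤ 1 / 8 := by linarith [h.hγ, h.hαγ]
theorem β_le : p.β ≤ 1 / 16 := by linarith [h.α_le, h.hβα]
theorem CL_pos : 0 < p.CL := by linarith [h.hCL]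

theorem D_nr_le (j : ℕ) (v : E) : Real.sqrt (X.D j) * nr (X.G j) v ≤ nr (X.q j) v := by
  unfold nr
  rw [← Real.sqrt_mul (h.Dnn j)]
  exact Real.sqrt_le_sqrt (h.qD j v)

theorem nrq_le (j : ℕ) (v : E) :
    nr (X.q j) v ≤ p.CL * Real.sqrt p.ε * nr (X.G j) v := by
  apply Real.sqrt_le_iff.mpr
  refine ⟨mul_nonneg (mul_nonneg h.CL_pos.le (Real.sqrt_nonneg _)) (nr_nonneg _ _), ?_⟩
  rw [mul_pow, mul_pow, Real.sq_sqrt h.hε.le, (h.G j).sq]
  refine (h.qε j v).trans ?_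
  apply mul_le_mul_of_nonneg_right _ ((h.G j).nonneg v)
  apply mul_le_mul_of_nonneg_right _ h.hε.le
  nlinarith [h.hCL]

theorem Dpow (j : ℕ) : p.η * p.γ ^ j ≤ X.D j := by
  induction j with
  | zero => simpa using h.D0
  | succ j ih =>
    have h1 := mul_le_mul_of_nonneg_left ih h.γ_pos.le
    have h2 := h.Dstep j
    rw [pow_succ]
    nlinarith

theorem Dη (j : ℕ) : p.η * p.α ^ j ≤ X.D j := by
  refine le_trans ?_ (h.Dpow j)
  have := h.α_pos
  have : p.α ≤ p.γ := by linarith [h.hαγ]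
  have := h.hη
  gcongr

/-- the form `n'^2 + ε |A .|^2` -/
def _root_.Vale.Agent.P242.H852.V2.q2 (p : Par) (X : Pers E) (j : ℕ) : BF E :=
  X.q j + p.ε • (X.G j).compl₁₂ (X.A j) (X.A j)

omit h in
theorem q2_apply (j : ℕ) (v w : E) :
    q2 p X j v w = X.q j v w + p.ε * X.G j (X.A j v) (X.A j w) := by
  simp [q2]

theorem q2_psd (j : ℕ) : PSD (q2 p X j) :=
  (h.q j).add (((h.G j).pull (X.A j)).smul h.hε.le)

theorem GA_diag (j : ℕ) (v : E) :
    |X.G j (X.A j v) v| ≤ 3 * p.CL ^ 2 * q2 p X j v v := by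
  have hC := h.hCL
  have hM := h.M j v
  have hP := h.Ple j v
  have hP0 := h.Pnn j v
  have hV := h.Vge j
  have hD := h.D_nr_le j v
  have hn : 0 ≤ nr (X.q j) v := nr_nonneg _ _
  have ha : 0 ≤ nr (X.G j) (X.A j v) := nr_nonneg _ _
  have hn2 := (h.q j).sq v
  have ha2 := (h.G j).sq (X.A j v)
  have hs : Real.sqrt p.ε ^ 2 = p.ε := Real.sq_sqrt h.hε.le
  rw [q2_apply]
  set n := nr (X.q j) v
  set a := nr (X.G j) (X.A j v)
  set g := X.G j (X.A j v) v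
  set s := Real.sqrt p.ε
  rw [← hn2, ← ha2]
  rw [← hn2] at hP
  have hV0 : 0 < X.V j := by nlinarith [h.CL_pos]
  have e1 : Real.sqrt (X.D j) * n * nr (X.G j) v ≤ n ^ 2 := by nlinarith
  have e2 : s * a * n ≤ (p.ε * a ^ 2 + n ^ 2) / 2 := by nlinarith [sq_nonneg (s * a - n)]
  have e3 : |X.V j * g| ≤ p.CL * (5 / 2 * n ^ 2 + p.ε * a ^ 2 / 2) := by
    have h1 : X.V j * g = X.P j v - (X.P j v - X.V j * g) := by ring
    rw [h1]
    refine (abs_sub _ _).trans ?_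
    rw [abs_of_nonneg hP0]
    have h2 : p.CL * (Real.sqrt (X.D j) * n * nr (X.G j) v + s * a * n) ≤
        p.CL * (n ^ 2 + (p.ε * a ^ 2 + n ^ 2) / 2) := by
      have := h.CL_pos
      gcongr
    linarith
  rw [abs_mul, abs_of_pos hV0] at e3
  have e4 : |g| ≤ p.CL * (X.V j * |g|) := by
    have := mul_le_mul_of_nonneg_right hV (abs_nonneg g)
    linarith
  have hεa : 0 ≤ p.ε * a ^ 2 := mul_nonneg h.hε.le (sq_nonneg _)
  calc |g| ≤ p.CL * (X.V j * |g|) := e4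
    _ ≤ p.CL * (p.CL * (5 / 2 * n ^ 2 + p.ε * a ^ 2 / 2)) :=
        mul_le_mul_of_nonneg_left e3 h.CL_pos.le
    _ = p.CL ^ 2 * (5 / 2 * n ^ 2 + p.ε * a ^ 2 / 2) := by ring
    _ ≤ p.CL ^ 2 * (3 * (n ^ 2 + p.ε * a ^ 2)) := by
        apply mul_le_mul_of_nonneg_left _ (by positivity)
        nlinarith [sq_nonneg n]
    _ = _ := by ring

theorem GA_sym (j : ℕ) (v w : E) :
    |(X.G j (X.A j v) w + X.G j v (X.A j w)) / 2| ≤
      3 * p.CL ^ 2 * (nr (q2 p X j) v * nr (q2 p X j) w) := by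
  have hC := h.CL_pos
  have h1 := polar (B := (1 / 2 : ℝ) • ((X.G j).compl₁₂ (X.A j) LinearMap.id +
      (X.G j).compl₁₂ LinearMap.id (X.A j))) (Q := (3 * p.CL ^ 2) • q2 p X j)
    (fun v w => by
      simp only [LinearMap.smul_apply, LinearMap.add_apply, LinearMap.compl₁₂_apply,
        LinearMap.id_apply, smul_eq_mul]
      rw [(h.G j).symm (X.A j v) w, (h.G j).symm v (X.A j w)]
      ring)
    ((h.q2_psd j).smul (by positivity))
    (fun v => by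
      have := h.GA_diag j v
      simp only [LinearMap.smul_apply, LinearMap.add_apply, LinearMap.compl₁₂_apply,
        LinearMap.id_apply, smul_eq_mul]
      rw [(h.G j).symm v (X.A j v)]
      have e : 1 / 2 * (X.G j (X.A j v) v + X.G j (X.A j v) v) = X.G j (X.A j v) v := by ring
      rw [e]
      exact this) v w
  have e1 : ∀ u, nr ((3 * p.CL ^ 2) • q2 p X j) u = Real.sqrt (3 * p.CL ^ 2) * nr (q2 p X j) u := by
    intro u
    unfold nr
    simp only [LinearMap.smul_apply, smul_eq_mul]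
    rw [Real.sqrt_mul (by positivity)]
  rw [e1, e1] at h1
  simp only [LinearMap.smul_apply, LinearMap.add_apply, LinearMap.compl₁₂_apply,
        LinearMap.id_apply, smul_eq_mul] at h1
  have e2 : (X.G j (X.A j v) w + X.G j v (X.A j w)) / 2 =
    1 / 2 * (X.G j (X.A j v) w + X.G j v (X.A j w)) := by ring
  rw [e2]
  refine h1.trans (le_of_eq ?_)
  have e3 : Real.sqrt (3 * p.CL ^ 2) * Real.sqrt (3 * p.CL ^ 2) = 3 * p.CL ^ 2 :=
    Real.mul_self_sqrt (by positivity)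
  calc _ = (Real.sqrt (3 * p.CL ^ 2) * Real.sqrt (3 * p.CL ^ 2)) *
        (nr (q2 p X j) v * nr (q2 p X j) w) := by ring
    _ = _ := by rw [e3]

/-- (A-bound) -/
theorem A_bound (hε2 : p.ε ≤ 1 / (20 * p.CL ^ 3)) (j : ℕ) (v : E) :
    nr (X.G j) (X.A j v) ≤ 22 * p.CL ^ 3 * Real.sqrt p.ε * nr (X.q j) v := by
  have hC := h.hCL
  have hC0 := h.CL_pos
  have hn : 0 ≤ nr (X.q j) v := nr_nonneg _ _
  have ha : 0 ≤ nr (X.G j) (X.A j v) := nr_nonneg _ _
  rcases ha.eq_or_lt with ha0 | ha0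
  · rw [← ha0]; positivity
  have hs0 : 0 ≤ Real.sqrt p.ε := Real.sqrt_nonneg _
  have hs : Real.sqrt p.ε ^ 2 = p.ε := Real.sq_sqrt h.hε.le
  -- w = A v
  have hw1 : nr (X.q j) (X.A j v) ≤ 2 * p.CL * Real.sqrt p.ε * nr (X.G j) (X.A j v) := by
    have h0 := h.nrq_le j (X.A j v)
    have h1 : 0 ≤ p.CL * Real.sqrt p.ε * nr (X.G j) (X.A j v) := by positivity
    linarith
  have hw2 := h.A0 j (X.A j v)
  have hsym := h.GA_sym j v (X.A j v)
  have hanti := h.anti j v (X.A j v)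
  have hD := h.D_nr_le j v
  have hDε : Real.sqrt (X.D j) ≤ Real.sqrt p.ε := Real.sqrt_le_sqrt (h.Dle j)
  have hD0 : 0 ≤ Real.sqrt (X.D j) := Real.sqrt_nonneg _
  have hv2 := (h.G j).sq (X.A j v)
  have hn2v : nr (q2 p X j) v ≤ nr (X.q j) v + Real.sqrt p.ε * nr (X.G j) (X.A j v) := by
    apply Real.sqrt_le_iff.mpr
    refine ⟨by positivity, ?_⟩
    rw [q2_apply, ← (h.q j).sq v, ← hv2]
    have : 0 ≤ nr (X.q j) v * (Real.sqrt p.ε * nr (X.G j) (X.A j v)) := by positivity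
    nlinarith
  have hn2w : nr (q2 p X j) (X.A j v) ≤ 3 * p.CL * Real.sqrt p.ε * nr (X.G j) (X.A j v) := by
    apply Real.sqrt_le_iff.mpr
    refine ⟨by positivity, ?_⟩
    rw [q2_apply, ← (h.q j).sq (X.A j v), ← (h.G j).sq (X.A j (X.A j v))]
    have h1 : nr (X.q j) (X.A j v) ^ 2 ≤
        (2 * p.CL * Real.sqrt p.ε * nr (X.G j) (X.A j v)) ^ 2 :=
      pow_le_pow_left₀ (nr_nonneg _ _) hw1 2
    have h2 : nr (X.G j) (X.A j (X.A j v)) ^ 2 ≤ (p.CL * nr (X.G j) (X.A j v)) ^ 2 :=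
      pow_le_pow_left₀ (nr_nonneg _ _) hw2 2
    have h3 := mul_le_mul_of_nonneg_left h2 h.hε.le
    have h4 : 0 ≤ p.ε * (p.CL * nr (X.G j) (X.A j v)) ^ 2 := by have := h.hε; positivity
    calc nr (X.q j) (X.A j v) ^ 2 + p.ε * nr (X.G j) (X.A j (X.A j v)) ^ 2
        ≤ (2 * p.CL * Real.sqrt p.ε * nr (X.G j) (X.A j v)) ^ 2 +
          p.ε * (p.CL * nr (X.G j) (X.A j v)) ^ 2 := by linarith
      _ = 5 * (p.ε * (p.CL * nr (X.G j) (X.A j v)) ^ 2) := by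
          rw [mul_pow, mul_pow, hs]; ring
      _ ≤ 9 * (p.ε * (p.CL * nr (X.G j) (X.A j v)) ^ 2) := by linarith
      _ = (3 * p.CL * Real.sqrt p.ε * nr (X.G j) (X.A j v)) ^ 2 := by
          have e : (3 * p.CL * Real.sqrt p.ε * nr (X.G j) (X.A j v)) ^ 2 =
            9 * (Real.sqrt p.ε ^ 2 * (p.CL * nr (X.G j) (X.A j v)) ^ 2) := by ring
          rw [e, hs]
  have hn2v0 : 0 ≤ nr (q2 p X j) v := nr_nonneg _ _
  have hn2w0 : 0 ≤ nr (q2 p X j) (X.A j v) := nr_nonneg _ _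
  have hw10 : 0 ≤ nr (X.q j) (X.A j v) := nr_nonneg _ _
  have hAA0 : 0 ≤ nr (X.G j) (X.A j (X.A j v)) := nr_nonneg _ _
  have hv0 : 0 ≤ nr (X.G j) v := nr_nonneg _ _
  set n := nr (X.q j) v
  set a := nr (X.G j) (X.A j v)
  set s := Real.sqrt p.ε
  set C := p.CL
  have h1 : X.G j (X.A j v) (X.A j v) ≤
      3 * C ^ 2 * (nr (q2 p X j) v * nr (q2 p X j) (X.A j v)) +
      (C * Real.sqrt (X.D j) * (n * a + nr (X.q j) (X.A j v) * nr (X.G j) v) +
       C * s * (a * nr (X.q j) (X.A j v) + nr (X.G j) (X.A j (X.A j v)) * n)) / 2 := by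
    rw [abs_le] at hsym hanti
    linarith [hsym.2, hanti.2]
  have h2 : nr (q2 p X j) v * nr (q2 p X j) (X.A j v) ≤ (n + s * a) * (3 * C * s * a) := by
    gcongr
  have h3 : Real.sqrt (X.D j) * (n * a) ≤ s * (n * a) := by gcongr
  have h4 : Real.sqrt (X.D j) * (nr (X.q j) (X.A j v) * nr (X.G j) v) ≤ n * (2 * C * s * a) := by
    calc _ = (Real.sqrt (X.D j) * nr (X.G j) v) * nr (X.q j) (X.A j v) := by ring
      _ ≤ n * (2 * C * s * a) := by gcongr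
  have h5 : a * nr (X.q j) (X.A j v) ≤ a * (2 * C * s * a) := by gcongr
  have h6 : nr (X.G j) (X.A j (X.A j v)) * n ≤ C * a * n := by gcongr
  rw [← hv2] at h1
  have h7 : a ^ 2 ≤ 3 * C ^ 2 * ((n + s * a) * (3 * C * s * a)) +
      (C * (s * (n * a) + n * (2 * C * s * a)) + C * s * (a * (2 * C * s * a) + C * a * n)) / 2 := by
    refine h1.trans ?_
    have e1 : C * Real.sqrt (X.D j) * (n * a + nr (X.q j) (X.A j v) * nr (X.G j) v) =
      C * (Real.sqrt (X.D j) * (n * a) +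
        Real.sqrt (X.D j) * (nr (X.q j) (X.A j v) * nr (X.G j) v)) := by ring
    rw [e1]
    gcongr
  exact abound_alg hC ha0 hn hs0 hs h.hε hε2 h7

theorem nrG_succ (j : ℕ) (v : E) :
    nr (X.G (j + 1)) v ≤ 3 / 2 * nr (X.G j) v := by
  apply Real.sqrt_le_iff.mpr
  refine ⟨mul_nonneg (by norm_num) (nr_nonneg _ _), ?_⟩
  rw [mul_pow, (h.G j).sq]
  have := h.gr2 j v
  have := (h.G j).nonneg v
  linarith

end Hyp

/-- the error at level `j` -/
def er (p : Par) (X : Pers E) (v : E) (j : ℕ) : ℝ :=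
  Real.sqrt (X.D j) * nr (X.q j) v * nr (X.G j) v + p.ε * nr (X.q j) v ^ 2

namespace Hyp

variable (h : Hyp p X)
include h

theorem er_nonneg (v : E) (j : ℕ) : 0 ≤ er p X v j := by
  have h1 : 0 ≤ nr (X.q j) v := nr_nonneg _ _
  have h2 : 0 ≤ nr (X.G j) v := nr_nonneg _ _
  have h3 := h.hε
  unfold er; positivity

theorem er1 (v : E) (j : ℕ) : Real.sqrt (X.D j) * nr (X.q j) v * nr (X.G j) v ≤ er p X v j := by
  unfold er
  have := mul_nonneg h.hε.le (sq_nonneg (nr (X.q j) v))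
  linarith

theorem er2 (v : E) (j : ℕ) : p.ε * nr (X.q j) v ^ 2 ≤ er p X v j := by
  unfold er
  have := mul_nonneg (mul_nonneg (Real.sqrt_nonneg (X.D j)) (nr_nonneg (X.q j) v))
    (nr_nonneg (X.G j) v)
  linarith

variable (hε2 : p.ε ≤ 1 / (20 * p.CL ^ 3))
include hε2

theorem sε_le_one : Real.sqrt p.ε ≤ 1 := by
  rw [Real.sqrt_le_one]
  refine hε2.trans ?_
  rw [div_le_one (by have := h.CL_pos; positivity)]
  have : (1:ℝ) ≤ p.CL ^ 3 := one_le_pow₀ h.hCL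
  linarith

/-- first error: `P_j - V_j G_j(A_j c, c)` -/
theorem step0 (j : ℕ) (v : E) :
    |X.P j v - X.V j * X.G j (X.A j v) v| ≤ 22 * p.CL ^ 4 * er p X v j := by
  have hC := h.hCL
  have hC0 := h.CL_pos
  refine (h.M j v).trans ?_
  have h1 := h.A_bound hε2 j v
  have hn : 0 ≤ nr (X.q j) v := nr_nonneg _ _
  have hs : Real.sqrt p.ε ^ 2 = p.ε := Real.sq_sqrt h.hε.le
  have hs0 : 0 ≤ Real.sqrt p.ε := Real.sqrt_nonneg _
  have e1 := h.er1 v j
  have h2 : Real.sqrt p.ε * nr (X.G j) (X.A j v) * nr (X.q j) v ≤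
      Real.sqrt p.ε * (22 * p.CL ^ 3 * Real.sqrt p.ε * nr (X.q j) v) * nr (X.q j) v := by
    gcongr
  have h3 : Real.sqrt p.ε * (22 * p.CL ^ 3 * Real.sqrt p.ε * nr (X.q j) v) * nr (X.q j) v =
      22 * p.CL ^ 3 * (p.ε * nr (X.q j) v ^ 2) := by
    calc _ = 22 * p.CL ^ 3 * (Real.sqrt p.ε ^ 2 * nr (X.q j) v ^ 2) := by ring
      _ = _ := by rw [hs]
  rw [h3] at h2
  have h5 : 0 ≤ Real.sqrt (X.D j) * nr (X.q j) v * nr (X.G j) v :=
    mul_nonneg (mul_nonneg (Real.sqrt_nonneg _) hn) (nr_nonneg _ _)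
  have hC3 : (1:ℝ) ≤ p.CL ^ 3 := one_le_pow₀ hC
  have h6 : Real.sqrt (X.D j) * nr (X.q j) v * nr (X.G j) v ≤
      22 * p.CL ^ 3 * (Real.sqrt (X.D j) * nr (X.q j) v * nr (X.G j) v) :=
    le_mul_of_one_le_left h5 (by linarith)
  calc _ ≤ p.CL * (22 * p.CL ^ 3 * (Real.sqrt (X.D j) * nr (X.q j) v * nr (X.G j) v) +
        22 * p.CL ^ 3 * (p.ε * nr (X.q j) v ^ 2)) := by gcongr
    _ = _ := by unfold er; ring

theorem step1 (j : ℕ) (v : E) :
    |(X.V j - X.V (j + 1)) * X.G j (X.A j v) v| ≤ 22 * p.CL ^ 4 * er p X v j := by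
  have hC := h.hCL
  have hC0 := h.CL_pos
  rw [abs_mul]
  have h1 := h.A_bound hε2 j v
  have h2 := (h.G j).cs (X.A j v) v
  have h3 := h.Vstep j
  have h4 := h.er1 v j
  have h5 := h.sε_le_one hε2
  have hn : 0 ≤ nr (X.q j) v := nr_nonneg _ _
  have hg : 0 ≤ nr (X.G j) v := nr_nonneg _ _
  calc |X.V j - X.V (j + 1)| * |X.G j (X.A j v) v|
      ≤ (p.CL * Real.sqrt (X.D j)) * (nr (X.G j) (X.A j v) * nr (X.G j) v) := by gcongr
    _ ≤ (p.CL * Real.sqrt (X.D j)) *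
        ((22 * p.CL ^ 3 * 1 * nr (X.q j) v) * nr (X.G j) v) := by
        gcongr
        refine h1.trans ?_
        gcongr
    _ = 22 * p.CL ^ 4 * (Real.sqrt (X.D j) * nr (X.q j) v * nr (X.G j) v) := by ring
    _ ≤ _ := by gcongr

theorem step2 (j : ℕ) (v : E) :
    |X.V (j + 1) * (X.G j (X.A j v) v - X.G (j + 1) (X.A j v) v)| ≤
      39 * p.CL ^ 6 * (er p X v j + er p X v (j + 1)) := by
  have hC := h.hCL
  have hC0 := h.CL_pos
  have hn : 0 ≤ nr (X.q j) v := nr_nonneg _ _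
  have hn' : 0 ≤ nr (X.q (j + 1)) v := nr_nonneg _ _
  have hs : Real.sqrt p.ε ^ 2 = p.ε := Real.sq_sqrt h.hε.le
  have hs0 : 0 ≤ Real.sqrt p.ε := Real.sqrt_nonneg _
  have h1 := h.A_bound hε2 j v
  have h2 := h.nrG_succ j (X.A j v)
  have hV : |X.V (j + 1)| ≤ p.CL := by
    rw [abs_of_nonneg]
    · exact h.Vle _
    · have := h.Vge (j + 1)
      by_contra hc
      push Not at hc
      nlinarith
  have h4 : nr (X.q j) (X.A j v) ≤ 22 * p.CL ^ 4 * p.ε * nr (X.q j) v := by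
    calc _ ≤ p.CL * Real.sqrt p.ε * nr (X.G j) (X.A j v) := h.nrq_le j _
      _ ≤ p.CL * Real.sqrt p.ε * (22 * p.CL ^ 3 * Real.sqrt p.ε * nr (X.q j) v) := by gcongr
      _ = 22 * p.CL ^ 4 * (Real.sqrt p.ε ^ 2) * nr (X.q j) v := by ring
      _ = _ := by rw [hs]
  have h4' : nr (X.q (j + 1)) (X.A j v) ≤ 33 * p.CL ^ 4 * p.ε * nr (X.q j) v := by
    calc _ ≤ p.CL * Real.sqrt p.ε * nr (X.G (j + 1)) (X.A j v) := h.nrq_le (j + 1) _
      _ ≤ p.CL * Real.sqrt p.ε * (3 / 2 * (22 * p.CL ^ 3 * Real.sqrt p.ε * nr (X.q j) v)) := by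
          gcongr
          exact h2.trans (by gcongr)
      _ = 33 * p.CL ^ 4 * (Real.sqrt p.ε ^ 2) * nr (X.q j) v := by ring
      _ = _ := by rw [hs]
  have h7 := h.Gstep j (X.A j v) v
  have hε0 := h.hε
  have h9 : nr (X.q j) v * nr (X.q (j + 1)) v ≤
      (nr (X.q j) v ^ 2 + nr (X.q (j + 1)) v ^ 2) / 2 := by
    nlinarith [sq_nonneg (nr (X.q j) v - nr (X.q (j + 1)) v)]
  have h10 := h.er2 v j
  have h11 := h.er2 v (j + 1)
  have e10 := h.er_nonneg v j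
  have e11 := h.er_nonneg v (j + 1)
  have c6 : 0 ≤ p.CL ^ 6 := by positivity
  rw [abs_mul]
  calc |X.V (j + 1)| * |X.G j (X.A j v) v - X.G (j + 1) (X.A j v) v|
      ≤ p.CL * (p.CL * ((22 * p.CL ^ 4 * p.ε * nr (X.q j) v) * nr (X.q j) v +
          (33 * p.CL ^ 4 * p.ε * nr (X.q j) v) * nr (X.q (j + 1)) v)) := by
        gcongr
        exact h7.trans (by gcongr)
    _ = p.CL ^ 6 * (22 * (p.ε * nr (X.q j) v ^ 2) +
          33 * (p.ε * (nr (X.q j) v * nr (X.q (j + 1)) v))) := by ring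
    _ ≤ p.CL ^ 6 * (22 * (p.ε * nr (X.q j) v ^ 2) +
          33 * (p.ε * ((nr (X.q j) v ^ 2 + nr (X.q (j + 1)) v ^ 2) / 2))) := by gcongr
    _ ≤ p.CL ^ 6 * (39 * (er p X v j + er p X v (j + 1))) := by
        apply mul_le_mul_of_nonneg_left _ c6
        linarith
    _ = _ := by ring

theorem step3 (j : ℕ) (v : E) :
    |X.V (j + 1) * X.G (j + 1) (X.A (j + 1) v - X.A j v) v| ≤
      2 * p.CL ^ 2 * (er p X v j + er p X v (j + 1)) := by
  have hC := h.hCL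
  have hC0 := h.CL_pos
  have hn : 0 ≤ nr (X.q j) v := nr_nonneg _ _
  have hn' : 0 ≤ nr (X.q (j + 1)) v := nr_nonneg _ _
  have hV : |X.V (j + 1)| ≤ p.CL := by
    rw [abs_of_nonneg]
    · exact h.Vle _
    · have := h.Vge (j + 1)
      by_contra hc
      push Not at hc
      nlinarith
  have h1 := h.A1 j v
  have h2 := (h.G (j + 1)).cs (X.A (j + 1) v - X.A j v) v
  have h3 := h.nrG_succ j v
  have h4 := h.er1 v j
  have h5 := h.er1 v (j + 1)
  have hg' : 0 ≤ nr (X.G (j + 1)) v := nr_nonneg _ _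
  have hg : 0 ≤ nr (X.G j) v := nr_nonneg _ _
  have hD : 0 ≤ Real.sqrt (X.D j) := Real.sqrt_nonneg _
  rw [abs_mul]
  have h6 : Real.sqrt (X.D j) * nr (X.q j) v * nr (X.G (j + 1)) v ≤
      3 / 2 * (Real.sqrt (X.D j) * nr (X.q j) v * nr (X.G j) v) := by
    calc _ ≤ Real.sqrt (X.D j) * nr (X.q j) v * (3 / 2 * nr (X.G j) v) := by gcongr
      _ = _ := by ring
  have h7 := h.er_nonneg v j
  have h8 := h.er_nonneg v (j + 1)
  calc |X.V (j + 1)| * |X.G (j + 1) (X.A (j + 1) v - X.A j v) v|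
      ≤ p.CL * ((p.CL * (Real.sqrt (X.D j) * nr (X.q j) v +
        Real.sqrt (X.D (j + 1)) * nr (X.q (j + 1)) v)) * nr (X.G (j + 1)) v) := by
        gcongr
        exact h2.trans (by gcongr)
    _ = p.CL ^ 2 * (Real.sqrt (X.D j) * nr (X.q j) v * nr (X.G (j + 1)) v +
        Real.sqrt (X.D (j + 1)) * nr (X.q (j + 1)) v * nr (X.G (j + 1)) v) := by ring
    _ ≤ p.CL ^ 2 * (2 * er p X v j + 2 * er p X v (j + 1)) := by
        apply mul_le_mul_of_nonneg_left _ (by positivity)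
        linarith
    _ = _ := by ring

theorem Pstep (v : E) (j : ℕ) :
    |X.P j v - X.P (j + 1) v| ≤ 85 * p.CL ^ 6 * (er p X v j + er p X v (j + 1)) := by
  have hC := h.hCL
  have a0 := h.step0 hε2 j v
  have a0' := h.step0 hε2 (j + 1) v
  have a1 := h.step1 hε2 j v
  have a2 := h.step2 hε2 j v
  have a3 := h.step3 hε2 j v
  have e0 := h.er_nonneg v j
  have e1 := h.er_nonneg v (j + 1)
  have c4 : p.CL ^ 4 ≤ p.CL ^ 6 := pow_le_pow_right₀ hC (by norm_num)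
  have c2 : p.CL ^ 2 ≤ p.CL ^ 6 := pow_le_pow_right₀ hC (by norm_num)
  have b1 := mul_le_mul_of_nonneg_right c4 e0
  have b2 := mul_le_mul_of_nonneg_right c4 e1
  have b3 := mul_le_mul_of_nonneg_right c2 (add_nonneg e0 e1)
  have b4 := mul_nonneg (pow_nonneg (h.CL_pos.le) 6) e0
  have b5 := mul_nonneg (pow_nonneg (h.CL_pos.le) 6) e1
  have key : X.P j v - X.P (j + 1) v = (X.P j v - X.V j * X.G j (X.A j v) v) -
      (X.P (j + 1) v - X.V (j + 1) * X.G (j + 1) (X.A (j + 1) v) v) +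
      (X.V j - X.V (j + 1)) * X.G j (X.A j v) v +
      X.V (j + 1) * (X.G j (X.A j v) v - X.G (j + 1) (X.A j v) v) -
      X.V (j + 1) * X.G (j + 1) (X.A (j + 1) v - X.A j v) v := by
    simp only [map_sub, LinearMap.sub_apply]
    ring
  rw [abs_le] at a0 a0' a1 a2 a3 ⊢
  constructor <;> linarith [a0.1, a0.2, a0'.1, a0'.2, a1.1, a1.2, a2.1, a2.2, a3.1, a3.2]

end Hyp

/-- the final constant -/
def CP (p : Par) : ℝ := 5000000 * p.CL ^ 15

namespace Hyp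

variable (h : Hyp p X)
include h

theorem eps_all (hε : p.ε ≤ 1 / (5760 * p.CL ^ 8)) : p.ε ≤ 1 / (20 * p.CL ^ 3) := by
  have hC := h.hCL
  have hC0 := h.CL_pos
  have c2 : p.CL ^ 3 ≤ p.CL ^ 8 := pow_le_pow_right₀ hC (by norm_num)
  refine hε.trans (one_div_le_one_div_of_le (by positivity) ?_)
  nlinarith [pow_pos hC0 3]

/-- the background decays slowly -/
theorem bgstep (v : E) (j : ℕ) :
    p.α * (X.D j * X.G j v v) ≤ 1 / 2 * (X.D (j + 1) * X.G (j + 1) v v) := by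
  have h1 := h.gr1 j v
  have h2 := h.Dstep j
  have hG := (h.G (j + 1)).nonneg v
  have hα := h.α_pos
  have hD := h.Dnn j
  calc p.α * (X.D j * X.G j v v) ≤ (p.γ / 4) * (X.D j * (2 * X.G (j + 1) v v)) := by
        have := h.hαγ
        have := (h.G j).nonneg v
        have := h.γ_pos
        gcongr
    _ = 1 / 2 * ((p.γ * X.D j) * X.G (j + 1) v v) := by ring
    _ ≤ _ := by gcongr

/-- (E6'), discrete form -/
theorem persist (hε : p.ε ≤ 1 / (5760 * p.CL ^ 8)) (k : ℕ) (v : E) :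
    ws p.α (fun j => X.S j v) k ≤ CP p * (X.P k v + X.D k * X.G k v v) := by
  have hε2 := h.eps_all hε
  have hC := h.hCL
  have hC0 := h.CL_pos
  have hα := h.α_pos
  have hS0 : ∀ j, 0 ≤ X.S j v := fun j => h.S j v
  have hG0 : ∀ j, 0 ≤ X.G j v v := fun j => (h.G j).nonneg v
  -- the two sums
  have b1 : ws p.α (fun j => p.η * (p.α / 2) ^ j * X.G j v v) k ≤ 2 * (X.D k * X.G k v v) := by
    refine ws_bg (x := fun j => X.D j * X.G j v v) hα.le (fun j => ?_)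
      (mul_nonneg (h.Dnn 0) (hG0 0)) (fun j => h.bgstep v j) k
    apply mul_le_mul_of_nonneg_right _ (hG0 j)
    refine le_trans ?_ (h.Dη j)
    have := h.hη
    gcongr
    linarith
  have b2 : ws p.α (fun j => X.D j * X.G j v v) k ≤ 2 * (X.D k * X.G k v v) :=
    ws_bg (x := fun j => X.D j * X.G j v v) hα.le (fun j => le_rfl)
      (mul_nonneg (h.Dnn 0) (hG0 0)) (fun j => h.bgstep v j) k
  -- S by P
  have s1 : ws p.α (fun j => X.S j v) k ≤
      p.CL * (2 * ws p.α (fun j => X.P j v) k + 2 * (X.D k * X.G k v v)) := by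
    have s11 : ws p.α (fun j => X.S j v) k ≤ ws p.α (fun j => p.CL *
        (ws (p.α / 2) (fun i => X.P i v) j + p.η * (p.α / 2) ^ j * X.G j v v)) k :=
      ws_mono hα.le (fun j => h.K j v) k
    rw [ws_mul, ws_add] at s11
    have s12 := ws_ws (r := p.α) (ρ := p.α / 2) (by linarith) le_rfl (fun i => h.Pnn i v) k
    refine s11.trans ?_
    gcongr
  -- P by telescoping
  have s2 := ws_tele (r := p.α) (C := 85 * p.CL ^ 6) hα.le (by linarith [h.α_le]) (by positivity)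
    (fun i => h.Pnn i v) (h.er_nonneg v) (h.Pstep hε2 v) k
  -- the errors
  set θ : ℝ := 1 / (2880 * p.CL ^ 8) with hθ
  have hθ0 : 0 < θ := by positivity
  have hεθ : p.ε ≤ θ / 2 := by
    rw [hθ]
    refine hε.trans (le_of_eq ?_)
    (field_simp; norm_num)
  have s3 : ∀ j, er p X v j ≤ θ * X.q j v v + 1 / (2 * θ) * (X.D j * X.G j v v) := by
    intro j
    have hq := h.q j
    have e1 := hq.sq v
    have e2 := (h.G j).sq v
    have e3 : Real.sqrt (X.D j) ^ 2 = X.D j := Real.sq_sqrt (h.Dnn j)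
    have e4 : Real.sqrt (X.D j) * nr (X.q j) v * nr (X.G j) v ≤
        θ / 2 * (X.q j v v) + 1 / (2 * θ) * (X.D j * X.G j v v) := by
      have := sq_nonneg (θ * nr (X.q j) v - Real.sqrt (X.D j) * nr (X.G j) v)
      rw [← e1, ← e2]
      nth_rw 2 [← e3]
      have e5 : Real.sqrt (X.D j) * nr (X.q j) v * nr (X.G j) v * (2 * θ) ≤
        (θ / 2 * nr (X.q j) v ^ 2 + 1 / (2 * θ) * (Real.sqrt (X.D j) ^ 2 * nr (X.G j) v ^ 2)) *
          (2 * θ) := by
        have e6 : (θ / 2 * nr (X.q j) v ^ 2 +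
          1 / (2 * θ) * (Real.sqrt (X.D j) ^ 2 * nr (X.G j) v ^ 2)) * (2 * θ) =
          θ ^ 2 * nr (X.q j) v ^ 2 + Real.sqrt (X.D j) ^ 2 * nr (X.G j) v ^ 2 := by
          field_simp
        rw [e6]
        nlinarith
      exact le_of_mul_le_mul_right e5 (by positivity)
    have e7 : p.ε * X.q j v v ≤ θ / 2 * X.q j v v :=
      mul_le_mul_of_nonneg_right hεθ (hq.nonneg v)
    unfold er
    rw [e1]
    linarith
  have s4 : ws p.α (er p X v) k ≤ θ * (p.CL * (2 * ws p.α (fun j => X.S j v) k +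
      2 * (X.D k * X.G k v v))) + 1 / (2 * θ) * (2 * (X.D k * X.G k v v)) := by
    have s41 := ws_mono hα.le s3 k
    have s42 : ws p.α (fun j => θ * X.q j v v + 1 / (2 * θ) * (X.D j * X.G j v v)) k =
        θ * ws p.α (fun j => X.q j v v) k +
          1 / (2 * θ) * ws p.α (fun j => X.D j * X.G j v v) k := by
      rw [ws_add p.α (fun j => θ * X.q j v v) (fun j => 1 / (2 * θ) * (X.D j * X.G j v v)),
        ws_mul, ws_mul]
    have s43 : ws p.α (fun j => X.q j v v) k ≤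
        p.CL * (ws p.α (ws p.β (fun i => X.S i v)) k +
        ws p.α (fun j => X.D j * X.G j v v) k) := by
      refine (ws_mono hα.le (fun j => h.qS j v) k).trans (le_of_eq ?_)
      rw [ws_mul, ws_add]
    have s44 := ws_ws (r := p.α) (ρ := p.β) h.hβ0.le h.hβα (fun i => hS0 i) k
    rw [s42] at s41
    refine s41.trans ?_
    gcongr
    refine s43.trans ?_
    gcongr
  -- conclusion
  set T' := ws p.α (fun j => X.S j v) k
  set Y := X.D k * X.G k v v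
  have hY : 0 ≤ Y := mul_nonneg (h.Dnn k) (hG0 k)
  have hT : 0 ≤ T' := ws_nonneg hα.le hS0 k
  have hP : 0 ≤ X.P k v := h.Pnn k v
  have s5 : T' ≤ p.CL * (2 * (2 * X.P k v + 4 * (85 * p.CL ^ 6) *
      (θ * (p.CL * (2 * T' + 2 * Y)) + 1 / (2 * θ) * (2 * Y))) + 2 * Y) := by
    refine s1.trans ?_
    gcongr
    refine s2.trans ?_
    gcongr
  have t1 : p.CL * (2 * (4 * (85 * p.CL ^ 6) * (θ * (p.CL * (2 * T'))))) = 17 / 36 * T' := by
    rw [hθ]; field_simp; ring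
  have t2 : p.CL * (2 * (4 * (85 * p.CL ^ 6) * (θ * (p.CL * (2 * Y))))) = 17 / 36 * Y := by
    rw [hθ]; field_simp; ring
  have t3 : p.CL * (2 * (4 * (85 * p.CL ^ 6) * (1 / (2 * θ) * (2 * Y)))) =
      1958400 * p.CL ^ 15 * Y := by
    rw [hθ]; field_simp; ring
  have s6 : T' ≤ 4 * p.CL * X.P k v + 17 / 36 * T' + 17 / 36 * Y + 1958400 * p.CL ^ 15 * Y +
      2 * p.CL * Y := by
    have : p.CL * (2 * (2 * X.P k v + 4 * (85 * p.CL ^ 6) *
      (θ * (p.CL * (2 * T' + 2 * Y)) + 1 / (2 * θ) * (2 * Y))) + 2 * Y) =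
      4 * p.CL * X.P k v + p.CL * (2 * (4 * (85 * p.CL ^ 6) * (θ * (p.CL * (2 * T'))))) +
      p.CL * (2 * (4 * (85 * p.CL ^ 6) * (θ * (p.CL * (2 * Y))))) +
      p.CL * (2 * (4 * (85 * p.CL ^ 6) * (1 / (2 * θ) * (2 * Y)))) + 2 * p.CL * Y := by ring
    rw [this, t1, t2, t3] at s5
    exact s5
  have c1 : p.CL ≤ p.CL ^ 15 := le_self_pow₀ hC (by norm_num)
  have c2 : (1:ℝ) ≤ p.CL ^ 15 := one_le_pow₀ hC
  have d1 := mul_le_mul_of_nonneg_right c1 hP
  have d2 := mul_le_mul_of_nonneg_right c1 hY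
  have d3 := mul_le_mul_of_nonneg_right c2 hY
  have d4 : 0 ≤ p.CL ^ 15 * X.P k v := by positivity
  have d5 : 0 ≤ p.CL ^ 15 * Y := by positivity
  unfold CP
  linarith

end Hyp

end basic

end Vale.Agent.P242.H852.V2
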